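import Vale.Agent.Lib.P154N.D6.Data
import Vale.Agent.Lib.P154N.Red

/-!
# Leaves of the tree of triangles
-/

namespace Vale.Agent.Lib.P154N.D6

open Vale.Agent.Lib.P154K Vale.Agent.Lib.P154Neg

theorem l0 : HoldsN X2 (Trg.left (Trg.left (Trg.left (chamberN 9 22)))) (Trg.left (Trg.left (Trg.left (chamberN 9 22)))) :=
  HoldsN.of_red (k := 16) (m := 16) (leaf ok2 (G437 _ rfl) (G227 _ rfl) (G227 _ rfl) (by decide +kernel))
theorem l1 : HoldsN X2 (Trg.left (Trg.left (Trg.left (chamberN 9 22)))) (Trg.right (Trg.left (Trg.left (chamberN 9 22)))) :=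
  HoldsN.of_red (k := 16) (m := 16) (leaf ok2 (G400 _ rfl) (G297 _ rfl) (G258 _ rfl) (by decide +kernel))
theorem l2 : HoldsN X2 (Trg.left (Trg.left (Trg.left (chamberN 9 22)))) (Trg.right (Trg.left (chamberN 9 22))) :=
  HoldsN.of_red (k := 16) (m := 16) (leaf ok2 (G437 _ rfl) (G228 _ rfl) (G183 _ rfl) (by decide +kernel))
theorem l3 : HoldsN X2 (Trg.right (Trg.left (Trg.left (chamberN 9 22)))) (Trg.left (Trg.left (Trg.left (chamberN 9 22)))) :=
  HoldsN.of_red (k := 16) (m := 16) (leaf ok2 (G400 _ rfl) (G258 _ rfl) (G297 _ rfl) (by decide +kernel))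
theorem l4 : HoldsN X2 (Trg.right (Trg.left (Trg.left (chamberN 9 22)))) (Trg.right (Trg.left (Trg.left (chamberN 9 22)))) :=
  HoldsN.of_red (k := 16) (m := 16) (leaf ok2 (G391 _ rfl) (G317 _ rfl) (G317 _ rfl) (by decide +kernel))
theorem l5 : HoldsN X2 (Trg.right (Trg.left (Trg.left (chamberN 9 22)))) (Trg.right (Trg.left (chamberN 9 22))) :=
  HoldsN.of_red (k := 16) (m := 16) (leaf ok2 (G400 _ rfl) (G260 _ rfl) (G260 _ rfl) (by decide +kernel))
theorem l6 : HoldsN X2 (Trg.right (Trg.left (chamberN 9 22))) (Trg.left (Trg.left (Trg.left (chamberN 9 22)))) :=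
  HoldsN.of_red (k := 16) (m := 16) (leaf ok2 (G437 _ rfl) (G183 _ rfl) (G228 _ rfl) (by decide +kernel))
theorem l7 : HoldsN X2 (Trg.right (Trg.left (chamberN 9 22))) (Trg.right (Trg.left (Trg.left (chamberN 9 22)))) :=
  HoldsN.of_red (k := 16) (m := 16) (leaf ok2 (G400 _ rfl) (G260 _ rfl) (G260 _ rfl) (by decide +kernel))
theorem l8 : HoldsN X2 (Trg.left (Trg.right (Trg.left (chamberN 9 22)))) (Trg.left (Trg.right (Trg.left (chamberN 9 22)))) :=
  HoldsN.of_red (k := 16) (m := 16) (leaf ok2 (G434 _ rfl) (G224 _ rfl) (G224 _ rfl) (by decide +kernel))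
theorem l9 : HoldsN X2 (Trg.left (Trg.right (Trg.left (chamberN 9 22)))) (Trg.right (Trg.right (Trg.left (chamberN 9 22)))) :=
  HoldsN.of_red (k := 16) (m := 16) (leaf ok2 (G435 _ rfl) (G180 _ rfl) (G261 _ rfl) (by decide +kernel))

end Vale.Agent.Lib.P154N.D6
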