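import Vale.Agent.Lib.P154N.D6.Data
import Vale.Agent.Lib.P154N.Red

/-!
# Leaves of the tree of triangles
-/

namespace Vale.Agent.Lib.P154N.D6

open Vale.Agent.Lib.P154K Vale.Agent.Lib.P154Neg

theorem l10 : HoldsN X2 (Trg.left (Trg.right (Trg.right (Trg.left (chamberN 9 22))))) (Trg.right (Trg.left (chamberN 9 22))) :=
  HoldsN.of_red (k := 16) (m := 16) (leaf ok2 (G467 _ rfl) (G211 _ rfl) (G178 _ rfl) (by decide +kernel))
theorem l11 : HoldsN X2 (Trg.right (Trg.right (Trg.right (Trg.left (chamberN 9 22))))) (Trg.right (Trg.left (chamberN 9 22))) :=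
  HoldsN.of_red (k := 16) (m := 16) (leaf ok2 (G435 _ rfl) (G209 _ rfl) (G227 _ rfl) (by decide +kernel))
theorem l12 : HoldsN X2 (Trg.left (chamberN 9 22)) (Trg.left (Trg.right (chamberN 9 22))) :=
  HoldsN.of_red (k := 16) (m := 16) (leaf ok2 (G416 _ rfl) (G119 _ rfl) (G234 _ rfl) (by decide +kernel))
theorem l13 : HoldsN X2 (Trg.left (Trg.left (Trg.left (Trg.left (chamberN 9 22))))) (Trg.left (Trg.left (Trg.right (Trg.right (chamberN 9 22))))) :=
  HoldsN.of_red (k := 16) (m := 16) (leaf ok2 (G421 _ rfl) (G237 _ rfl) (G348 _ rfl) (by decide +kernel))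
theorem l14 : HoldsN X2 (Trg.left (Trg.left (Trg.left (Trg.left (chamberN 9 22))))) (Trg.right (Trg.left (Trg.right (Trg.right (chamberN 9 22))))) :=
  HoldsN.of_red (k := 16) (m := 16) (leaf ok2 (G395 _ rfl) (G293 _ rfl) (G347 _ rfl) (by decide +kernel))
theorem l15 : HoldsN X2 (Trg.right (Trg.left (Trg.left (Trg.left (chamberN 9 22))))) (Trg.left (Trg.left (Trg.right (Trg.right (chamberN 9 22))))) :=
  HoldsN.of_red (k := 16) (m := 16) (leaf ok2 (G446 _ rfl) (G217 _ rfl) (G292 _ rfl) (by decide +kernel))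
theorem l16 : HoldsN X2 (Trg.right (Trg.left (Trg.left (Trg.left (chamberN 9 22))))) (Trg.right (Trg.left (Trg.right (Trg.right (chamberN 9 22))))) :=
  HoldsN.of_red (k := 16) (m := 16) (leaf ok2 (G400 _ rfl) (G285 _ rfl) (G293 _ rfl) (by decide +kernel))
theorem l17 : HoldsN X2 (Trg.left (Trg.left (Trg.left (chamberN 9 22)))) (Trg.right (Trg.right (Trg.right (chamberN 9 22)))) :=
  HoldsN.of_red (k := 16) (m := 16) (leaf ok2 (G437 _ rfl) (G217 _ rfl) (G228 _ rfl) (by decide +kernel))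
theorem l18 : HoldsN X2 (Trg.right (Trg.left (Trg.left (chamberN 9 22)))) (Trg.left (Trg.left (Trg.right (Trg.right (chamberN 9 22))))) :=
  HoldsN.of_red (k := 16) (m := 16) (leaf ok2 (G395 _ rfl) (G285 _ rfl) (G349 _ rfl) (by decide +kernel))
theorem l19 : HoldsN X2 (Trg.left (Trg.left (Trg.right (Trg.left (Trg.left (chamberN 9 22)))))) (Trg.right (Trg.left (Trg.right (Trg.right (chamberN 9 22))))) :=
  HoldsN.of_red (k := 16) (m := 16) (leaf ok2 (G391 _ rfl) (G345 _ rfl) (G346 _ rfl) (by decide +kernel))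

end Vale.Agent.Lib.P154N.D6
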