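import Vale.Agent.Lib.P154N.D6.Data
import Vale.Agent.Lib.P154N.Red

/-!
# Leaves of the tree of triangles
-/

namespace Vale.Agent.Lib.P154N.D6

open Vale.Agent.Lib.P154K Vale.Agent.Lib.P154Neg

theorem l100 : HoldsN X2 (Trg.left (Trg.right (Trg.left (chamberN 9 22)))) (Trg.left (Trg.right (Trg.right (Trg.left (chamberNR 9 22))))) :=
  HoldsN.of_red (k := 16) (m := 16) (leaf ok2 (G369 _ rfl) (G164 _ rfl) (G461 _ rfl) (by decide +kernel))
theorem l101 : HoldsN X2 (Trg.left (Trg.right (Trg.left (chamberN 9 22)))) (Trg.right (Trg.right (Trg.right (Trg.left (chamberNR 9 22))))) :=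
  HoldsN.of_red (k := 16) (m := 16) (leaf ok2 (G351 _ rfl) (G201 _ rfl) (G433 _ rfl) (by decide +kernel))
theorem l102 : HoldsN X2 (Trg.left (Trg.right (Trg.right (Trg.left (chamberN 9 22))))) (Trg.left (Trg.left (Trg.left (Trg.right (Trg.left (chamberNR 9 22)))))) :=
  HoldsN.of_red (k := 16) (m := 16) (leaf ok2 (G369 _ rfl) (G162 _ rfl) (G471 _ rfl) (by decide +kernel))
theorem l103 : HoldsN X2 (Trg.left (Trg.right (Trg.right (Trg.left (chamberN 9 22))))) (Trg.right (Trg.left (Trg.left (Trg.right (Trg.left (chamberNR 9 22)))))) :=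
  HoldsN.of_red (k := 16) (m := 16) (leaf ok2 (G365 _ rfl) (G205 _ rfl) (G460 _ rfl) (by decide +kernel))
theorem l104 : HoldsN X2 (Trg.left (Trg.right (Trg.right (Trg.left (chamberN 9 22))))) (Trg.right (Trg.left (Trg.right (Trg.left (chamberNR 9 22))))) :=
  HoldsN.of_red (k := 16) (m := 16) (leaf ok2 (G369 _ rfl) (G162 _ rfl) (G476 _ rfl) (by decide +kernel))
theorem l105 : HoldsN X2 (Trg.left (Trg.right (Trg.right (Trg.left (chamberN 9 22))))) (Trg.left (Trg.right (Trg.right (Trg.left (chamberNR 9 22))))) :=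
  HoldsN.of_red (k := 16) (m := 16) (leaf ok2 (G447 _ rfl) (G139 _ rfl) (G432 _ rfl) (by decide +kernel))
theorem l106 : HoldsN X2 (Trg.left (Trg.left (Trg.right (Trg.right (Trg.left (chamberN 9 22)))))) (Trg.left (Trg.right (Trg.right (Trg.right (Trg.left (chamberNR 9 22)))))) :=
  HoldsN.of_red (k := 16) (m := 16) (leaf ok2 (G384 _ rfl) (G205 _ rfl) (G459 _ rfl) (by decide +kernel))
theorem l107 : HoldsN X2 (Trg.right (Trg.left (Trg.right (Trg.right (Trg.left (chamberN 9 22)))))) (Trg.left (Trg.right (Trg.right (Trg.right (Trg.left (chamberNR 9 22)))))) :=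
  HoldsN.of_red (k := 16) (m := 16) (leaf ok2 (G397 _ rfl) (G199 _ rfl) (G458 _ rfl) (by decide +kernel))
theorem l108 : HoldsN X2 (Trg.left (Trg.left (Trg.right (Trg.right (Trg.left (chamberN 9 22)))))) (Trg.right (Trg.right (Trg.right (Trg.right (Trg.left (chamberNR 9 22)))))) :=
  HoldsN.of_red (k := 16) (m := 16) (leaf ok2 (G420 _ rfl) (G176 _ rfl) (G460 _ rfl) (by decide +kernel))
theorem l109 : HoldsN X2 (Trg.right (Trg.left (Trg.right (Trg.right (Trg.left (chamberN 9 22)))))) (Trg.right (Trg.right (Trg.right (Trg.right (Trg.left (chamberNR 9 22)))))) :=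
  HoldsN.of_red (k := 16) (m := 16) (leaf ok2 (G432 _ rfl) (G161 _ rfl) (G459 _ rfl) (by decide +kernel))

end Vale.Agent.Lib.P154N.D6
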