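import Vale.Agent.Lib.P154N.D6.Data
import Vale.Agent.Lib.P154N.Red

/-!
# Leaves of the tree of triangles
-/

namespace Vale.Agent.Lib.P154N.D6

open Vale.Agent.Lib.P154K Vale.Agent.Lib.P154Neg

theorem l1000 : HoldsN X6 (Trg.right (Trg.right (Trg.right (chamber 1 1)))) (Trg.right (Trg.left (Trg.left (chamberNR 9 22)))) :=
  HoldsN.of_red (k := 16) (m := 16) (leaf ok6 (G142 _ rfl) (G413 _ rfl) (G186 _ rfl) (by decide +kernel))
theorem l1001 : HoldsN X6 (Trg.right (Trg.right (Trg.right (chamber 1 1)))) (Trg.right (Trg.left (chamberNR 9 22))) :=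
  HoldsN.of_red (k := 16) (m := 16) (leaf ok6 (G52 _ rfl) (G503 _ rfl) (G95 _ rfl) (by decide +kernel))
theorem l1002 : HoldsN X6 (Trg.left (Trg.right (Trg.right (chamber 1 1)))) (Trg.left (Trg.right (chamberNR 9 22))) :=
  HoldsN.of_red (k := 16) (m := 16) (leaf ok6 (G18 _ rfl) (G416 _ rfl) (G341 _ rfl) (by decide +kernel))
theorem l1003 : HoldsN X6 (Trg.right (Trg.right (Trg.right (chamber 1 1)))) (Trg.left (Trg.left (Trg.right (chamberNR 9 22)))) :=
  HoldsN.of_red (k := 16) (m := 16) (leaf ok6 (G21 _ rfl) (G540 _ rfl) (G275 _ rfl) (by decide +kernel))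
theorem l1004 : HoldsN X6 (Trg.right (Trg.right (Trg.right (chamber 1 1)))) (Trg.left (Trg.right (Trg.left (Trg.right (chamberNR 9 22))))) :=
  HoldsN.of_red (k := 16) (m := 16) (leaf ok6 (G8 _ rfl) (G565 _ rfl) (G428 _ rfl) (by decide +kernel))
theorem l1005 : HoldsN X6 (Trg.right (Trg.right (Trg.right (chamber 1 1)))) (Trg.right (Trg.right (Trg.left (Trg.right (chamberNR 9 22))))) :=
  HoldsN.of_red (k := 16) (m := 16) (leaf ok6 (G21 _ rfl) (G540 _ rfl) (G426 _ rfl) (by decide +kernel))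
theorem l1006 : HoldsN X6 (Trg.left (Trg.left (Trg.right (Trg.right (chamber 1 1))))) (Trg.left (Trg.left (Trg.right (Trg.right (chamberNR 9 22))))) :=
  HoldsN.of_red (k := 16) (m := 16) (leaf ok6 (G90 _ rfl) (G446 _ rfl) (G374 _ rfl) (by decide +kernel))
theorem l1007 : HoldsN X6 (Trg.left (Trg.left (Trg.right (Trg.right (chamber 1 1))))) (Trg.right (Trg.left (Trg.right (Trg.right (chamberNR 9 22))))) :=
  HoldsN.of_red (k := 16) (m := 16) (leaf ok6 (G153 _ rfl) (G405 _ rfl) (G367 _ rfl) (by decide +kernel))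
theorem l1008 : HoldsN X6 (Trg.right (Trg.left (Trg.right (Trg.right (chamber 1 1))))) (Trg.left (Trg.left (Trg.right (Trg.right (chamberNR 9 22))))) :=
  HoldsN.of_red (k := 16) (m := 16) (leaf ok6 (G153 _ rfl) (G405 _ rfl) (G367 _ rfl) (by decide +kernel))
theorem l1009 : HoldsN X6 (Trg.left (Trg.right (Trg.left (Trg.right (Trg.right (chamber 1 1)))))) (Trg.left (Trg.right (Trg.left (Trg.right (Trg.right (chamberNR 9 22)))))) :=
  HoldsN.of_red (k := 16) (m := 16) (leaf ok6 (G256 _ rfl) (G389 _ rfl) (G383 _ rfl) (by decide +kernel))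

end Vale.Agent.Lib.P154N.D6
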