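import Vale.Agent.Lib.P154N.D6.Data
import Vale.Agent.Lib.P154N.Red

/-!
# Leaves of the tree of triangles
-/

namespace Vale.Agent.Lib.P154N.D6

open Vale.Agent.Lib.P154K Vale.Agent.Lib.P154Neg

theorem l1010 : HoldsN X6 (Trg.left (Trg.right (Trg.left (Trg.right (Trg.right (chamber 1 1)))))) (Trg.right (Trg.right (Trg.left (Trg.right (Trg.right (chamberNR 9 22)))))) :=
  HoldsN.of_red (k := 16) (m := 16) (leaf ok6 (G240 _ rfl) (G395 _ rfl) (G383 _ rfl) (by decide +kernel))
theorem l1011 : HoldsN X6 (Trg.right (Trg.right (Trg.left (Trg.right (Trg.right (chamber 1 1)))))) (Trg.right (Trg.left (Trg.right (Trg.right (chamberNR 9 22))))) :=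
  HoldsN.of_red (k := 16) (m := 16) (leaf ok6 (G240 _ rfl) (G401 _ rfl) (G363 _ rfl) (by decide +kernel))
theorem l1012 : HoldsN X6 (Trg.left (Trg.right (Trg.right (chamber 1 1)))) (Trg.right (Trg.right (Trg.right (chamberNR 9 22)))) :=
  HoldsN.of_red (k := 16) (m := 16) (leaf ok6 (G71 _ rfl) (G416 _ rfl) (G334 _ rfl) (by decide +kernel))
theorem l1013 : HoldsN X6 (Trg.right (Trg.right (Trg.right (chamber 1 1)))) (Trg.left (Trg.left (Trg.right (Trg.right (chamberNR 9 22))))) :=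
  HoldsN.of_red (k := 16) (m := 16) (leaf ok6 (G68 _ rfl) (G484 _ rfl) (G333 _ rfl) (by decide +kernel))
theorem l1014 : HoldsN X6 (Trg.right (Trg.right (Trg.right (chamber 1 1)))) (Trg.right (Trg.left (Trg.right (Trg.right (chamberNR 9 22))))) :=
  HoldsN.of_red (k := 16) (m := 16) (leaf ok6 (G142 _ rfl) (G413 _ rfl) (G327 _ rfl) (by decide +kernel))
theorem l1015 : HoldsN X6 (Trg.right (Trg.right (Trg.right (chamber 1 1)))) (Trg.right (Trg.right (Trg.right (chamberNR 9 22)))) :=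
  HoldsN.of_red (k := 16) (m := 16) (leaf ok6 (G50 _ rfl) (G516 _ rfl) (G274 _ rfl) (by decide +kernel))

end Vale.Agent.Lib.P154N.D6
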