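import Vale.Agent.Lib.P154N.D6.Data
import Vale.Agent.Lib.P154N.Red

/-!
# Leaves of the tree of triangles
-/

namespace Vale.Agent.Lib.P154N.D6

open Vale.Agent.Lib.P154K Vale.Agent.Lib.P154Neg

theorem l110 : HoldsN X2 (Trg.right (Trg.right (Trg.right (Trg.left (chamberN 9 22))))) (Trg.left (Trg.right (Trg.left (chamberNR 9 22)))) :=
  HoldsN.of_red (k := 16) (m := 16) (leaf ok2 (G351 _ rfl) (G201 _ rfl) (G433 _ rfl) (by decide +kernel))
theorem l111 : HoldsN X2 (Trg.right (Trg.right (Trg.right (Trg.left (chamberN 9 22))))) (Trg.left (Trg.right (Trg.right (Trg.left (chamberNR 9 22))))) :=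
  HoldsN.of_red (k := 16) (m := 16) (leaf ok2 (G385 _ rfl) (G164 _ rfl) (G460 _ rfl) (by decide +kernel))
theorem l112 : HoldsN X2 (Trg.right (Trg.right (Trg.right (Trg.left (chamberN 9 22))))) (Trg.right (Trg.right (Trg.right (Trg.left (chamberNR 9 22))))) :=
  HoldsN.of_red (k := 16) (m := 16) (leaf ok2 (G364 _ rfl) (G201 _ rfl) (G432 _ rfl) (by decide +kernel))
theorem l113 : HoldsN X2 (Trg.left (chamberN 9 22)) (Trg.left (Trg.right (chamberNR 9 22))) :=
  HoldsN.of_red (k := 16) (m := 16) (leaf ok2 (G416 _ rfl) (G119 _ rfl) (G290 _ rfl) (by decide +kernel))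
theorem l114 : HoldsN X2 (Trg.left (Trg.left (Trg.left (Trg.left (chamberN 9 22))))) (Trg.left (Trg.left (Trg.right (Trg.right (chamberNR 9 22))))) :=
  HoldsN.of_red (k := 16) (m := 16) (leaf ok2 (G397 _ rfl) (G237 _ rfl) (G361 _ rfl) (by decide +kernel))
theorem l115 : HoldsN X2 (Trg.left (Trg.left (Trg.left (Trg.left (chamberN 9 22))))) (Trg.right (Trg.left (Trg.right (Trg.right (chamberNR 9 22))))) :=
  HoldsN.of_red (k := 16) (m := 16) (leaf ok2 (G391 _ rfl) (G256 _ rfl) (G382 _ rfl) (by decide +kernel))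
theorem l116 : HoldsN X2 (Trg.right (Trg.left (Trg.left (Trg.left (chamberN 9 22))))) (Trg.left (Trg.left (Trg.right (Trg.right (chamberNR 9 22))))) :=
  HoldsN.of_red (k := 16) (m := 16) (leaf ok2 (G446 _ rfl) (G217 _ rfl) (G348 _ rfl) (by decide +kernel))
theorem l117 : HoldsN X2 (Trg.right (Trg.left (Trg.left (Trg.left (chamberN 9 22))))) (Trg.right (Trg.left (Trg.right (Trg.right (chamberNR 9 22))))) :=
  HoldsN.of_red (k := 16) (m := 16) (leaf ok2 (G396 _ rfl) (G240 _ rfl) (G362 _ rfl) (by decide +kernel))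
theorem l118 : HoldsN X2 (Trg.left (Trg.left (Trg.left (Trg.left (chamberN 9 22))))) (Trg.right (Trg.right (Trg.right (chamberNR 9 22)))) :=
  HoldsN.of_red (k := 16) (m := 16) (leaf ok2 (G397 _ rfl) (G200 _ rfl) (G365 _ rfl) (by decide +kernel))
theorem l119 : HoldsN X2 (Trg.right (Trg.left (Trg.left (Trg.left (chamberN 9 22))))) (Trg.right (Trg.right (Trg.right (chamberNR 9 22)))) :=
  HoldsN.of_red (k := 16) (m := 16) (leaf ok2 (G447 _ rfl) (G141 _ rfl) (G351 _ rfl) (by decide +kernel))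

end Vale.Agent.Lib.P154N.D6
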