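import Vale.Agent.Lib.P154N.D6.Data
import Vale.Agent.Lib.P154N.Red

/-!
# Leaves of the tree of triangles
-/

namespace Vale.Agent.Lib.P154N.D6

open Vale.Agent.Lib.P154K Vale.Agent.Lib.P154Neg

theorem l120 : HoldsN X2 (Trg.right (Trg.left (Trg.left (chamberN 9 22)))) (Trg.left (Trg.left (Trg.right (Trg.right (chamberNR 9 22))))) :=
  HoldsN.of_red (k := 16) (m := 16) (leaf ok2 (G395 _ rfl) (G285 _ rfl) (G362 _ rfl) (by decide +kernel))
theorem l121 : HoldsN X2 (Trg.left (Trg.left (Trg.right (Trg.left (Trg.left (chamberN 9 22)))))) (Trg.right (Trg.left (Trg.right (Trg.right (chamberNR 9 22))))) :=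
  HoldsN.of_red (k := 16) (m := 16) (leaf ok2 (G389 _ rfl) (G293 _ rfl) (G381 _ rfl) (by decide +kernel))
theorem l122 : HoldsN X2 (Trg.right (Trg.left (Trg.right (Trg.left (Trg.left (chamberN 9 22)))))) (Trg.left (Trg.right (Trg.left (Trg.right (Trg.right (chamberNR 9 22)))))) :=
  HoldsN.of_red (k := 16) (m := 16) (leaf ok2 (G387 _ rfl) (G358 _ rfl) (G380 _ rfl) (by decide +kernel))
theorem l123 : HoldsN X2 (Trg.right (Trg.left (Trg.right (Trg.left (Trg.left (chamberN 9 22)))))) (Trg.right (Trg.right (Trg.left (Trg.right (Trg.right (chamberNR 9 22)))))) :=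
  HoldsN.of_red (k := 16) (m := 16) (leaf ok2 (G387 _ rfl) (G345 _ rfl) (G381 _ rfl) (by decide +kernel))
theorem l124 : HoldsN X2 (Trg.right (Trg.right (Trg.left (Trg.left (chamberN 9 22))))) (Trg.right (Trg.left (Trg.right (Trg.right (chamberNR 9 22))))) :=
  HoldsN.of_red (k := 16) (m := 16) (leaf ok2 (G389 _ rfl) (G293 _ rfl) (G382 _ rfl) (by decide +kernel))
theorem l125 : HoldsN X2 (Trg.right (Trg.left (Trg.left (chamberN 9 22)))) (Trg.right (Trg.right (Trg.right (chamberNR 9 22)))) :=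
  HoldsN.of_red (k := 16) (m := 16) (leaf ok2 (G396 _ rfl) (G240 _ rfl) (G366 _ rfl) (by decide +kernel))
theorem l126 : HoldsN X2 (Trg.left (Trg.right (Trg.left (chamberN 9 22)))) (Trg.left (Trg.right (Trg.right (chamberNR 9 22)))) :=
  HoldsN.of_red (k := 16) (m := 16) (leaf ok2 (G400 _ rfl) (G219 _ rfl) (G393 _ rfl) (by decide +kernel))
theorem l127 : HoldsN X2 (Trg.left (Trg.right (Trg.right (Trg.left (chamberN 9 22))))) (Trg.left (Trg.left (Trg.right (Trg.right (chamberNR 9 22))))) :=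
  HoldsN.of_red (k := 16) (m := 16) (leaf ok2 (G464 _ rfl) (G215 _ rfl) (G350 _ rfl) (by decide +kernel))
theorem l128 : HoldsN X2 (Trg.left (Trg.right (Trg.right (Trg.left (chamberN 9 22))))) (Trg.right (Trg.left (Trg.right (Trg.right (chamberNR 9 22))))) :=
  HoldsN.of_red (k := 16) (m := 16) (leaf ok2 (G396 _ rfl) (G240 _ rfl) (G363 _ rfl) (by decide +kernel))
theorem l129 : HoldsN X2 (Trg.right (Trg.right (Trg.right (Trg.left (chamberN 9 22))))) (Trg.left (Trg.right (Trg.right (chamberNR 9 22)))) :=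
  HoldsN.of_red (k := 16) (m := 16) (leaf ok2 (G400 _ rfl) (G219 _ rfl) (G389 _ rfl) (by decide +kernel))

end Vale.Agent.Lib.P154N.D6
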