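import Vale.Agent.Lib.P154N.D6.Data
import Vale.Agent.Lib.P154N.Red

/-!
# Leaves of the tree of triangles
-/

namespace Vale.Agent.Lib.P154N.D6

open Vale.Agent.Lib.P154K Vale.Agent.Lib.P154Neg

theorem l130 : HoldsN X2 (Trg.left (Trg.right (Trg.left (chamberN 9 22)))) (Trg.right (Trg.right (Trg.right (chamberNR 9 22)))) :=
  HoldsN.of_red (k := 16) (m := 16) (leaf ok2 (G399 _ rfl) (G165 _ rfl) (G423 _ rfl) (by decide +kernel))
theorem l131 : HoldsN X2 (Trg.left (Trg.right (Trg.right (Trg.left (chamberN 9 22))))) (Trg.left (Trg.left (Trg.right (Trg.right (Trg.right (chamberNR 9 22)))))) :=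
  HoldsN.of_red (k := 16) (m := 16) (leaf ok2 (G465 _ rfl) (G168 _ rfl) (G392 _ rfl) (by decide +kernel))
theorem l132 : HoldsN X2 (Trg.left (Trg.right (Trg.right (Trg.left (chamberN 9 22))))) (Trg.right (Trg.left (Trg.right (Trg.right (Trg.right (chamberNR 9 22)))))) :=
  HoldsN.of_red (k := 16) (m := 16) (leaf ok2 (G477 _ rfl) (G138 _ rfl) (G394 _ rfl) (by decide +kernel))
theorem l133 : HoldsN X2 (Trg.left (Trg.right (Trg.right (Trg.left (chamberN 9 22))))) (Trg.right (Trg.right (Trg.right (Trg.right (chamberNR 9 22))))) :=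
  HoldsN.of_red (k := 16) (m := 16) (leaf ok2 (G465 _ rfl) (G168 _ rfl) (G351 _ rfl) (by decide +kernel))
theorem l134 : HoldsN X2 (Trg.right (Trg.right (Trg.right (Trg.left (chamberN 9 22))))) (Trg.right (Trg.right (Trg.right (chamberNR 9 22)))) :=
  HoldsN.of_red (k := 16) (m := 16) (leaf ok2 (G399 _ rfl) (G165 _ rfl) (G394 _ rfl) (by decide +kernel))
theorem l135 : HoldsN X2 (Trg.left (Trg.left (Trg.right (chamberN 9 22)))) (Trg.left (Trg.left (Trg.left (Trg.left (chamberNR 9 22))))) :=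
  HoldsN.of_red (k := 16) (m := 16) (leaf ok2 (G424 _ rfl) (G169 _ rfl) (G365 _ rfl) (by decide +kernel))
theorem l136 : HoldsN X2 (Trg.left (Trg.left (Trg.left (Trg.right (chamberN 9 22))))) (Trg.right (Trg.left (Trg.left (Trg.left (chamberNR 9 22))))) :=
  HoldsN.of_red (k := 16) (m := 16) (leaf ok2 (G482 _ rfl) (G129 _ rfl) (G348 _ rfl) (by decide +kernel))
theorem l137 : HoldsN X2 (Trg.right (Trg.left (Trg.left (Trg.right (chamberN 9 22))))) (Trg.left (Trg.right (Trg.left (Trg.left (Trg.left (chamberNR 9 22)))))) :=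
  HoldsN.of_red (k := 16) (m := 16) (leaf ok2 (G495 _ rfl) (G125 _ rfl) (G364 _ rfl) (by decide +kernel))
theorem l138 : HoldsN X2 (Trg.right (Trg.left (Trg.left (Trg.right (chamberN 9 22))))) (Trg.right (Trg.right (Trg.left (Trg.left (Trg.left (chamberNR 9 22)))))) :=
  HoldsN.of_red (k := 16) (m := 16) (leaf ok2 (G488 _ rfl) (G167 _ rfl) (G364 _ rfl) (by decide +kernel))
theorem l139 : HoldsN X2 (Trg.left (Trg.right (Trg.left (Trg.right (chamberN 9 22))))) (Trg.left (Trg.left (Trg.left (Trg.left (chamberNR 9 22))))) :=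
  HoldsN.of_red (k := 16) (m := 16) (leaf ok2 (G448 _ rfl) (G145 _ rfl) (G352 _ rfl) (by decide +kernel))

end Vale.Agent.Lib.P154N.D6
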