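import Vale.Agent.Lib.P154N.D6.Data
import Vale.Agent.Lib.P154N.Red

/-!
# Leaves of the tree of triangles
-/

namespace Vale.Agent.Lib.P154N.D6

open Vale.Agent.Lib.P154K Vale.Agent.Lib.P154Neg

theorem l140 : HoldsN X2 (Trg.left (Trg.right (Trg.left (Trg.right (chamberN 9 22))))) (Trg.left (Trg.right (Trg.left (Trg.left (Trg.left (chamberNR 9 22)))))) :=
  HoldsN.of_red (k := 16) (m := 16) (leaf ok2 (G524 _ rfl) (G112 _ rfl) (G287 _ rfl) (by decide +kernel))
theorem l141 : HoldsN X2 (Trg.left (Trg.right (Trg.left (Trg.right (chamberN 9 22))))) (Trg.right (Trg.right (Trg.left (Trg.left (Trg.left (chamberNR 9 22)))))) :=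
  HoldsN.of_red (k := 16) (m := 16) (leaf ok2 (G511 _ rfl) (G145 _ rfl) (G298 _ rfl) (by decide +kernel))
theorem l142 : HoldsN X2 (Trg.right (Trg.right (Trg.left (Trg.right (chamberN 9 22))))) (Trg.left (Trg.left (Trg.left (Trg.left (chamberNR 9 22))))) :=
  HoldsN.of_red (k := 16) (m := 16) (leaf ok2 (G434 _ rfl) (G169 _ rfl) (G352 _ rfl) (by decide +kernel))
theorem l143 : HoldsN X2 (Trg.left (Trg.right (Trg.right (Trg.left (Trg.right (chamberN 9 22)))))) (Trg.right (Trg.left (Trg.left (Trg.left (chamberNR 9 22))))) :=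
  HoldsN.of_red (k := 16) (m := 16) (leaf ok2 (G482 _ rfl) (G148 _ rfl) (G296 _ rfl) (by decide +kernel))
theorem l144 : HoldsN X2 (Trg.right (Trg.right (Trg.right (Trg.left (Trg.right (chamberN 9 22)))))) (Trg.left (Trg.right (Trg.left (Trg.left (Trg.left (chamberNR 9 22)))))) :=
  HoldsN.of_red (k := 16) (m := 16) (leaf ok2 (G511 _ rfl) (G124 _ rfl) (G298 _ rfl) (by decide +kernel))
theorem l145 : HoldsN X2 (Trg.right (Trg.right (Trg.right (Trg.left (Trg.right (chamberN 9 22)))))) (Trg.right (Trg.right (Trg.left (Trg.left (Trg.left (chamberNR 9 22)))))) :=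
  HoldsN.of_red (k := 16) (m := 16) (leaf ok2 (G493 _ rfl) (G167 _ rfl) (G319 _ rfl) (by decide +kernel))
theorem l146 : HoldsN X2 (Trg.left (Trg.right (chamberN 9 22))) (Trg.right (Trg.left (Trg.left (chamberNR 9 22)))) :=
  HoldsN.of_red (k := 16) (m := 16) (leaf ok2 (G405 _ rfl) (G219 _ rfl) (G353 _ rfl) (by decide +kernel))
theorem l147 : HoldsN X2 (Trg.left (Trg.left (Trg.right (chamberN 9 22)))) (Trg.left (Trg.right (Trg.left (chamberNR 9 22)))) :=
  HoldsN.of_red (k := 16) (m := 16) (leaf ok2 (G425 _ rfl) (G137 _ rfl) (G423 _ rfl) (by decide +kernel))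
theorem l148 : HoldsN X2 (Trg.left (Trg.left (Trg.right (chamberN 9 22)))) (Trg.left (Trg.right (Trg.right (Trg.left (chamberNR 9 22))))) :=
  HoldsN.of_red (k := 16) (m := 16) (leaf ok2 (G495 _ rfl) (G126 _ rfl) (G354 _ rfl) (by decide +kernel))
theorem l149 : HoldsN X2 (Trg.left (Trg.left (Trg.right (chamberN 9 22)))) (Trg.right (Trg.right (Trg.right (Trg.left (chamberNR 9 22))))) :=
  HoldsN.of_red (k := 16) (m := 16) (leaf ok2 (G425 _ rfl) (G137 _ rfl) (G394 _ rfl) (by decide +kernel))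

end Vale.Agent.Lib.P154N.D6
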