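import Vale.Agent.Lib.P154N.D6.Data
import Vale.Agent.Lib.P154N.Red

/-!
# Leaves of the tree of triangles
-/

namespace Vale.Agent.Lib.P154N.D6

open Vale.Agent.Lib.P154K Vale.Agent.Lib.P154Neg

theorem l150 : HoldsN X2 (Trg.left (Trg.right (Trg.left (Trg.right (chamberN 9 22))))) (Trg.left (Trg.right (Trg.left (chamberNR 9 22)))) :=
  HoldsN.of_red (k := 16) (m := 16) (leaf ok2 (G449 _ rfl) (G113 _ rfl) (G433 _ rfl) (by decide +kernel))
theorem l151 : HoldsN X2 (Trg.left (Trg.right (Trg.left (Trg.right (chamberN 9 22))))) (Trg.left (Trg.right (Trg.right (Trg.left (chamberNR 9 22))))) :=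
  HoldsN.of_red (k := 16) (m := 16) (leaf ok2 (G524 _ rfl) (G112 _ rfl) (G289 _ rfl) (by decide +kernel))
theorem l152 : HoldsN X2 (Trg.left (Trg.right (Trg.left (Trg.right (chamberN 9 22))))) (Trg.right (Trg.right (Trg.right (Trg.left (chamberNR 9 22))))) :=
  HoldsN.of_red (k := 16) (m := 16) (leaf ok2 (G449 _ rfl) (G113 _ rfl) (G392 _ rfl) (by decide +kernel))
theorem l153 : HoldsN X2 (Trg.right (Trg.right (Trg.left (Trg.right (chamberN 9 22))))) (Trg.left (Trg.right (Trg.left (chamberNR 9 22)))) :=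
  HoldsN.of_red (k := 16) (m := 16) (leaf ok2 (G435 _ rfl) (G137 _ rfl) (G423 _ rfl) (by decide +kernel))
theorem l154 : HoldsN X2 (Trg.right (Trg.right (Trg.left (Trg.right (chamberN 9 22))))) (Trg.left (Trg.right (Trg.right (Trg.left (chamberNR 9 22))))) :=
  HoldsN.of_red (k := 16) (m := 16) (leaf ok2 (G495 _ rfl) (G126 _ rfl) (G302 _ rfl) (by decide +kernel))
theorem l155 : HoldsN X2 (Trg.right (Trg.right (Trg.left (Trg.right (chamberN 9 22))))) (Trg.right (Trg.right (Trg.right (Trg.left (chamberNR 9 22))))) :=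
  HoldsN.of_red (k := 16) (m := 16) (leaf ok2 (G435 _ rfl) (G137 _ rfl) (G392 _ rfl) (by decide +kernel))
theorem l156 : HoldsN X2 (Trg.left (Trg.left (Trg.right (chamberN 9 22)))) (Trg.left (Trg.right (chamberNR 9 22))) :=
  HoldsN.of_red (k := 16) (m := 16) (leaf ok2 (G515 _ rfl) (G116 _ rfl) (G184 _ rfl) (by decide +kernel))
theorem l157 : HoldsN X2 (Trg.left (Trg.right (Trg.left (Trg.right (chamberN 9 22))))) (Trg.left (Trg.left (Trg.right (chamberNR 9 22)))) :=
  HoldsN.of_red (k := 16) (m := 16) (leaf ok2 (G547 _ rfl) (G113 _ rfl) (G179 _ rfl) (by decide +kernel))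
theorem l158 : HoldsN X2 (Trg.left (Trg.right (Trg.left (Trg.right (chamberN 9 22))))) (Trg.left (Trg.right (Trg.left (Trg.right (chamberNR 9 22))))) :=
  HoldsN.of_red (k := 16) (m := 16) (leaf ok2 (G575 _ rfl) (G112 _ rfl) (G114 _ rfl) (by decide +kernel))
theorem l159 : HoldsN X2 (Trg.left (Trg.right (Trg.left (Trg.right (chamberN 9 22))))) (Trg.right (Trg.right (Trg.left (Trg.right (chamberNR 9 22))))) :=
  HoldsN.of_red (k := 16) (m := 16) (leaf ok2 (G547 _ rfl) (G113 _ rfl) (G147 _ rfl) (by decide +kernel))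

end Vale.Agent.Lib.P154N.D6
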