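import Vale.Agent.Lib.P154N.D6.Data
import Vale.Agent.Lib.P154N.Red

/-!
# Leaves of the tree of triangles
-/

namespace Vale.Agent.Lib.P154N.D6

open Vale.Agent.Lib.P154K Vale.Agent.Lib.P154Neg

theorem l170 : HoldsN X2 (Trg.right (Trg.left (Trg.left (Trg.left (Trg.right (chamberN 9 22)))))) (Trg.right (Trg.right (Trg.right (chamberNR 9 22)))) :=
  HoldsN.of_red (k := 16) (m := 16) (leaf ok2 (G480 _ rfl) (G163 _ rfl) (G255 _ rfl) (by decide +kernel))
theorem l171 : HoldsN X2 (Trg.right (Trg.left (Trg.left (Trg.right (chamberN 9 22))))) (Trg.left (Trg.right (Trg.right (Trg.right (chamberNR 9 22))))) :=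
  HoldsN.of_red (k := 16) (m := 16) (leaf ok2 (G491 _ rfl) (G127 _ rfl) (G298 _ rfl) (by decide +kernel))
theorem l172 : HoldsN X2 (Trg.right (Trg.left (Trg.left (Trg.right (chamberN 9 22))))) (Trg.right (Trg.right (Trg.right (Trg.right (chamberNR 9 22))))) :=
  HoldsN.of_red (k := 16) (m := 16) (leaf ok2 (G490 _ rfl) (G161 _ rfl) (G259 _ rfl) (by decide +kernel))
theorem l173 : HoldsN X2 (Trg.left (Trg.left (Trg.right (Trg.left (Trg.right (chamberN 9 22)))))) (Trg.left (Trg.left (Trg.right (Trg.right (Trg.right (chamberNR 9 22)))))) :=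
  HoldsN.of_red (k := 16) (m := 16) (leaf ok2 (G512 _ rfl) (G160 _ rfl) (G255 _ rfl) (by decide +kernel))
theorem l174 : HoldsN X2 (Trg.right (Trg.left (Trg.right (Trg.left (Trg.right (chamberN 9 22)))))) (Trg.left (Trg.left (Trg.right (Trg.right (Trg.right (chamberNR 9 22)))))) :=
  HoldsN.of_red (k := 16) (m := 16) (leaf ok2 (G513 _ rfl) (G145 _ rfl) (G238 _ rfl) (by decide +kernel))
theorem l175 : HoldsN X2 (Trg.left (Trg.right (Trg.left (Trg.right (chamberN 9 22))))) (Trg.right (Trg.left (Trg.right (Trg.right (Trg.right (chamberNR 9 22)))))) :=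
  HoldsN.of_red (k := 16) (m := 16) (leaf ok2 (G546 _ rfl) (G112 _ rfl) (G238 _ rfl) (by decide +kernel))
theorem l176 : HoldsN X2 (Trg.left (Trg.left (Trg.right (Trg.left (Trg.right (chamberN 9 22)))))) (Trg.right (Trg.right (Trg.right (Trg.right (chamberNR 9 22))))) :=
  HoldsN.of_red (k := 16) (m := 16) (leaf ok2 (G512 _ rfl) (G160 _ rfl) (G239 _ rfl) (by decide +kernel))
theorem l177 : HoldsN X2 (Trg.right (Trg.left (Trg.right (Trg.left (Trg.right (chamberN 9 22)))))) (Trg.right (Trg.right (Trg.right (Trg.right (chamberNR 9 22))))) :=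
  HoldsN.of_red (k := 16) (m := 16) (leaf ok2 (G513 _ rfl) (G145 _ rfl) (G218 _ rfl) (by decide +kernel))
theorem l178 : HoldsN X2 (Trg.left (Trg.right (Trg.right (Trg.left (Trg.right (chamberN 9 22)))))) (Trg.right (Trg.right (Trg.right (chamberNR 9 22)))) :=
  HoldsN.of_red (k := 16) (m := 16) (leaf ok2 (G482 _ rfl) (G148 _ rfl) (G238 _ rfl) (by decide +kernel))
theorem l179 : HoldsN X2 (Trg.right (Trg.right (Trg.right (Trg.left (Trg.right (chamberN 9 22)))))) (Trg.left (Trg.left (Trg.right (Trg.right (Trg.right (chamberNR 9 22)))))) :=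
  HoldsN.of_red (k := 16) (m := 16) (leaf ok2 (G494 _ rfl) (G161 _ rfl) (G255 _ rfl) (by decide +kernel))

end Vale.Agent.Lib.P154N.D6
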