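import Vale.Agent.Lib.P154N.D6.Data
import Vale.Agent.Lib.P154N.Red

/-!
# Leaves of the tree of triangles
-/

namespace Vale.Agent.Lib.P154N.D6

open Vale.Agent.Lib.P154K Vale.Agent.Lib.P154Neg

theorem l190 : HoldsN X2 (Trg.left (Trg.right (Trg.right (Trg.right (chamberN 9 22))))) (Trg.right (Trg.left (Trg.left (Trg.left (chamberNR 9 22))))) :=
  HoldsN.of_red (k := 16) (m := 16) (leaf ok2 (G447 _ rfl) (G141 _ rfl) (G390 _ rfl) (by decide +kernel))
theorem l191 : HoldsN X2 (Trg.right (Trg.right (Trg.right (Trg.right (chamberN 9 22))))) (Trg.right (Trg.left (Trg.left (Trg.left (chamberNR 9 22))))) :=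
  HoldsN.of_red (k := 16) (m := 16) (leaf ok2 (G447 _ rfl) (G170 _ rfl) (G348 _ rfl) (by decide +kernel))
theorem l192 : HoldsN X2 (Trg.right (Trg.right (Trg.right (chamberN 9 22)))) (Trg.right (Trg.left (Trg.left (chamberNR 9 22)))) :=
  HoldsN.of_red (k := 16) (m := 16) (leaf ok2 (G396 _ rfl) (G240 _ rfl) (G366 _ rfl) (by decide +kernel))
theorem l193 : HoldsN X2 (Trg.right (Trg.right (Trg.right (chamberN 9 22)))) (Trg.left (Trg.right (Trg.left (chamberNR 9 22)))) :=
  HoldsN.of_red (k := 16) (m := 16) (leaf ok2 (G399 _ rfl) (G165 _ rfl) (G423 _ rfl) (by decide +kernel))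
theorem l194 : HoldsN X2 (Trg.right (Trg.right (Trg.right (chamberN 9 22)))) (Trg.left (Trg.right (Trg.right (Trg.left (chamberNR 9 22))))) :=
  HoldsN.of_red (k := 16) (m := 16) (leaf ok2 (G465 _ rfl) (G140 _ rfl) (G354 _ rfl) (by decide +kernel))
theorem l195 : HoldsN X2 (Trg.right (Trg.right (Trg.right (chamberN 9 22)))) (Trg.right (Trg.right (Trg.right (Trg.left (chamberNR 9 22))))) :=
  HoldsN.of_red (k := 16) (m := 16) (leaf ok2 (G399 _ rfl) (G165 _ rfl) (G394 _ rfl) (by decide +kernel))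
theorem l196 : HoldsN X2 (Trg.right (Trg.right (chamberN 9 22))) (Trg.left (Trg.right (chamberNR 9 22))) :=
  HoldsN.of_red (k := 16) (m := 16) (leaf ok2 (G416 _ rfl) (G119 _ rfl) (G220 _ rfl) (by decide +kernel))
theorem l197 : HoldsN X2 (Trg.left (Trg.left (Trg.left (Trg.right (Trg.right (chamberN 9 22)))))) (Trg.left (Trg.left (Trg.right (Trg.right (chamberNR 9 22))))) :=
  HoldsN.of_red (k := 16) (m := 16) (leaf ok2 (G432 _ rfl) (G283 _ rfl) (G316 _ rfl) (by decide +kernel))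
theorem l198 : HoldsN X2 (Trg.left (Trg.right (Trg.left (Trg.left (Trg.right (Trg.right (chamberN 9 22))))))) (Trg.left (Trg.left (Trg.left (Trg.right (Trg.right (chamberNR 9 22)))))) :=
  HoldsN.of_red (k := 16) (m := 16) (leaf ok2 (G460 _ rfl) (G282 _ rfl) (G314 _ rfl) (by decide +kernel))
theorem l199 : HoldsN X2 (Trg.left (Trg.right (Trg.left (Trg.left (Trg.right (Trg.right (chamberN 9 22))))))) (Trg.right (Trg.left (Trg.left (Trg.right (Trg.right (chamberNR 9 22)))))) :=
  HoldsN.of_red (k := 16) (m := 16) (leaf ok2 (G461 _ rfl) (G282 _ rfl) (G283 _ rfl) (by decide +kernel))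

end Vale.Agent.Lib.P154N.D6
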