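import Vale.Agent.Lib.P154N.D6.Data
import Vale.Agent.Lib.P154N.Red

/-!
# Leaves of the tree of triangles
-/

namespace Vale.Agent.Lib.P154N.D6

open Vale.Agent.Lib.P154K Vale.Agent.Lib.P154Neg

theorem l20 : HoldsN X2 (Trg.right (Trg.left (Trg.right (Trg.left (Trg.left (chamberN 9 22)))))) (Trg.right (Trg.left (Trg.right (Trg.right (chamberN 9 22))))) :=
  HoldsN.of_red (k := 16) (m := 16) (leaf ok2 (G388 _ rfl) (G358 _ rfl) (G359 _ rfl) (by decide +kernel))
theorem l21 : HoldsN X2 (Trg.right (Trg.right (Trg.left (Trg.left (chamberN 9 22))))) (Trg.right (Trg.left (Trg.right (Trg.right (chamberN 9 22))))) :=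
  HoldsN.of_red (k := 16) (m := 16) (leaf ok2 (G391 _ rfl) (G315 _ rfl) (G347 _ rfl) (by decide +kernel))
theorem l22 : HoldsN X2 (Trg.right (Trg.left (Trg.left (chamberN 9 22)))) (Trg.right (Trg.right (Trg.right (chamberN 9 22)))) :=
  HoldsN.of_red (k := 16) (m := 16) (leaf ok2 (G400 _ rfl) (G256 _ rfl) (G299 _ rfl) (by decide +kernel))
theorem l23 : HoldsN X2 (Trg.left (Trg.right (Trg.left (chamberN 9 22)))) (Trg.left (Trg.right (Trg.right (chamberN 9 22)))) :=
  HoldsN.of_red (k := 16) (m := 16) (leaf ok2 (G400 _ rfl) (G219 _ rfl) (G366 _ rfl) (by decide +kernel))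
theorem l24 : HoldsN X2 (Trg.left (Trg.right (Trg.right (Trg.left (chamberN 9 22))))) (Trg.left (Trg.left (Trg.right (Trg.right (chamberN 9 22))))) :=
  HoldsN.of_red (k := 16) (m := 16) (leaf ok2 (G464 _ rfl) (G215 _ rfl) (G296 _ rfl) (by decide +kernel))
theorem l25 : HoldsN X2 (Trg.left (Trg.right (Trg.right (Trg.left (chamberN 9 22))))) (Trg.right (Trg.left (Trg.right (Trg.right (chamberN 9 22))))) :=
  HoldsN.of_red (k := 16) (m := 16) (leaf ok2 (G400 _ rfl) (G285 _ rfl) (G295 _ rfl) (by decide +kernel))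
theorem l26 : HoldsN X2 (Trg.right (Trg.right (Trg.right (Trg.left (chamberN 9 22))))) (Trg.left (Trg.right (Trg.right (chamberN 9 22)))) :=
  HoldsN.of_red (k := 16) (m := 16) (leaf ok2 (G400 _ rfl) (G219 _ rfl) (G349 _ rfl) (by decide +kernel))
theorem l27 : HoldsN X2 (Trg.right (Trg.left (chamberN 9 22))) (Trg.right (Trg.right (Trg.right (chamberN 9 22)))) :=
  HoldsN.of_red (k := 16) (m := 16) (leaf ok2 (G437 _ rfl) (G178 _ rfl) (G230 _ rfl) (by decide +kernel))
theorem l28 : HoldsN X2 (Trg.left (Trg.right (chamberN 9 22))) (Trg.left (Trg.left (Trg.left (chamberN 9 22)))) :=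
  HoldsN.of_red (k := 16) (m := 16) (leaf ok2 (G439 _ rfl) (G230 _ rfl) (G117 _ rfl) (by decide +kernel))
theorem l29 : HoldsN X2 (Trg.left (Trg.right (chamberN 9 22))) (Trg.right (Trg.left (Trg.left (chamberN 9 22)))) :=
  HoldsN.of_red (k := 16) (m := 16) (leaf ok2 (G405 _ rfl) (G304 _ rfl) (G219 _ rfl) (by decide +kernel))

end Vale.Agent.Lib.P154N.D6
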