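import Vale.Agent.Lib.P154N.D6.Data
import Vale.Agent.Lib.P154N.Red

/-!
# Leaves of the tree of triangles
-/

namespace Vale.Agent.Lib.P154N.D6

open Vale.Agent.Lib.P154K Vale.Agent.Lib.P154Neg

theorem l200 : HoldsN X2 (Trg.right (Trg.right (Trg.left (Trg.left (Trg.right (Trg.right (chamberN 9 22))))))) (Trg.left (Trg.left (Trg.left (Trg.right (Trg.right (chamberNR 9 22)))))) :=
  HoldsN.of_red (k := 16) (m := 16) (leaf ok2 (G430 _ rfl) (G283 _ rfl) (G344 _ rfl) (by decide +kernel))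
theorem l201 : HoldsN X2 (Trg.right (Trg.right (Trg.left (Trg.left (Trg.right (Trg.right (chamberN 9 22))))))) (Trg.right (Trg.left (Trg.left (Trg.right (Trg.right (chamberNR 9 22)))))) :=
  HoldsN.of_red (k := 16) (m := 16) (leaf ok2 (G432 _ rfl) (G283 _ rfl) (G291 _ rfl) (by decide +kernel))
theorem l202 : HoldsN X2 (Trg.left (Trg.left (Trg.right (Trg.right (chamberN 9 22))))) (Trg.right (Trg.left (Trg.right (Trg.right (chamberNR 9 22))))) :=
  HoldsN.of_red (k := 16) (m := 16) (leaf ok2 (G395 _ rfl) (G285 _ rfl) (G346 _ rfl) (by decide +kernel))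
theorem l203 : HoldsN X2 (Trg.right (Trg.left (Trg.right (Trg.right (chamberN 9 22))))) (Trg.left (Trg.left (Trg.right (Trg.right (chamberNR 9 22))))) :=
  HoldsN.of_red (k := 16) (m := 16) (leaf ok2 (G395 _ rfl) (G285 _ rfl) (G346 _ rfl) (by decide +kernel))
theorem l204 : HoldsN X2 (Trg.left (Trg.left (Trg.right (Trg.left (Trg.right (Trg.right (chamberN 9 22))))))) (Trg.left (Trg.right (Trg.left (Trg.right (Trg.right (chamberNR 9 22)))))) :=
  HoldsN.of_red (k := 16) (m := 16) (leaf ok2 (G388 _ rfl) (G358 _ rfl) (G359 _ rfl) (by decide +kernel))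
theorem l205 : HoldsN X2 (Trg.right (Trg.left (Trg.right (Trg.left (Trg.right (Trg.right (chamberN 9 22))))))) (Trg.left (Trg.left (Trg.right (Trg.left (Trg.right (Trg.right (chamberNR 9 22))))))) :=
  HoldsN.of_red (k := 16) (m := 16) (leaf ok2 (G387 _ rfl) (G358 _ rfl) (G380 _ rfl) (by decide +kernel))
theorem l206 : HoldsN X2 (Trg.right (Trg.left (Trg.right (Trg.left (Trg.right (Trg.right (chamberN 9 22))))))) (Trg.right (Trg.left (Trg.right (Trg.left (Trg.right (Trg.right (chamberNR 9 22))))))) :=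
  HoldsN.of_red (k := 16) (m := 16) (leaf ok2 (G386 _ rfl) (G358 _ rfl) (G380 _ rfl) (by decide +kernel))
theorem l207 : HoldsN X2 (Trg.left (Trg.right (Trg.left (Trg.right (Trg.right (chamberN 9 22)))))) (Trg.right (Trg.right (Trg.left (Trg.right (Trg.right (chamberNR 9 22)))))) :=
  HoldsN.of_red (k := 16) (m := 16) (leaf ok2 (G389 _ rfl) (G345 _ rfl) (G359 _ rfl) (by decide +kernel))
theorem l208 : HoldsN X2 (Trg.right (Trg.right (Trg.left (Trg.right (Trg.right (chamberN 9 22)))))) (Trg.right (Trg.left (Trg.right (Trg.right (chamberNR 9 22))))) :=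
  HoldsN.of_red (k := 16) (m := 16) (leaf ok2 (G389 _ rfl) (G293 _ rfl) (G359 _ rfl) (by decide +kernel))
theorem l209 : HoldsN X2 (Trg.left (Trg.right (Trg.right (chamberN 9 22)))) (Trg.right (Trg.right (Trg.right (chamberNR 9 22)))) :=
  HoldsN.of_red (k := 16) (m := 16) (leaf ok2 (G405 _ rfl) (G219 _ rfl) (G286 _ rfl) (by decide +kernel))

end Vale.Agent.Lib.P154N.D6
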