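import Vale.Agent.Lib.P154N.D6.Data
import Vale.Agent.Lib.P154N.Red

/-!
# Leaves of the tree of triangles
-/

namespace Vale.Agent.Lib.P154N.D6

open Vale.Agent.Lib.P154K Vale.Agent.Lib.P154Neg

theorem l210 : HoldsN X2 (Trg.left (Trg.right (Trg.right (Trg.right (chamberN 9 22))))) (Trg.left (Trg.left (Trg.right (Trg.right (chamberNR 9 22))))) :=
  HoldsN.of_red (k := 16) (m := 16) (leaf ok2 (G446 _ rfl) (G217 _ rfl) (G296 _ rfl) (by decide +kernel))
theorem l211 : HoldsN X2 (Trg.left (Trg.right (Trg.right (Trg.right (Trg.right (chamberN 9 22)))))) (Trg.left (Trg.left (Trg.right (Trg.right (chamberNR 9 22))))) :=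
  HoldsN.of_red (k := 16) (m := 16) (leaf ok2 (G463 _ rfl) (G237 _ rfl) (G284 _ rfl) (by decide +kernel))
theorem l212 : HoldsN X2 (Trg.right (Trg.right (Trg.right (Trg.right (Trg.right (chamberN 9 22)))))) (Trg.left (Trg.left (Trg.right (Trg.right (chamberNR 9 22))))) :=
  HoldsN.of_red (k := 16) (m := 16) (leaf ok2 (G445 _ rfl) (G237 _ rfl) (G294 _ rfl) (by decide +kernel))
theorem l213 : HoldsN X2 (Trg.right (Trg.right (Trg.right (chamberN 9 22)))) (Trg.right (Trg.left (Trg.right (Trg.right (chamberNR 9 22))))) :=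
  HoldsN.of_red (k := 16) (m := 16) (leaf ok2 (G396 _ rfl) (G240 _ rfl) (G347 _ rfl) (by decide +kernel))
theorem l214 : HoldsN X2 (Trg.right (Trg.right (Trg.right (chamberN 9 22)))) (Trg.right (Trg.right (Trg.right (chamberNR 9 22)))) :=
  HoldsN.of_red (k := 16) (m := 16) (leaf ok2 (G447 _ rfl) (G141 _ rfl) (G287 _ rfl) (by decide +kernel))
theorem l215 : HoldsN X3 (Trg.left (Trg.left (Trg.left (Trg.left (chamber 1 1))))) (Trg.left (Trg.left (Trg.left (Trg.left (chamberN 9 22))))) :=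
  HoldsN.of_red (k := 16) (m := 16) (leaf ok3 (G128 _ rfl) (G371 _ rfl) (G371 _ rfl) (by decide +kernel))
theorem l216 : HoldsN X3 (Trg.left (Trg.left (Trg.left (Trg.left (chamber 1 1))))) (Trg.left (Trg.right (Trg.left (Trg.left (Trg.left (chamberN 9 22)))))) :=
  HoldsN.of_red (k := 16) (m := 16) (leaf ok3 (G79 _ rfl) (G468 _ rfl) (G331 _ rfl) (by decide +kernel))
theorem l217 : HoldsN X3 (Trg.left (Trg.left (Trg.left (Trg.left (chamber 1 1))))) (Trg.right (Trg.right (Trg.left (Trg.left (Trg.left (chamberN 9 22)))))) :=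
  HoldsN.of_red (k := 16) (m := 16) (leaf ok3 (G106 _ rfl) (G465 _ rfl) (G357 _ rfl) (by decide +kernel))
theorem l218 : HoldsN X3 (Trg.right (Trg.left (Trg.left (Trg.left (chamber 1 1))))) (Trg.left (Trg.left (Trg.left (chamberN 9 22)))) :=
  HoldsN.of_red (k := 16) (m := 16) (leaf ok3 (G30 _ rfl) (G340 _ rfl) (G469 _ rfl) (by decide +kernel))
theorem l219 : HoldsN X3 (Trg.left (Trg.left (Trg.left (chamber 1 1)))) (Trg.right (Trg.left (Trg.left (chamberN 9 22)))) :=
  HoldsN.of_red (k := 16) (m := 16) (leaf ok3 (G111 _ rfl) (G332 _ rfl) (G376 _ rfl) (by decide +kernel))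

end Vale.Agent.Lib.P154N.D6
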