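import Vale.Agent.Lib.P154N.D6.Data
import Vale.Agent.Lib.P154N.Red

/-!
# Leaves of the tree of triangles
-/

namespace Vale.Agent.Lib.P154N.D6

open Vale.Agent.Lib.P154K Vale.Agent.Lib.P154Neg

theorem l220 : HoldsN X3 (Trg.left (Trg.left (Trg.left (Trg.left (chamber 1 1))))) (Trg.left (Trg.right (Trg.left (chamberN 9 22)))) :=
  HoldsN.of_red (k := 16) (m := 16) (leaf ok3 (G103 _ rfl) (G331 _ rfl) (G426 _ rfl) (by decide +kernel))
theorem l221 : HoldsN X3 (Trg.left (Trg.left (Trg.left (Trg.left (chamber 1 1))))) (Trg.left (Trg.right (Trg.right (Trg.left (chamberN 9 22))))) :=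
  HoldsN.of_red (k := 16) (m := 16) (leaf ok3 (G79 _ rfl) (G468 _ rfl) (G335 _ rfl) (by decide +kernel))
theorem l222 : HoldsN X3 (Trg.left (Trg.left (Trg.left (Trg.left (chamber 1 1))))) (Trg.right (Trg.right (Trg.right (Trg.left (chamberN 9 22))))) :=
  HoldsN.of_red (k := 16) (m := 16) (leaf ok3 (G103 _ rfl) (G372 _ rfl) (G406 _ rfl) (by decide +kernel))
theorem l223 : HoldsN X3 (Trg.right (Trg.left (Trg.left (Trg.left (chamber 1 1))))) (Trg.right (Trg.left (chamberN 9 22))) :=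
  HoldsN.of_red (k := 16) (m := 16) (leaf ok3 (G30 _ rfl) (G277 _ rfl) (G501 _ rfl) (by decide +kernel))
theorem l224 : HoldsN X3 (Trg.right (Trg.left (Trg.left (chamber 1 1)))) (Trg.left (Trg.left (Trg.left (chamberN 9 22)))) :=
  HoldsN.of_red (k := 16) (m := 16) (leaf ok3 (G111 _ rfl) (G376 _ rfl) (G332 _ rfl) (by decide +kernel))
theorem l225 : HoldsN X3 (Trg.right (Trg.left (Trg.left (chamber 1 1)))) (Trg.right (Trg.left (Trg.left (chamberN 9 22)))) :=
  HoldsN.of_red (k := 16) (m := 16) (leaf ok3 (G210 _ rfl) (G370 _ rfl) (G370 _ rfl) (by decide +kernel))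
theorem l226 : HoldsN X3 (Trg.right (Trg.left (Trg.left (chamber 1 1)))) (Trg.right (Trg.left (chamberN 9 22))) :=
  HoldsN.of_red (k := 16) (m := 16) (leaf ok3 (G111 _ rfl) (G338 _ rfl) (G338 _ rfl) (by decide +kernel))
theorem l227 : HoldsN X3 (Trg.left (Trg.right (Trg.left (chamber 1 1)))) (Trg.left (Trg.left (Trg.left (chamberN 9 22)))) :=
  HoldsN.of_red (k := 16) (m := 16) (leaf ok3 (G51 _ rfl) (G429 _ rfl) (G272 _ rfl) (by decide +kernel))
theorem l228 : HoldsN X3 (Trg.left (Trg.right (Trg.right (Trg.left (chamber 1 1))))) (Trg.left (Trg.left (Trg.left (chamberN 9 22)))) :=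
  HoldsN.of_red (k := 16) (m := 16) (leaf ok3 (G28 _ rfl) (G342 _ rfl) (G469 _ rfl) (by decide +kernel))
theorem l229 : HoldsN X3 (Trg.right (Trg.right (Trg.right (Trg.left (chamber 1 1))))) (Trg.left (Trg.left (Trg.left (Trg.left (chamberN 9 22))))) :=
  HoldsN.of_red (k := 16) (m := 16) (leaf ok3 (G103 _ rfl) (G406 _ rfl) (G372 _ rfl) (by decide +kernel))

end Vale.Agent.Lib.P154N.D6
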