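import Vale.Agent.Lib.P154N.D6.Data
import Vale.Agent.Lib.P154N.Red

/-!
# Leaves of the tree of triangles
-/

namespace Vale.Agent.Lib.P154N.D6

open Vale.Agent.Lib.P154K Vale.Agent.Lib.P154Neg

theorem l230 : HoldsN X3 (Trg.left (Trg.right (Trg.right (Trg.right (Trg.left (chamber 1 1)))))) (Trg.right (Trg.left (Trg.left (Trg.left (chamberN 9 22))))) :=
  HoldsN.of_red (k := 16) (m := 16) (leaf ok3 (G80 _ rfl) (G497 _ rfl) (G330 _ rfl) (by decide +kernel))
theorem l231 : HoldsN X3 (Trg.right (Trg.right (Trg.right (Trg.right (Trg.left (chamber 1 1)))))) (Trg.right (Trg.left (Trg.left (Trg.left (chamberN 9 22))))) :=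
  HoldsN.of_red (k := 16) (m := 16) (leaf ok3 (G49 _ rfl) (G507 _ rfl) (G422 _ rfl) (by decide +kernel))
theorem l232 : HoldsN X3 (Trg.right (Trg.left (chamber 1 1))) (Trg.right (Trg.left (Trg.left (chamberN 9 22)))) :=
  HoldsN.of_red (k := 16) (m := 16) (leaf ok3 (G111 _ rfl) (G338 _ rfl) (G338 _ rfl) (by decide +kernel))
theorem l233 : HoldsN X3 (Trg.left (Trg.right (Trg.left (chamber 1 1)))) (Trg.right (Trg.left (chamberN 9 22))) :=
  HoldsN.of_red (k := 16) (m := 16) (leaf ok3 (G51 _ rfl) (G429 _ rfl) (G277 _ rfl) (by decide +kernel))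
theorem l234 : HoldsN X3 (Trg.left (Trg.right (Trg.right (Trg.left (chamber 1 1))))) (Trg.right (Trg.left (chamberN 9 22))) :=
  HoldsN.of_red (k := 16) (m := 16) (leaf ok3 (G28 _ rfl) (G280 _ rfl) (G501 _ rfl) (by decide +kernel))
theorem l235 : HoldsN X3 (Trg.right (Trg.right (Trg.right (Trg.left (chamber 1 1))))) (Trg.left (Trg.right (Trg.left (chamberN 9 22)))) :=
  HoldsN.of_red (k := 16) (m := 16) (leaf ok3 (G75 _ rfl) (G408 _ rfl) (G427 _ rfl) (by decide +kernel))
theorem l236 : HoldsN X3 (Trg.right (Trg.right (Trg.right (Trg.left (chamber 1 1))))) (Trg.left (Trg.right (Trg.right (Trg.left (chamberN 9 22))))) :=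
  HoldsN.of_red (k := 16) (m := 16) (leaf ok3 (G50 _ rfl) (G507 _ rfl) (G336 _ rfl) (by decide +kernel))
theorem l237 : HoldsN X3 (Trg.right (Trg.right (Trg.right (Trg.left (chamber 1 1))))) (Trg.right (Trg.right (Trg.right (Trg.left (chamberN 9 22))))) :=
  HoldsN.of_red (k := 16) (m := 16) (leaf ok3 (G75 _ rfl) (G408 _ rfl) (G408 _ rfl) (by decide +kernel))
theorem l238 : HoldsN X3 (Trg.left (Trg.left (Trg.left (Trg.left (chamber 1 1))))) (Trg.left (Trg.right (chamberN 9 22))) :=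
  HoldsN.of_red (k := 16) (m := 16) (leaf ok3 (G45 _ rfl) (G521 _ rfl) (G192 _ rfl) (by decide +kernel))
theorem l239 : HoldsN X3 (Trg.right (Trg.left (Trg.left (Trg.left (chamber 1 1))))) (Trg.left (Trg.right (chamberN 9 22))) :=
  HoldsN.of_red (k := 16) (m := 16) (leaf ok3 (G10 _ rfl) (G522 _ rfl) (G414 _ rfl) (by decide +kernel))

end Vale.Agent.Lib.P154N.D6
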