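import Vale.Agent.Lib.P154N.D6.Data
import Vale.Agent.Lib.P154N.Red

/-!
# Leaves of the tree of triangles
-/

namespace Vale.Agent.Lib.P154N.D6

open Vale.Agent.Lib.P154K Vale.Agent.Lib.P154Neg

theorem l240 : HoldsN X3 (Trg.right (Trg.left (Trg.left (chamber 1 1)))) (Trg.left (Trg.right (chamberN 9 22))) :=
  HoldsN.of_red (k := 16) (m := 16) (leaf ok3 (G71 _ rfl) (G416 _ rfl) (G193 _ rfl) (by decide +kernel))
theorem l241 : HoldsN X3 (Trg.left (Trg.right (Trg.left (chamber 1 1)))) (Trg.left (Trg.left (Trg.right (chamberN 9 22)))) :=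
  HoldsN.of_red (k := 16) (m := 16) (leaf ok3 (G41 _ rfl) (G538 _ rfl) (G158 _ rfl) (by decide +kernel))
theorem l242 : HoldsN X3 (Trg.left (Trg.right (Trg.left (chamber 1 1)))) (Trg.left (Trg.right (Trg.left (Trg.right (chamberN 9 22))))) :=
  HoldsN.of_red (k := 16) (m := 16) (leaf ok3 (G28 _ rfl) (G565 _ rfl) (G94 _ rfl) (by decide +kernel))
theorem l243 : HoldsN X3 (Trg.left (Trg.right (Trg.left (chamber 1 1)))) (Trg.right (Trg.right (Trg.left (Trg.right (chamberN 9 22))))) :=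
  HoldsN.of_red (k := 16) (m := 16) (leaf ok3 (G41 _ rfl) (G538 _ rfl) (G134 _ rfl) (by decide +kernel))
theorem l244 : HoldsN X3 (Trg.left (Trg.right (Trg.right (Trg.left (chamber 1 1))))) (Trg.left (Trg.right (chamberN 9 22))) :=
  HoldsN.of_red (k := 16) (m := 16) (leaf ok3 (G9 _ rfl) (G565 _ rfl) (G277 _ rfl) (by decide +kernel))
theorem l245 : HoldsN X3 (Trg.right (Trg.right (Trg.right (Trg.left (chamber 1 1))))) (Trg.left (Trg.right (chamberN 9 22))) :=
  HoldsN.of_red (k := 16) (m := 16) (leaf ok3 (G30 _ rfl) (G542 _ rfl) (G191 _ rfl) (by decide +kernel))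
theorem l246 : HoldsN X3 (Trg.left (Trg.left (Trg.left (Trg.left (chamber 1 1))))) (Trg.left (Trg.left (Trg.right (Trg.right (chamberN 9 22))))) :=
  HoldsN.of_red (k := 16) (m := 16) (leaf ok3 (G131 _ rfl) (G474 _ rfl) (G266 _ rfl) (by decide +kernel))
theorem l247 : HoldsN X3 (Trg.left (Trg.left (Trg.left (Trg.left (chamber 1 1))))) (Trg.right (Trg.left (Trg.right (Trg.right (chamberN 9 22))))) :=
  HoldsN.of_red (k := 16) (m := 16) (leaf ok3 (G173 _ rfl) (G400 _ rfl) (G325 _ rfl) (by decide +kernel))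
theorem l248 : HoldsN X3 (Trg.right (Trg.left (Trg.left (Trg.left (chamber 1 1))))) (Trg.left (Trg.right (Trg.right (chamberN 9 22)))) :=
  HoldsN.of_red (k := 16) (m := 16) (leaf ok3 (G71 _ rfl) (G416 _ rfl) (G403 _ rfl) (by decide +kernel))
theorem l249 : HoldsN X3 (Trg.left (Trg.left (Trg.left (Trg.left (chamber 1 1))))) (Trg.left (Trg.left (Trg.right (Trg.right (Trg.right (chamberN 9 22)))))) :=
  HoldsN.of_red (k := 16) (m := 16) (leaf ok3 (G103 _ rfl) (G474 _ rfl) (G307 _ rfl) (by decide +kernel))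

end Vale.Agent.Lib.P154N.D6
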