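import Vale.Agent.Lib.P154N.D6.Data
import Vale.Agent.Lib.P154N.Red

/-!
# Leaves of the tree of triangles
-/

namespace Vale.Agent.Lib.P154N.D6

open Vale.Agent.Lib.P154K Vale.Agent.Lib.P154Neg

theorem l250 : HoldsN X3 (Trg.left (Trg.left (Trg.left (Trg.left (chamber 1 1))))) (Trg.right (Trg.left (Trg.right (Trg.right (Trg.right (chamberN 9 22)))))) :=
  HoldsN.of_red (k := 16) (m := 16) (leaf ok3 (G79 _ rfl) (G494 _ rfl) (G309 _ rfl) (by decide +kernel))
theorem l251 : HoldsN X3 (Trg.left (Trg.left (Trg.left (Trg.left (chamber 1 1))))) (Trg.right (Trg.right (Trg.right (Trg.right (chamberN 9 22))))) :=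
  HoldsN.of_red (k := 16) (m := 16) (leaf ok3 (G103 _ rfl) (G474 _ rfl) (G270 _ rfl) (by decide +kernel))
theorem l252 : HoldsN X3 (Trg.right (Trg.left (Trg.left (Trg.left (chamber 1 1))))) (Trg.right (Trg.right (Trg.right (chamberN 9 22)))) :=
  HoldsN.of_red (k := 16) (m := 16) (leaf ok3 (G27 _ rfl) (G475 _ rfl) (G414 _ rfl) (by decide +kernel))
theorem l253 : HoldsN X3 (Trg.left (Trg.right (Trg.left (Trg.left (chamber 1 1))))) (Trg.left (Trg.left (Trg.right (Trg.right (chamberN 9 22))))) :=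
  HoldsN.of_red (k := 16) (m := 16) (leaf ok3 (G153 _ rfl) (G405 _ rfl) (G325 _ rfl) (by decide +kernel))
theorem l254 : HoldsN X3 (Trg.left (Trg.right (Trg.right (Trg.left (Trg.left (chamber 1 1)))))) (Trg.left (Trg.left (Trg.left (Trg.right (Trg.right (chamberN 9 22)))))) :=
  HoldsN.of_red (k := 16) (m := 16) (leaf ok3 (G218 _ rfl) (G443 _ rfl) (G298 _ rfl) (by decide +kernel))
theorem l255 : HoldsN X3 (Trg.left (Trg.right (Trg.right (Trg.left (Trg.left (chamber 1 1)))))) (Trg.left (Trg.right (Trg.left (Trg.left (Trg.right (Trg.right (chamberN 9 22))))))) :=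
  HoldsN.of_red (k := 16) (m := 16) (leaf ok3 (G207 _ rfl) (G464 _ rfl) (G257 _ rfl) (by decide +kernel))
theorem l256 : HoldsN X3 (Trg.left (Trg.right (Trg.right (Trg.left (Trg.left (chamber 1 1)))))) (Trg.right (Trg.right (Trg.left (Trg.left (Trg.right (Trg.right (chamberN 9 22))))))) :=
  HoldsN.of_red (k := 16) (m := 16) (leaf ok3 (G218 _ rfl) (G443 _ rfl) (G294 _ rfl) (by decide +kernel))
theorem l257 : HoldsN X3 (Trg.right (Trg.right (Trg.right (Trg.left (Trg.left (chamber 1 1)))))) (Trg.left (Trg.left (Trg.right (Trg.right (chamberN 9 22))))) :=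
  HoldsN.of_red (k := 16) (m := 16) (leaf ok3 (G151 _ rfl) (G446 _ rfl) (G324 _ rfl) (by decide +kernel))
theorem l258 : HoldsN X3 (Trg.right (Trg.left (Trg.left (chamber 1 1)))) (Trg.right (Trg.left (Trg.right (Trg.right (chamberN 9 22))))) :=
  HoldsN.of_red (k := 16) (m := 16) (leaf ok3 (G210 _ rfl) (G398 _ rfl) (G325 _ rfl) (by decide +kernel))
theorem l259 : HoldsN X3 (Trg.right (Trg.left (Trg.left (chamber 1 1)))) (Trg.right (Trg.right (Trg.right (chamberN 9 22)))) :=
  HoldsN.of_red (k := 16) (m := 16) (leaf ok3 (G111 _ rfl) (G409 _ rfl) (G273 _ rfl) (by decide +kernel))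

end Vale.Agent.Lib.P154N.D6
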