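import Vale.Agent.Lib.P154N.D6.Data
import Vale.Agent.Lib.P154N.Red

/-!
# Leaves of the tree of triangles
-/

namespace Vale.Agent.Lib.P154N.D6

open Vale.Agent.Lib.P154K Vale.Agent.Lib.P154Neg

theorem l260 : HoldsN X3 (Trg.left (Trg.right (Trg.left (chamber 1 1)))) (Trg.left (Trg.left (Trg.right (Trg.right (chamberN 9 22))))) :=
  HoldsN.of_red (k := 16) (m := 16) (leaf ok3 (G108 _ rfl) (G484 _ rfl) (G187 _ rfl) (by decide +kernel))
theorem l261 : HoldsN X3 (Trg.left (Trg.right (Trg.left (chamber 1 1)))) (Trg.right (Trg.left (Trg.right (Trg.right (chamberN 9 22))))) :=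
  HoldsN.of_red (k := 16) (m := 16) (leaf ok3 (G142 _ rfl) (G409 _ rfl) (G265 _ rfl) (by decide +kernel))
theorem l262 : HoldsN X3 (Trg.left (Trg.right (Trg.right (Trg.left (chamber 1 1))))) (Trg.left (Trg.right (Trg.right (chamberN 9 22)))) :=
  HoldsN.of_red (k := 16) (m := 16) (leaf ok3 (G71 _ rfl) (G416 _ rfl) (G332 _ rfl) (by decide +kernel))
theorem l263 : HoldsN X3 (Trg.right (Trg.right (Trg.right (Trg.left (chamber 1 1))))) (Trg.left (Trg.left (Trg.right (Trg.right (chamberN 9 22))))) :=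
  HoldsN.of_red (k := 16) (m := 16) (leaf ok3 (G108 _ rfl) (G484 _ rfl) (G264 _ rfl) (by decide +kernel))
theorem l264 : HoldsN X3 (Trg.right (Trg.right (Trg.right (Trg.left (chamber 1 1))))) (Trg.right (Trg.left (Trg.right (Trg.right (chamberN 9 22))))) :=
  HoldsN.of_red (k := 16) (m := 16) (leaf ok3 (G142 _ rfl) (G405 _ rfl) (G323 _ rfl) (by decide +kernel))
theorem l265 : HoldsN X3 (Trg.left (Trg.right (Trg.left (chamber 1 1)))) (Trg.right (Trg.right (Trg.right (chamberN 9 22)))) :=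
  HoldsN.of_red (k := 16) (m := 16) (leaf ok3 (G51 _ rfl) (G501 _ rfl) (G190 _ rfl) (by decide +kernel))
theorem l266 : HoldsN X3 (Trg.left (Trg.right (Trg.right (Trg.left (chamber 1 1))))) (Trg.right (Trg.right (Trg.right (chamberN 9 22)))) :=
  HoldsN.of_red (k := 16) (m := 16) (leaf ok3 (G26 _ rfl) (G507 _ rfl) (G340 _ rfl) (by decide +kernel))
theorem l267 : HoldsN X3 (Trg.left (Trg.right (Trg.right (Trg.right (Trg.left (chamber 1 1)))))) (Trg.right (Trg.right (Trg.right (chamberN 9 22)))) :=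
  HoldsN.of_red (k := 16) (m := 16) (leaf ok3 (G80 _ rfl) (G497 _ rfl) (G271 _ rfl) (by decide +kernel))
theorem l268 : HoldsN X3 (Trg.right (Trg.right (Trg.right (Trg.right (Trg.left (chamber 1 1)))))) (Trg.right (Trg.right (Trg.right (chamberN 9 22)))) :=
  HoldsN.of_red (k := 16) (m := 16) (leaf ok3 (G49 _ rfl) (G507 _ rfl) (G308 _ rfl) (by decide +kernel))
theorem l269 : HoldsN X3 (Trg.left (Trg.right (chamber 1 1))) (Trg.left (chamberN 9 22)) :=
  HoldsN.of_red (k := 16) (m := 16) (leaf ok3 (G13 _ rfl) (G99 _ rfl) (G418 _ rfl) (by decide +kernel))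

end Vale.Agent.Lib.P154N.D6
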