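import Vale.Agent.Lib.P154N.D6.Data
import Vale.Agent.Lib.P154N.Red

/-!
# Leaves of the tree of triangles
-/

namespace Vale.Agent.Lib.P154N.D6

open Vale.Agent.Lib.P154K Vale.Agent.Lib.P154Neg

theorem l270 : HoldsN X3 (Trg.left (Trg.left (Trg.right (chamber 1 1)))) (Trg.left (Trg.right (chamberN 9 22))) :=
  HoldsN.of_red (k := 16) (m := 16) (leaf ok3 (G4 _ rfl) (G487 _ rfl) (G486 _ rfl) (by decide +kernel))
theorem l271 : HoldsN X3 (Trg.left (Trg.right (Trg.left (Trg.right (chamber 1 1))))) (Trg.left (Trg.right (chamberN 9 22))) :=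
  HoldsN.of_red (k := 16) (m := 16) (leaf ok3 (G1 _ rfl) (G510 _ rfl) (G550 _ rfl) (by decide +kernel))
theorem l272 : HoldsN X3 (Trg.right (Trg.right (Trg.left (Trg.right (chamber 1 1))))) (Trg.left (Trg.right (chamberN 9 22))) :=
  HoldsN.of_red (k := 16) (m := 16) (leaf ok3 (G4 _ rfl) (G487 _ rfl) (G536 _ rfl) (by decide +kernel))
theorem l273 : HoldsN X3 (Trg.left (Trg.right (chamber 1 1))) (Trg.right (Trg.right (chamberN 9 22))) :=
  HoldsN.of_red (k := 16) (m := 16) (leaf ok3 (G13 _ rfl) (G416 _ rfl) (G418 _ rfl) (by decide +kernel))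
theorem l274 : HoldsN X3 (Trg.left (Trg.left (Trg.right (Trg.right (chamber 1 1))))) (Trg.left (Trg.left (Trg.left (chamberN 9 22)))) :=
  HoldsN.of_red (k := 16) (m := 16) (leaf ok3 (G69 _ rfl) (G272 _ rfl) (G475 _ rfl) (by decide +kernel))
theorem l275 : HoldsN X3 (Trg.right (Trg.left (Trg.right (Trg.right (chamber 1 1))))) (Trg.left (Trg.left (Trg.left (chamberN 9 22)))) :=
  HoldsN.of_red (k := 16) (m := 16) (leaf ok3 (G111 _ rfl) (G332 _ rfl) (G405 _ rfl) (by decide +kernel))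
theorem l276 : HoldsN X3 (Trg.left (Trg.left (Trg.right (Trg.right (chamber 1 1))))) (Trg.right (Trg.left (Trg.left (chamberN 9 22)))) :=
  HoldsN.of_red (k := 16) (m := 16) (leaf ok3 (G153 _ rfl) (G267 _ rfl) (G405 _ rfl) (by decide +kernel))
theorem l277 : HoldsN X3 (Trg.right (Trg.left (Trg.right (Trg.right (chamber 1 1))))) (Trg.right (Trg.left (Trg.left (chamberN 9 22)))) :=
  HoldsN.of_red (k := 16) (m := 16) (leaf ok3 (G210 _ rfl) (G325 _ rfl) (G398 _ rfl) (by decide +kernel))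
theorem l278 : HoldsN X3 (Trg.left (Trg.left (Trg.right (Trg.right (chamber 1 1))))) (Trg.right (Trg.left (chamberN 9 22))) :=
  HoldsN.of_red (k := 16) (m := 16) (leaf ok3 (G69 _ rfl) (G192 _ rfl) (G484 _ rfl) (by decide +kernel))
theorem l279 : HoldsN X3 (Trg.right (Trg.left (Trg.right (Trg.right (chamber 1 1))))) (Trg.right (Trg.left (chamberN 9 22))) :=
  HoldsN.of_red (k := 16) (m := 16) (leaf ok3 (G111 _ rfl) (G273 _ rfl) (G409 _ rfl) (by decide +kernel))

end Vale.Agent.Lib.P154N.D6
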