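import Vale.Agent.Lib.P154N.D6.Data
import Vale.Agent.Lib.P154N.Red

/-!
# Leaves of the tree of triangles
-/

namespace Vale.Agent.Lib.P154N.D6

open Vale.Agent.Lib.P154K Vale.Agent.Lib.P154Neg

theorem l280 : HoldsN X3 (Trg.right (Trg.right (Trg.right (chamber 1 1)))) (Trg.left (Trg.left (Trg.left (chamberN 9 22)))) :=
  HoldsN.of_red (k := 16) (m := 16) (leaf ok3 (G30 _ rfl) (G277 _ rfl) (G475 _ rfl) (by decide +kernel))
theorem l281 : HoldsN X3 (Trg.right (Trg.right (Trg.right (chamber 1 1)))) (Trg.right (Trg.left (Trg.left (chamberN 9 22)))) :=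
  HoldsN.of_red (k := 16) (m := 16) (leaf ok3 (G111 _ rfl) (G273 _ rfl) (G409 _ rfl) (by decide +kernel))
theorem l282 : HoldsN X3 (Trg.right (Trg.right (Trg.right (chamber 1 1)))) (Trg.right (Trg.left (chamberN 9 22))) :=
  HoldsN.of_red (k := 16) (m := 16) (leaf ok3 (G30 _ rfl) (G196 _ rfl) (G501 _ rfl) (by decide +kernel))
theorem l283 : HoldsN X3 (Trg.left (Trg.right (Trg.right (chamber 1 1)))) (Trg.left (Trg.right (chamberN 9 22))) :=
  HoldsN.of_red (k := 16) (m := 16) (leaf ok3 (G18 _ rfl) (G416 _ rfl) (G416 _ rfl) (by decide +kernel))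
theorem l284 : HoldsN X3 (Trg.right (Trg.right (Trg.right (chamber 1 1)))) (Trg.left (Trg.right (chamberN 9 22))) :=
  HoldsN.of_red (k := 16) (m := 16) (leaf ok3 (G10 _ rfl) (G487 _ rfl) (G451 _ rfl) (by decide +kernel))
theorem l285 : HoldsN X3 (Trg.left (Trg.left (Trg.right (Trg.right (chamber 1 1))))) (Trg.left (Trg.right (Trg.right (chamberN 9 22)))) :=
  HoldsN.of_red (k := 16) (m := 16) (leaf ok3 (G93 _ rfl) (G405 _ rfl) (G405 _ rfl) (by decide +kernel))
theorem l286 : HoldsN X3 (Trg.right (Trg.left (Trg.right (Trg.right (chamber 1 1))))) (Trg.left (Trg.left (Trg.right (Trg.right (chamberN 9 22))))) :=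
  HoldsN.of_red (k := 16) (m := 16) (leaf ok3 (G153 _ rfl) (G405 _ rfl) (G395 _ rfl) (by decide +kernel))
theorem l287 : HoldsN X3 (Trg.right (Trg.left (Trg.right (Trg.right (chamber 1 1))))) (Trg.right (Trg.left (Trg.right (Trg.right (chamberN 9 22))))) :=
  HoldsN.of_red (k := 16) (m := 16) (leaf ok3 (G210 _ rfl) (G395 _ rfl) (G395 _ rfl) (by decide +kernel))
theorem l288 : HoldsN X3 (Trg.left (Trg.left (Trg.right (Trg.right (chamber 1 1))))) (Trg.right (Trg.right (Trg.right (chamberN 9 22)))) :=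
  HoldsN.of_red (k := 16) (m := 16) (leaf ok3 (G68 _ rfl) (G425 _ rfl) (G451 _ rfl) (by decide +kernel))
theorem l289 : HoldsN X3 (Trg.right (Trg.left (Trg.right (Trg.right (chamber 1 1))))) (Trg.right (Trg.right (Trg.right (chamberN 9 22)))) :=
  HoldsN.of_red (k := 16) (m := 16) (leaf ok3 (G111 _ rfl) (G405 _ rfl) (G405 _ rfl) (by decide +kernel))

end Vale.Agent.Lib.P154N.D6
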