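import Vale.Agent.Lib.P154N.D6.Data
import Vale.Agent.Lib.P154N.Red

/-!
# Leaves of the tree of triangles
-/

namespace Vale.Agent.Lib.P154N.D6

open Vale.Agent.Lib.P154K Vale.Agent.Lib.P154Neg

theorem l290 : HoldsN X3 (Trg.right (Trg.right (Trg.right (chamber 1 1)))) (Trg.right (Trg.right (chamberN 9 22))) :=
  HoldsN.of_red (k := 16) (m := 16) (leaf ok3 (G32 _ rfl) (G416 _ rfl) (G416 _ rfl) (by decide +kernel))
theorem l291 : HoldsN X3 (Trg.left (Trg.left (Trg.left (chamber 1 1)))) (Trg.left (Trg.left (Trg.left (chamberNR 9 22)))) :=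
  HoldsN.of_red (k := 16) (m := 16) (leaf ok3 (G55 _ rfl) (G456 _ rfl) (G179 _ rfl) (by decide +kernel))
theorem l292 : HoldsN X3 (Trg.left (Trg.left (Trg.left (chamber 1 1)))) (Trg.right (Trg.left (Trg.left (chamberNR 9 22)))) :=
  HoldsN.of_red (k := 16) (m := 16) (leaf ok3 (G143 _ rfl) (G413 _ rfl) (G181 _ rfl) (by decide +kernel))
theorem l293 : HoldsN X3 (Trg.left (Trg.left (Trg.left (Trg.left (chamber 1 1))))) (Trg.right (Trg.left (chamberNR 9 22))) :=
  HoldsN.of_red (k := 16) (m := 16) (leaf ok3 (G136 _ rfl) (G452 _ rfl) (G131 _ rfl) (by decide +kernel))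
theorem l294 : HoldsN X3 (Trg.right (Trg.left (Trg.left (Trg.left (chamber 1 1))))) (Trg.right (Trg.left (chamberNR 9 22))) :=
  HoldsN.of_red (k := 16) (m := 16) (leaf ok3 (G53 _ rfl) (G503 _ rfl) (G92 _ rfl) (by decide +kernel))
theorem l295 : HoldsN X3 (Trg.right (Trg.left (Trg.left (chamber 1 1)))) (Trg.left (Trg.left (Trg.left (chamberNR 9 22)))) :=
  HoldsN.of_red (k := 16) (m := 16) (leaf ok3 (G143 _ rfl) (G413 _ rfl) (G181 _ rfl) (by decide +kernel))
theorem l296 : HoldsN X3 (Trg.right (Trg.left (Trg.left (chamber 1 1)))) (Trg.right (Trg.left (Trg.left (chamberNR 9 22)))) :=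
  HoldsN.of_red (k := 16) (m := 16) (leaf ok3 (G242 _ rfl) (G401 _ rfl) (G256 _ rfl) (by decide +kernel))
theorem l297 : HoldsN X3 (Trg.right (Trg.left (Trg.left (chamber 1 1)))) (Trg.right (Trg.left (chamberNR 9 22))) :=
  HoldsN.of_red (k := 16) (m := 16) (leaf ok3 (G144 _ rfl) (G413 _ rfl) (G181 _ rfl) (by decide +kernel))
theorem l298 : HoldsN X3 (Trg.left (Trg.right (Trg.left (chamber 1 1)))) (Trg.left (Trg.left (Trg.left (chamberNR 9 22)))) :=
  HoldsN.of_red (k := 16) (m := 16) (leaf ok3 (G121 _ rfl) (G454 _ rfl) (G90 _ rfl) (by decide +kernel))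
theorem l299 : HoldsN X3 (Trg.right (Trg.right (Trg.left (chamber 1 1)))) (Trg.left (Trg.left (Trg.left (chamberNR 9 22)))) :=
  HoldsN.of_red (k := 16) (m := 16) (leaf ok3 (G55 _ rfl) (G456 _ rfl) (G150 _ rfl) (by decide +kernel))

end Vale.Agent.Lib.P154N.D6
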