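import Vale.Agent.Lib.P154N.D6.Data
import Vale.Agent.Lib.P154N.Red

/-!
# Leaves of the tree of triangles
-/

namespace Vale.Agent.Lib.P154N.D6

open Vale.Agent.Lib.P154K Vale.Agent.Lib.P154Neg

theorem l30 : HoldsN X2 (Trg.left (Trg.right (chamberN 9 22))) (Trg.right (Trg.left (chamberN 9 22))) :=
  HoldsN.of_red (k := 16) (m := 16) (leaf ok2 (G439 _ rfl) (G233 _ rfl) (G116 _ rfl) (by decide +kernel))
theorem l31 : HoldsN X2 (Trg.left (Trg.left (Trg.right (chamberN 9 22)))) (Trg.left (Trg.right (chamberN 9 22))) :=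
  HoldsN.of_red (k := 16) (m := 16) (leaf ok2 (G515 _ rfl) (G118 _ rfl) (G166 _ rfl) (by decide +kernel))
theorem l32 : HoldsN X2 (Trg.left (Trg.right (Trg.left (Trg.right (chamberN 9 22))))) (Trg.left (Trg.left (Trg.right (chamberN 9 22)))) :=
  HoldsN.of_red (k := 16) (m := 16) (leaf ok2 (G547 _ rfl) (G170 _ rfl) (G115 _ rfl) (by decide +kernel))
theorem l33 : HoldsN X2 (Trg.left (Trg.right (Trg.left (Trg.right (chamberN 9 22))))) (Trg.right (Trg.left (Trg.right (chamberN 9 22)))) :=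
  HoldsN.of_red (k := 16) (m := 16) (leaf ok2 (G549 _ rfl) (G113 _ rfl) (G115 _ rfl) (by decide +kernel))
theorem l34 : HoldsN X2 (Trg.right (Trg.right (Trg.left (Trg.right (chamberN 9 22))))) (Trg.left (Trg.right (chamberN 9 22))) :=
  HoldsN.of_red (k := 16) (m := 16) (leaf ok2 (G515 _ rfl) (G118 _ rfl) (G148 _ rfl) (by decide +kernel))
theorem l35 : HoldsN X2 (Trg.left (Trg.left (Trg.right (chamberN 9 22)))) (Trg.left (Trg.left (Trg.right (Trg.right (chamberN 9 22))))) :=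
  HoldsN.of_red (k := 16) (m := 16) (leaf ok2 (G473 _ rfl) (G218 _ rfl) (G247 _ rfl) (by decide +kernel))
theorem l36 : HoldsN X2 (Trg.left (Trg.left (Trg.right (chamberN 9 22)))) (Trg.right (Trg.left (Trg.right (Trg.right (chamberN 9 22))))) :=
  HoldsN.of_red (k := 16) (m := 16) (leaf ok2 (G403 _ rfl) (G285 _ rfl) (G249 _ rfl) (by decide +kernel))
theorem l37 : HoldsN X2 (Trg.left (Trg.right (Trg.left (Trg.right (chamberN 9 22))))) (Trg.left (Trg.left (Trg.right (Trg.right (chamberN 9 22))))) :=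
  HoldsN.of_red (k := 16) (m := 16) (leaf ok2 (G496 _ rfl) (G217 _ rfl) (G216 _ rfl) (by decide +kernel))
theorem l38 : HoldsN X2 (Trg.left (Trg.right (Trg.left (Trg.right (chamberN 9 22))))) (Trg.right (Trg.left (Trg.right (Trg.right (chamberN 9 22))))) :=
  HoldsN.of_red (k := 16) (m := 16) (leaf ok2 (G405 _ rfl) (G285 _ rfl) (G219 _ rfl) (by decide +kernel))
theorem l39 : HoldsN X2 (Trg.left (Trg.right (Trg.right (Trg.left (Trg.right (chamberN 9 22)))))) (Trg.left (Trg.left (Trg.right (Trg.right (chamberN 9 22))))) :=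
  HoldsN.of_red (k := 16) (m := 16) (leaf ok2 (G472 _ rfl) (G238 _ rfl) (G237 _ rfl) (by decide +kernel))

end Vale.Agent.Lib.P154N.D6
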