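import Vale.Agent.Lib.P154N.D6.Data
import Vale.Agent.Lib.P154N.Red

/-!
# Leaves of the tree of triangles
-/

namespace Vale.Agent.Lib.P154N.D6

open Vale.Agent.Lib.P154K Vale.Agent.Lib.P154Neg

theorem l300 : HoldsN X3 (Trg.right (Trg.left (chamber 1 1))) (Trg.right (Trg.left (Trg.left (chamberNR 9 22)))) :=
  HoldsN.of_red (k := 16) (m := 16) (leaf ok3 (G144 _ rfl) (G413 _ rfl) (G181 _ rfl) (by decide +kernel))
theorem l301 : HoldsN X3 (Trg.left (Trg.right (Trg.left (chamber 1 1)))) (Trg.right (Trg.left (chamberNR 9 22))) :=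
  HoldsN.of_red (k := 16) (m := 16) (leaf ok3 (G122 _ rfl) (G454 _ rfl) (G90 _ rfl) (by decide +kernel))
theorem l302 : HoldsN X3 (Trg.left (Trg.right (Trg.right (Trg.left (chamber 1 1))))) (Trg.right (Trg.left (chamberNR 9 22))) :=
  HoldsN.of_red (k := 16) (m := 16) (leaf ok3 (G55 _ rfl) (G509 _ rfl) (G90 _ rfl) (by decide +kernel))
theorem l303 : HoldsN X3 (Trg.right (Trg.right (Trg.right (Trg.left (chamber 1 1))))) (Trg.right (Trg.left (chamberNR 9 22))) :=
  HoldsN.of_red (k := 16) (m := 16) (leaf ok3 (G121 _ rfl) (G454 _ rfl) (G90 _ rfl) (by decide +kernel))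
theorem l304 : HoldsN X3 (Trg.left (Trg.left (Trg.left (Trg.left (chamber 1 1))))) (Trg.left (Trg.right (chamberNR 9 22))) :=
  HoldsN.of_red (k := 16) (m := 16) (leaf ok3 (G46 _ rfl) (G536 _ rfl) (G188 _ rfl) (by decide +kernel))
theorem l305 : HoldsN X3 (Trg.right (Trg.left (Trg.left (Trg.left (chamber 1 1))))) (Trg.left (Trg.right (chamberNR 9 22))) :=
  HoldsN.of_red (k := 16) (m := 16) (leaf ok3 (G10 _ rfl) (G542 _ rfl) (G235 _ rfl) (by decide +kernel))
theorem l306 : HoldsN X3 (Trg.right (Trg.left (Trg.left (chamber 1 1)))) (Trg.left (Trg.right (chamberNR 9 22))) :=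
  HoldsN.of_red (k := 16) (m := 16) (leaf ok3 (G71 _ rfl) (G416 _ rfl) (G189 _ rfl) (by decide +kernel))
theorem l307 : HoldsN X3 (Trg.left (Trg.right (Trg.left (chamber 1 1)))) (Trg.left (Trg.left (Trg.right (chamberNR 9 22)))) :=
  HoldsN.of_red (k := 16) (m := 16) (leaf ok3 (G66 _ rfl) (G539 _ rfl) (G92 _ rfl) (by decide +kernel))
theorem l308 : HoldsN X3 (Trg.left (Trg.right (Trg.left (chamber 1 1)))) (Trg.left (Trg.right (Trg.left (Trg.right (chamberNR 9 22))))) :=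
  HoldsN.of_red (k := 16) (m := 16) (leaf ok3 (G29 _ rfl) (G565 _ rfl) (G91 _ rfl) (by decide +kernel))
theorem l309 : HoldsN X3 (Trg.left (Trg.right (Trg.left (chamber 1 1)))) (Trg.right (Trg.right (Trg.left (Trg.right (chamberNR 9 22))))) :=
  HoldsN.of_red (k := 16) (m := 16) (leaf ok3 (G62 _ rfl) (G539 _ rfl) (G92 _ rfl) (by decide +kernel))

end Vale.Agent.Lib.P154N.D6
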