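import Vale.Agent.Lib.P154N.D6.Data
import Vale.Agent.Lib.P154N.Red

/-!
# Leaves of the tree of triangles
-/

namespace Vale.Agent.Lib.P154N.D6

open Vale.Agent.Lib.P154K Vale.Agent.Lib.P154Neg

theorem l310 : HoldsN X3 (Trg.left (Trg.right (Trg.right (Trg.left (chamber 1 1))))) (Trg.left (Trg.right (chamberNR 9 22))) :=
  HoldsN.of_red (k := 16) (m := 16) (leaf ok3 (G9 _ rfl) (G565 _ rfl) (G159 _ rfl) (by decide +kernel))
theorem l311 : HoldsN X3 (Trg.right (Trg.right (Trg.right (Trg.left (chamber 1 1))))) (Trg.left (Trg.right (chamberNR 9 22))) :=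
  HoldsN.of_red (k := 16) (m := 16) (leaf ok3 (G31 _ rfl) (G542 _ rfl) (G152 _ rfl) (by decide +kernel))
theorem l312 : HoldsN X3 (Trg.left (Trg.left (Trg.left (Trg.left (chamber 1 1))))) (Trg.left (Trg.left (Trg.right (Trg.right (chamberNR 9 22))))) :=
  HoldsN.of_red (k := 16) (m := 16) (leaf ok3 (G132 _ rfl) (G481 _ rfl) (G262 _ rfl) (by decide +kernel))
theorem l313 : HoldsN X3 (Trg.left (Trg.left (Trg.left (Trg.left (chamber 1 1))))) (Trg.right (Trg.left (Trg.right (Trg.right (chamberNR 9 22))))) :=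
  HoldsN.of_red (k := 16) (m := 16) (leaf ok3 (G225 _ rfl) (G407 _ rfl) (G260 _ rfl) (by decide +kernel))
theorem l314 : HoldsN X3 (Trg.right (Trg.left (Trg.left (Trg.left (chamber 1 1))))) (Trg.left (Trg.right (Trg.right (chamberNR 9 22)))) :=
  HoldsN.of_red (k := 16) (m := 16) (leaf ok3 (G71 _ rfl) (G416 _ rfl) (G306 _ rfl) (by decide +kernel))
theorem l315 : HoldsN X3 (Trg.left (Trg.left (Trg.left (Trg.left (chamber 1 1))))) (Trg.right (Trg.right (Trg.right (chamberNR 9 22)))) :=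
  HoldsN.of_red (k := 16) (m := 16) (leaf ok3 (G132 _ rfl) (G500 _ rfl) (G185 _ rfl) (by decide +kernel))
theorem l316 : HoldsN X3 (Trg.right (Trg.left (Trg.left (Trg.left (chamber 1 1))))) (Trg.right (Trg.right (Trg.right (chamberNR 9 22)))) :=
  HoldsN.of_red (k := 16) (m := 16) (leaf ok3 (G50 _ rfl) (G516 _ rfl) (G231 _ rfl) (by decide +kernel))
theorem l317 : HoldsN X3 (Trg.left (Trg.right (Trg.left (Trg.left (chamber 1 1))))) (Trg.left (Trg.left (Trg.right (Trg.right (chamberNR 9 22))))) :=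
  HoldsN.of_red (k := 16) (m := 16) (leaf ok3 (G153 _ rfl) (G405 _ rfl) (G321 _ rfl) (by decide +kernel))
theorem l318 : HoldsN X3 (Trg.left (Trg.right (Trg.right (Trg.left (Trg.left (chamber 1 1)))))) (Trg.left (Trg.left (Trg.left (Trg.right (Trg.right (chamberNR 9 22)))))) :=
  HoldsN.of_red (k := 16) (m := 16) (leaf ok3 (G239 _ rfl) (G444 _ rfl) (G255 _ rfl) (by decide +kernel))
theorem l319 : HoldsN X3 (Trg.left (Trg.right (Trg.right (Trg.left (Trg.left (chamber 1 1)))))) (Trg.right (Trg.left (Trg.left (Trg.right (Trg.right (chamberNR 9 22)))))) :=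
  HoldsN.of_red (k := 16) (m := 16) (leaf ok3 (G208 _ rfl) (G446 _ rfl) (G255 _ rfl) (by decide +kernel))

end Vale.Agent.Lib.P154N.D6
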