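import Vale.Agent.Lib.P154N.D6.Data
import Vale.Agent.Lib.P154N.Red

/-!
# Leaves of the tree of triangles
-/

namespace Vale.Agent.Lib.P154N.D6

open Vale.Agent.Lib.P154K Vale.Agent.Lib.P154Neg

theorem l320 : HoldsN X3 (Trg.right (Trg.right (Trg.right (Trg.left (Trg.left (chamber 1 1)))))) (Trg.left (Trg.left (Trg.right (Trg.right (chamberNR 9 22))))) :=
  HoldsN.of_red (k := 16) (m := 16) (leaf ok3 (G152 _ rfl) (G446 _ rfl) (G300 _ rfl) (by decide +kernel))
theorem l321 : HoldsN X3 (Trg.right (Trg.left (Trg.left (chamber 1 1)))) (Trg.right (Trg.left (Trg.right (Trg.right (chamberNR 9 22))))) :=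
  HoldsN.of_red (k := 16) (m := 16) (leaf ok3 (G240 _ rfl) (G401 _ rfl) (G260 _ rfl) (by decide +kernel))
theorem l322 : HoldsN X3 (Trg.right (Trg.left (Trg.left (chamber 1 1)))) (Trg.right (Trg.right (Trg.right (chamberNR 9 22)))) :=
  HoldsN.of_red (k := 16) (m := 16) (leaf ok3 (G142 _ rfl) (G413 _ rfl) (G186 _ rfl) (by decide +kernel))
theorem l323 : HoldsN X3 (Trg.left (Trg.right (Trg.left (chamber 1 1)))) (Trg.left (Trg.left (Trg.right (Trg.right (chamberNR 9 22))))) :=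
  HoldsN.of_red (k := 16) (m := 16) (leaf ok3 (G110 _ rfl) (G484 _ rfl) (G179 _ rfl) (by decide +kernel))
theorem l324 : HoldsN X3 (Trg.left (Trg.right (Trg.left (chamber 1 1)))) (Trg.right (Trg.left (Trg.right (Trg.right (chamberNR 9 22))))) :=
  HoldsN.of_red (k := 16) (m := 16) (leaf ok3 (G210 _ rfl) (G411 _ rfl) (G181 _ rfl) (by decide +kernel))
theorem l325 : HoldsN X3 (Trg.left (Trg.right (Trg.right (Trg.left (chamber 1 1))))) (Trg.left (Trg.right (Trg.right (chamberNR 9 22)))) :=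
  HoldsN.of_red (k := 16) (m := 16) (leaf ok3 (G71 _ rfl) (G416 _ rfl) (G244 _ rfl) (by decide +kernel))
theorem l326 : HoldsN X3 (Trg.right (Trg.right (Trg.right (Trg.left (chamber 1 1))))) (Trg.left (Trg.left (Trg.right (Trg.right (chamberNR 9 22))))) :=
  HoldsN.of_red (k := 16) (m := 16) (leaf ok3 (G110 _ rfl) (G484 _ rfl) (G239 _ rfl) (by decide +kernel))
theorem l327 : HoldsN X3 (Trg.right (Trg.right (Trg.right (Trg.left (chamber 1 1))))) (Trg.right (Trg.left (Trg.right (Trg.right (chamberNR 9 22))))) :=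
  HoldsN.of_red (k := 16) (m := 16) (leaf ok3 (G210 _ rfl) (G411 _ rfl) (G240 _ rfl) (by decide +kernel))
theorem l328 : HoldsN X3 (Trg.left (Trg.right (Trg.left (chamber 1 1)))) (Trg.right (Trg.right (Trg.right (chamberNR 9 22)))) :=
  HoldsN.of_red (k := 16) (m := 16) (leaf ok3 (G110 _ rfl) (G502 _ rfl) (G92 _ rfl) (by decide +kernel))
theorem l329 : HoldsN X3 (Trg.left (Trg.right (Trg.right (Trg.left (chamber 1 1))))) (Trg.right (Trg.right (Trg.right (chamberNR 9 22)))) :=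
  HoldsN.of_red (k := 16) (m := 16) (leaf ok3 (G50 _ rfl) (G545 _ rfl) (G157 _ rfl) (by decide +kernel))

end Vale.Agent.Lib.P154N.D6
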