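import Vale.Agent.Lib.P154N.D6.Data
import Vale.Agent.Lib.P154N.Red

/-!
# Leaves of the tree of triangles
-/

namespace Vale.Agent.Lib.P154N.D6

open Vale.Agent.Lib.P154K Vale.Agent.Lib.P154Neg

theorem l330 : HoldsN X3 (Trg.right (Trg.right (Trg.right (Trg.left (chamber 1 1))))) (Trg.right (Trg.right (Trg.right (chamberNR 9 22)))) :=
  HoldsN.of_red (k := 16) (m := 16) (leaf ok3 (G110 _ rfl) (G502 _ rfl) (G152 _ rfl) (by decide +kernel))
theorem l331 : HoldsN X3 (Trg.left (Trg.right (chamber 1 1))) (Trg.left (chamberNR 9 22)) :=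
  HoldsN.of_red (k := 16) (m := 16) (leaf ok3 (G13 _ rfl) (G418 _ rfl) (G97 _ rfl) (by decide +kernel))
theorem l332 : HoldsN X3 (Trg.left (Trg.left (Trg.right (chamber 1 1)))) (Trg.left (Trg.right (chamberNR 9 22))) :=
  HoldsN.of_red (k := 16) (m := 16) (leaf ok3 (G4 _ rfl) (G542 _ rfl) (G281 _ rfl) (by decide +kernel))
theorem l333 : HoldsN X3 (Trg.left (Trg.right (Trg.left (Trg.right (chamber 1 1))))) (Trg.left (Trg.right (chamberNR 9 22))) :=
  HoldsN.of_red (k := 16) (m := 16) (leaf ok3 (G1 _ rfl) (G565 _ rfl) (G457 _ rfl) (by decide +kernel))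
theorem l334 : HoldsN X3 (Trg.right (Trg.right (Trg.left (Trg.right (chamber 1 1))))) (Trg.left (Trg.right (chamberNR 9 22))) :=
  HoldsN.of_red (k := 16) (m := 16) (leaf ok3 (G4 _ rfl) (G542 _ rfl) (G455 _ rfl) (by decide +kernel))
theorem l335 : HoldsN X3 (Trg.left (Trg.right (chamber 1 1))) (Trg.right (Trg.right (chamberNR 9 22))) :=
  HoldsN.of_red (k := 16) (m := 16) (leaf ok3 (G13 _ rfl) (G418 _ rfl) (G279 _ rfl) (by decide +kernel))
theorem l336 : HoldsN X3 (Trg.left (Trg.left (Trg.right (Trg.right (chamber 1 1))))) (Trg.left (Trg.left (Trg.left (chamberNR 9 22)))) :=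
  HoldsN.of_red (k := 16) (m := 16) (leaf ok3 (G70 _ rfl) (G484 _ rfl) (G268 _ rfl) (by decide +kernel))
theorem l337 : HoldsN X3 (Trg.right (Trg.left (Trg.right (Trg.right (chamber 1 1))))) (Trg.left (Trg.left (Trg.left (chamberNR 9 22)))) :=
  HoldsN.of_red (k := 16) (m := 16) (leaf ok3 (G142 _ rfl) (G413 _ rfl) (G263 _ rfl) (by decide +kernel))
theorem l338 : HoldsN X3 (Trg.left (Trg.left (Trg.right (Trg.right (chamber 1 1))))) (Trg.right (Trg.left (Trg.left (chamberNR 9 22)))) :=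
  HoldsN.of_red (k := 16) (m := 16) (leaf ok3 (G153 _ rfl) (G405 _ rfl) (G263 _ rfl) (by decide +kernel))
theorem l339 : HoldsN X3 (Trg.right (Trg.left (Trg.right (Trg.right (chamber 1 1))))) (Trg.right (Trg.left (Trg.left (chamberNR 9 22)))) :=
  HoldsN.of_red (k := 16) (m := 16) (leaf ok3 (G240 _ rfl) (G401 _ rfl) (G260 _ rfl) (by decide +kernel))

end Vale.Agent.Lib.P154N.D6
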