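import Vale.Agent.Lib.P154N.D6.Data
import Vale.Agent.Lib.P154N.Red

/-!
# Leaves of the tree of triangles
-/

namespace Vale.Agent.Lib.P154N.D6

open Vale.Agent.Lib.P154K Vale.Agent.Lib.P154Neg

theorem l360 : HoldsN X4 (Trg.right (Trg.left (Trg.left (chamber 1 1)))) (Trg.left (Trg.left (Trg.left (chamberN 9 22)))) :=
  HoldsN.of_red (k := 16) (m := 16) (leaf ok4 (G111 _ rfl) (G376 _ rfl) (G332 _ rfl) (by decide +kernel))
theorem l361 : HoldsN X4 (Trg.right (Trg.left (Trg.left (chamber 1 1)))) (Trg.right (Trg.left (Trg.left (chamberN 9 22)))) :=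
  HoldsN.of_red (k := 16) (m := 16) (leaf ok4 (G210 _ rfl) (G370 _ rfl) (G370 _ rfl) (by decide +kernel))
theorem l362 : HoldsN X4 (Trg.right (Trg.left (Trg.left (chamber 1 1)))) (Trg.right (Trg.left (chamberN 9 22))) :=
  HoldsN.of_red (k := 16) (m := 16) (leaf ok4 (G111 _ rfl) (G338 _ rfl) (G338 _ rfl) (by decide +kernel))
theorem l363 : HoldsN X4 (Trg.left (Trg.right (Trg.left (chamber 1 1)))) (Trg.left (Trg.left (Trg.left (Trg.left (chamberN 9 22))))) :=
  HoldsN.of_red (k := 16) (m := 16) (leaf ok4 (G103 _ rfl) (G426 _ rfl) (G331 _ rfl) (by decide +kernel))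
theorem l364 : HoldsN X4 (Trg.left (Trg.right (Trg.left (chamber 1 1)))) (Trg.right (Trg.left (Trg.left (Trg.left (chamberN 9 22))))) :=
  HoldsN.of_red (k := 16) (m := 16) (leaf ok4 (G51 _ rfl) (G501 _ rfl) (G271 _ rfl) (by decide +kernel))
theorem l365 : HoldsN X4 (Trg.left (Trg.right (Trg.right (Trg.left (chamber 1 1))))) (Trg.left (Trg.left (Trg.left (Trg.left (chamberN 9 22))))) :=
  HoldsN.of_red (k := 16) (m := 16) (leaf ok4 (G79 _ rfl) (G335 _ rfl) (G468 _ rfl) (by decide +kernel))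
theorem l366 : HoldsN X4 (Trg.left (Trg.right (Trg.right (Trg.left (chamber 1 1))))) (Trg.right (Trg.left (Trg.left (Trg.left (chamberN 9 22))))) :=
  HoldsN.of_red (k := 16) (m := 16) (leaf ok4 (G26 _ rfl) (G507 _ rfl) (G469 _ rfl) (by decide +kernel))
theorem l367 : HoldsN X4 (Trg.right (Trg.right (Trg.right (Trg.left (chamber 1 1))))) (Trg.left (Trg.left (Trg.left (chamberN 9 22)))) :=
  HoldsN.of_red (k := 16) (m := 16) (leaf ok4 (G51 _ rfl) (G417 _ rfl) (G331 _ rfl) (by decide +kernel))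
theorem l368 : HoldsN X4 (Trg.right (Trg.left (chamber 1 1))) (Trg.right (Trg.left (Trg.left (chamberN 9 22)))) :=
  HoldsN.of_red (k := 16) (m := 16) (leaf ok4 (G111 _ rfl) (G338 _ rfl) (G338 _ rfl) (by decide +kernel))
theorem l369 : HoldsN X4 (Trg.left (Trg.right (Trg.left (chamber 1 1)))) (Trg.right (Trg.left (chamberN 9 22))) :=
  HoldsN.of_red (k := 16) (m := 16) (leaf ok4 (G51 _ rfl) (G429 _ rfl) (G277 _ rfl) (by decide +kernel))

end Vale.Agent.Lib.P154N.D6
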