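import Vale.Agent.Lib.P154N.D6.Data
import Vale.Agent.Lib.P154N.Red

/-!
# Leaves of the tree of triangles
-/

namespace Vale.Agent.Lib.P154N.D6

open Vale.Agent.Lib.P154K Vale.Agent.Lib.P154Neg

theorem l370 : HoldsN X4 (Trg.left (Trg.right (Trg.right (Trg.left (chamber 1 1))))) (Trg.right (Trg.left (chamberN 9 22))) :=
  HoldsN.of_red (k := 16) (m := 16) (leaf ok4 (G28 _ rfl) (G280 _ rfl) (G501 _ rfl) (by decide +kernel))
theorem l371 : HoldsN X4 (Trg.right (Trg.right (Trg.right (Trg.left (chamber 1 1))))) (Trg.right (Trg.left (chamberN 9 22))) :=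
  HoldsN.of_red (k := 16) (m := 16) (leaf ok4 (G51 _ rfl) (G417 _ rfl) (G340 _ rfl) (by decide +kernel))
theorem l372 : HoldsN X4 (Trg.left (Trg.left (Trg.left (Trg.left (chamber 1 1))))) (Trg.left (Trg.right (chamberN 9 22))) :=
  HoldsN.of_red (k := 16) (m := 16) (leaf ok4 (G45 _ rfl) (G521 _ rfl) (G192 _ rfl) (by decide +kernel))
theorem l373 : HoldsN X4 (Trg.right (Trg.left (Trg.left (Trg.left (chamber 1 1))))) (Trg.left (Trg.left (Trg.right (chamberN 9 22)))) :=
  HoldsN.of_red (k := 16) (m := 16) (leaf ok4 (G17 _ rfl) (G520 _ rfl) (G414 _ rfl) (by decide +kernel))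
theorem l374 : HoldsN X4 (Trg.right (Trg.left (Trg.left (Trg.left (chamber 1 1))))) (Trg.right (Trg.left (Trg.right (chamberN 9 22)))) :=
  HoldsN.of_red (k := 16) (m := 16) (leaf ok4 (G10 _ rfl) (G542 _ rfl) (G410 _ rfl) (by decide +kernel))
theorem l375 : HoldsN X4 (Trg.right (Trg.left (Trg.left (chamber 1 1)))) (Trg.left (Trg.right (chamberN 9 22))) :=
  HoldsN.of_red (k := 16) (m := 16) (leaf ok4 (G71 _ rfl) (G416 _ rfl) (G193 _ rfl) (by decide +kernel))
theorem l376 : HoldsN X4 (Trg.left (Trg.left (Trg.left (Trg.right (Trg.left (chamber 1 1)))))) (Trg.left (Trg.left (Trg.right (chamberN 9 22)))) :=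
  HoldsN.of_red (k := 16) (m := 16) (leaf ok4 (G40 _ rfl) (G562 _ rfl) (G203 _ rfl) (by decide +kernel))
theorem l377 : HoldsN X4 (Trg.right (Trg.left (Trg.left (Trg.right (Trg.left (chamber 1 1)))))) (Trg.left (Trg.left (Trg.right (chamberN 9 22)))) :=
  HoldsN.of_red (k := 16) (m := 16) (leaf ok4 (G90 _ rfl) (G533 _ rfl) (G202 _ rfl) (by decide +kernel))
theorem l378 : HoldsN X4 (Trg.left (Trg.right (Trg.left (Trg.right (Trg.left (chamber 1 1)))))) (Trg.left (Trg.left (Trg.left (Trg.left (Trg.right (chamberN 9 22)))))) :=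
  HoldsN.of_red (k := 16) (m := 16) (leaf ok4 (G63 _ rfl) (G570 _ rfl) (G150 _ rfl) (by decide +kernel))
theorem l379 : HoldsN X4 (Trg.right (Trg.right (Trg.left (Trg.right (Trg.left (chamber 1 1)))))) (Trg.left (Trg.left (Trg.left (Trg.left (Trg.right (chamberN 9 22)))))) :=
  HoldsN.of_red (k := 16) (m := 16) (leaf ok4 (G39 _ rfl) (G569 _ rfl) (G202 _ rfl) (by decide +kernel))

end Vale.Agent.Lib.P154N.D6
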