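import Vale.Agent.Lib.P154N.D6.Data
import Vale.Agent.Lib.P154N.Red

/-!
# Leaves of the tree of triangles
-/

namespace Vale.Agent.Lib.P154N.D6

open Vale.Agent.Lib.P154K Vale.Agent.Lib.P154Neg

theorem l380 : HoldsN X4 (Trg.left (Trg.right (Trg.left (Trg.right (Trg.left (chamber 1 1)))))) (Trg.right (Trg.left (Trg.left (Trg.left (Trg.right (chamberN 9 22)))))) :=
  HoldsN.of_red (k := 16) (m := 16) (leaf ok4 (G100 _ rfl) (G558 _ rfl) (G171 _ rfl) (by decide +kernel))
theorem l381 : HoldsN X4 (Trg.left (Trg.right (Trg.right (Trg.left (Trg.right (Trg.left (chamber 1 1))))))) (Trg.left (Trg.right (Trg.left (Trg.left (Trg.left (Trg.right (chamberN 9 22))))))) :=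
  HoldsN.of_red (k := 16) (m := 16) (leaf ok4 (G73 _ rfl) (G567 _ rfl) (G239 _ rfl) (by decide +kernel))
theorem l382 : HoldsN X4 (Trg.left (Trg.left (Trg.right (Trg.right (Trg.left (Trg.right (Trg.left (chamber 1 1)))))))) (Trg.right (Trg.right (Trg.left (Trg.left (Trg.left (Trg.right (chamberN 9 22))))))) :=
  HoldsN.of_red (k := 16) (m := 16) (leaf ok4 (G82 _ rfl) (G572 _ rfl) (G248 _ rfl) (by decide +kernel))
theorem l383 : HoldsN X4 (Trg.right (Trg.left (Trg.right (Trg.right (Trg.left (Trg.right (Trg.left (chamber 1 1)))))))) (Trg.right (Trg.right (Trg.left (Trg.left (Trg.left (Trg.right (chamberN 9 22))))))) :=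
  HoldsN.of_red (k := 16) (m := 16) (leaf ok4 (G72 _ rfl) (G572 _ rfl) (G261 _ rfl) (by decide +kernel))
theorem l384 : HoldsN X4 (Trg.right (Trg.right (Trg.right (Trg.left (Trg.right (Trg.left (chamber 1 1))))))) (Trg.right (Trg.left (Trg.left (Trg.left (Trg.right (chamberN 9 22)))))) :=
  HoldsN.of_red (k := 16) (m := 16) (leaf ok4 (G100 _ rfl) (G557 _ rfl) (G207 _ rfl) (by decide +kernel))
theorem l385 : HoldsN X4 (Trg.left (Trg.right (Trg.left (Trg.right (Trg.left (chamber 1 1)))))) (Trg.right (Trg.left (Trg.left (Trg.right (chamberN 9 22))))) :=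
  HoldsN.of_red (k := 16) (m := 16) (leaf ok4 (G63 _ rfl) (G570 _ rfl) (G154 _ rfl) (by decide +kernel))
theorem l386 : HoldsN X4 (Trg.right (Trg.right (Trg.left (Trg.right (Trg.left (chamber 1 1)))))) (Trg.right (Trg.left (Trg.left (Trg.right (chamberN 9 22))))) :=
  HoldsN.of_red (k := 16) (m := 16) (leaf ok4 (G39 _ rfl) (G569 _ rfl) (G203 _ rfl) (by decide +kernel))
theorem l387 : HoldsN X4 (Trg.left (Trg.right (Trg.left (chamber 1 1)))) (Trg.left (Trg.right (Trg.left (Trg.right (chamberN 9 22))))) :=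
  HoldsN.of_red (k := 16) (m := 16) (leaf ok4 (G28 _ rfl) (G565 _ rfl) (G94 _ rfl) (by decide +kernel))
theorem l388 : HoldsN X4 (Trg.left (Trg.left (Trg.right (Trg.left (chamber 1 1))))) (Trg.right (Trg.right (Trg.left (Trg.right (chamberN 9 22))))) :=
  HoldsN.of_red (k := 16) (m := 16) (leaf ok4 (G41 _ rfl) (G537 _ rfl) (G174 _ rfl) (by decide +kernel))
theorem l389 : HoldsN X4 (Trg.right (Trg.left (Trg.right (Trg.left (chamber 1 1))))) (Trg.left (Trg.right (Trg.right (Trg.left (Trg.right (chamberN 9 22)))))) :=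
  HoldsN.of_red (k := 16) (m := 16) (leaf ok4 (G61 _ rfl) (G561 _ rfl) (G132 _ rfl) (by decide +kernel))

end Vale.Agent.Lib.P154N.D6
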