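import Vale.Agent.Lib.P154N.D6.Data
import Vale.Agent.Lib.P154N.Red

/-!
# Leaves of the tree of triangles
-/

namespace Vale.Agent.Lib.P154N.D6

open Vale.Agent.Lib.P154K Vale.Agent.Lib.P154Neg

theorem l40 : HoldsN X2 (Trg.right (Trg.right (Trg.right (Trg.left (Trg.right (chamberN 9 22)))))) (Trg.left (Trg.left (Trg.right (Trg.right (chamberN 9 22))))) :=
  HoldsN.of_red (k := 16) (m := 16) (leaf ok2 (G489 _ rfl) (G217 _ rfl) (G236 _ rfl) (by decide +kernel))
theorem l41 : HoldsN X2 (Trg.right (Trg.right (Trg.left (Trg.right (chamberN 9 22))))) (Trg.right (Trg.left (Trg.right (Trg.right (chamberN 9 22))))) :=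
  HoldsN.of_red (k := 16) (m := 16) (leaf ok2 (G403 _ rfl) (G285 _ rfl) (G240 _ rfl) (by decide +kernel))
theorem l42 : HoldsN X2 (Trg.left (Trg.left (Trg.right (chamberN 9 22)))) (Trg.right (Trg.right (Trg.right (chamberN 9 22)))) :=
  HoldsN.of_red (k := 16) (m := 16) (leaf ok2 (G483 _ rfl) (G218 _ rfl) (G166 _ rfl) (by decide +kernel))
theorem l43 : HoldsN X2 (Trg.left (Trg.right (Trg.left (Trg.right (chamberN 9 22))))) (Trg.right (Trg.right (Trg.right (chamberN 9 22)))) :=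
  HoldsN.of_red (k := 16) (m := 16) (leaf ok2 (G514 _ rfl) (G217 _ rfl) (G115 _ rfl) (by decide +kernel))
theorem l44 : HoldsN X2 (Trg.right (Trg.right (Trg.left (Trg.right (chamberN 9 22))))) (Trg.right (Trg.right (Trg.right (chamberN 9 22)))) :=
  HoldsN.of_red (k := 16) (m := 16) (leaf ok2 (G483 _ rfl) (G218 _ rfl) (G148 _ rfl) (by decide +kernel))
theorem l45 : HoldsN X2 (Trg.left (Trg.right (Trg.right (chamberN 9 22)))) (Trg.left (Trg.left (Trg.left (chamberN 9 22)))) :=
  HoldsN.of_red (k := 16) (m := 16) (leaf ok2 (G405 _ rfl) (G299 _ rfl) (G219 _ rfl) (by decide +kernel))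
theorem l46 : HoldsN X2 (Trg.left (Trg.left (Trg.right (Trg.right (chamberN 9 22))))) (Trg.right (Trg.left (Trg.left (chamberN 9 22)))) :=
  HoldsN.of_red (k := 16) (m := 16) (leaf ok2 (G395 _ rfl) (G349 _ rfl) (G285 _ rfl) (by decide +kernel))
theorem l47 : HoldsN X2 (Trg.left (Trg.right (Trg.left (Trg.right (Trg.right (chamberN 9 22)))))) (Trg.left (Trg.left (Trg.right (Trg.left (Trg.left (chamberN 9 22)))))) :=
  HoldsN.of_red (k := 16) (m := 16) (leaf ok2 (G389 _ rfl) (G359 _ rfl) (G345 _ rfl) (by decide +kernel))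
theorem l48 : HoldsN X2 (Trg.left (Trg.right (Trg.left (Trg.right (Trg.right (chamberN 9 22)))))) (Trg.right (Trg.left (Trg.right (Trg.left (Trg.left (chamberN 9 22)))))) :=
  HoldsN.of_red (k := 16) (m := 16) (leaf ok2 (G387 _ rfl) (G380 _ rfl) (G358 _ rfl) (by decide +kernel))
theorem l49 : HoldsN X2 (Trg.left (Trg.right (Trg.left (Trg.right (Trg.right (chamberN 9 22)))))) (Trg.right (Trg.right (Trg.left (Trg.left (chamberN 9 22))))) :=
  HoldsN.of_red (k := 16) (m := 16) (leaf ok2 (G389 _ rfl) (G360 _ rfl) (G345 _ rfl) (by decide +kernel))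

end Vale.Agent.Lib.P154N.D6
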