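import Vale.Agent.Lib.P154N.D6.Data
import Vale.Agent.Lib.P154N.Red

/-!
# Leaves of the tree of triangles
-/

namespace Vale.Agent.Lib.P154N.D6

open Vale.Agent.Lib.P154K Vale.Agent.Lib.P154Neg

theorem l400 : HoldsN X4 (Trg.left (Trg.left (Trg.left (Trg.left (chamber 1 1))))) (Trg.right (Trg.left (Trg.right (Trg.right (chamberN 9 22))))) :=
  HoldsN.of_red (k := 16) (m := 16) (leaf ok4 (G173 _ rfl) (G400 _ rfl) (G325 _ rfl) (by decide +kernel))
theorem l401 : HoldsN X4 (Trg.right (Trg.left (Trg.left (Trg.left (chamber 1 1))))) (Trg.left (Trg.right (Trg.right (chamberN 9 22)))) :=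
  HoldsN.of_red (k := 16) (m := 16) (leaf ok4 (G71 _ rfl) (G416 _ rfl) (G403 _ rfl) (by decide +kernel))
theorem l402 : HoldsN X4 (Trg.left (Trg.left (Trg.left (Trg.left (chamber 1 1))))) (Trg.right (Trg.right (Trg.right (chamberN 9 22)))) :=
  HoldsN.of_red (k := 16) (m := 16) (leaf ok4 (G80 _ rfl) (G474 _ rfl) (G272 _ rfl) (by decide +kernel))
theorem l403 : HoldsN X4 (Trg.right (Trg.left (Trg.left (Trg.left (chamber 1 1))))) (Trg.right (Trg.right (Trg.right (chamberN 9 22)))) :=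
  HoldsN.of_red (k := 16) (m := 16) (leaf ok4 (G27 _ rfl) (G475 _ rfl) (G414 _ rfl) (by decide +kernel))
theorem l404 : HoldsN X4 (Trg.right (Trg.left (Trg.left (chamber 1 1)))) (Trg.left (Trg.left (Trg.right (Trg.right (chamberN 9 22))))) :=
  HoldsN.of_red (k := 16) (m := 16) (leaf ok4 (G153 _ rfl) (G405 _ rfl) (G267 _ rfl) (by decide +kernel))
theorem l405 : HoldsN X4 (Trg.right (Trg.left (Trg.left (chamber 1 1)))) (Trg.right (Trg.left (Trg.right (Trg.right (chamberN 9 22))))) :=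
  HoldsN.of_red (k := 16) (m := 16) (leaf ok4 (G210 _ rfl) (G398 _ rfl) (G325 _ rfl) (by decide +kernel))
theorem l406 : HoldsN X4 (Trg.right (Trg.left (Trg.left (chamber 1 1)))) (Trg.right (Trg.right (Trg.right (chamberN 9 22)))) :=
  HoldsN.of_red (k := 16) (m := 16) (leaf ok4 (G111 _ rfl) (G409 _ rfl) (G273 _ rfl) (by decide +kernel))
theorem l407 : HoldsN X4 (Trg.left (Trg.left (Trg.left (Trg.right (Trg.left (chamber 1 1)))))) (Trg.left (Trg.left (Trg.right (Trg.right (chamberN 9 22))))) :=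
  HoldsN.of_red (k := 16) (m := 16) (leaf ok4 (G107 _ rfl) (G506 _ rfl) (G229 _ rfl) (by decide +kernel))
theorem l408 : HoldsN X4 (Trg.right (Trg.left (Trg.left (Trg.right (Trg.left (chamber 1 1)))))) (Trg.left (Trg.left (Trg.left (Trg.right (Trg.right (chamberN 9 22)))))) :=
  HoldsN.of_red (k := 16) (m := 16) (leaf ok4 (G178 _ rfl) (G478 _ rfl) (G259 _ rfl) (by decide +kernel))
theorem l409 : HoldsN X4 (Trg.right (Trg.left (Trg.left (Trg.right (Trg.left (chamber 1 1)))))) (Trg.right (Trg.left (Trg.left (Trg.right (Trg.right (chamberN 9 22)))))) :=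
  HoldsN.of_red (k := 16) (m := 16) (leaf ok4 (G171 _ rfl) (G481 _ rfl) (G223 _ rfl) (by decide +kernel))

end Vale.Agent.Lib.P154N.D6
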