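import Vale.Agent.Lib.P154N.D6.Data
import Vale.Agent.Lib.P154N.Red

/-!
# Leaves of the tree of triangles
-/

namespace Vale.Agent.Lib.P154N.D6

open Vale.Agent.Lib.P154K Vale.Agent.Lib.P154Neg

theorem l50 : HoldsN X2 (Trg.right (Trg.right (Trg.left (Trg.right (Trg.right (chamberN 9 22)))))) (Trg.right (Trg.left (Trg.left (chamberN 9 22)))) :=
  HoldsN.of_red (k := 16) (m := 16) (leaf ok2 (G391 _ rfl) (G347 _ rfl) (G315 _ rfl) (by decide +kernel))
theorem l51 : HoldsN X2 (Trg.left (Trg.right (Trg.right (chamberN 9 22)))) (Trg.right (Trg.left (chamberN 9 22))) :=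
  HoldsN.of_red (k := 16) (m := 16) (leaf ok2 (G405 _ rfl) (G304 _ rfl) (G219 _ rfl) (by decide +kernel))
theorem l52 : HoldsN X2 (Trg.right (Trg.right (Trg.right (chamberN 9 22)))) (Trg.left (Trg.left (Trg.left (chamberN 9 22)))) :=
  HoldsN.of_red (k := 16) (m := 16) (leaf ok2 (G437 _ rfl) (G228 _ rfl) (G217 _ rfl) (by decide +kernel))
theorem l53 : HoldsN X2 (Trg.right (Trg.right (Trg.right (chamberN 9 22)))) (Trg.right (Trg.left (Trg.left (chamberN 9 22)))) :=
  HoldsN.of_red (k := 16) (m := 16) (leaf ok2 (G400 _ rfl) (G299 _ rfl) (G256 _ rfl) (by decide +kernel))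
theorem l54 : HoldsN X2 (Trg.right (Trg.right (Trg.right (chamberN 9 22)))) (Trg.right (Trg.left (chamberN 9 22))) :=
  HoldsN.of_red (k := 16) (m := 16) (leaf ok2 (G437 _ rfl) (G230 _ rfl) (G178 _ rfl) (by decide +kernel))
theorem l55 : HoldsN X2 (Trg.right (Trg.right (chamberN 9 22))) (Trg.left (Trg.right (chamberN 9 22))) :=
  HoldsN.of_red (k := 16) (m := 16) (leaf ok2 (G416 _ rfl) (G119 _ rfl) (G219 _ rfl) (by decide +kernel))
theorem l56 : HoldsN X2 (Trg.left (Trg.left (Trg.left (Trg.right (Trg.right (chamberN 9 22)))))) (Trg.left (Trg.left (Trg.right (Trg.right (chamberN 9 22))))) :=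
  HoldsN.of_red (k := 16) (m := 16) (leaf ok2 (G432 _ rfl) (G284 _ rfl) (G314 _ rfl) (by decide +kernel))
theorem l57 : HoldsN X2 (Trg.left (Trg.right (Trg.left (Trg.left (Trg.right (Trg.right (chamberN 9 22))))))) (Trg.left (Trg.left (Trg.left (Trg.right (Trg.right (chamberN 9 22)))))) :=
  HoldsN.of_red (k := 16) (m := 16) (leaf ok2 (G460 _ rfl) (G313 _ rfl) (G283 _ rfl) (by decide +kernel))
theorem l58 : HoldsN X2 (Trg.left (Trg.right (Trg.left (Trg.left (Trg.right (Trg.right (chamberN 9 22))))))) (Trg.right (Trg.left (Trg.left (Trg.right (Trg.right (chamberN 9 22)))))) :=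
  HoldsN.of_red (k := 16) (m := 16) (leaf ok2 (G461 _ rfl) (G282 _ rfl) (G283 _ rfl) (by decide +kernel))
theorem l59 : HoldsN X2 (Trg.right (Trg.right (Trg.left (Trg.left (Trg.right (Trg.right (chamberN 9 22))))))) (Trg.left (Trg.left (Trg.left (Trg.right (Trg.right (chamberN 9 22)))))) :=
  HoldsN.of_red (k := 16) (m := 16) (leaf ok2 (G431 _ rfl) (G314 _ rfl) (G291 _ rfl) (by decide +kernel))

end Vale.Agent.Lib.P154N.D6
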