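import Vale.Agent.Lib.P154N.D6.Data
import Vale.Agent.Lib.P154N.Red

/-!
# Leaves of the tree of triangles
-/

namespace Vale.Agent.Lib.P154N.D6

open Vale.Agent.Lib.P154K Vale.Agent.Lib.P154Neg

theorem l560 : HoldsN X5 (Trg.left (Trg.left (Trg.left (Trg.left (chamber 1 1))))) (Trg.left (Trg.left (Trg.left (chamberN 9 22)))) :=
  HoldsN.of_red (k := 16) (m := 16) (leaf ok5 (G80 _ rfl) (G378 _ rfl) (G331 _ rfl) (by decide +kernel))
theorem l561 : HoldsN X5 (Trg.right (Trg.left (Trg.left (Trg.left (chamber 1 1))))) (Trg.left (Trg.left (Trg.left (Trg.left (chamberN 9 22))))) :=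
  HoldsN.of_red (k := 16) (m := 16) (leaf ok5 (G80 _ rfl) (G331 _ rfl) (G468 _ rfl) (by decide +kernel))
theorem l562 : HoldsN X5 (Trg.left (Trg.right (Trg.left (Trg.left (Trg.left (chamber 1 1)))))) (Trg.right (Trg.left (Trg.left (Trg.left (chamberN 9 22))))) :=
  HoldsN.of_red (k := 16) (m := 16) (leaf ok5 (G26 _ rfl) (G492 _ rfl) (G469 _ rfl) (by decide +kernel))
theorem l563 : HoldsN X5 (Trg.right (Trg.right (Trg.left (Trg.left (Trg.left (chamber 1 1)))))) (Trg.right (Trg.left (Trg.left (Trg.left (chamberN 9 22))))) :=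
  HoldsN.of_red (k := 16) (m := 16) (leaf ok5 (G60 _ rfl) (G468 _ rfl) (G466 _ rfl) (by decide +kernel))
theorem l564 : HoldsN X5 (Trg.left (Trg.left (Trg.left (chamber 1 1)))) (Trg.right (Trg.left (Trg.left (chamberN 9 22)))) :=
  HoldsN.of_red (k := 16) (m := 16) (leaf ok5 (G111 _ rfl) (G332 _ rfl) (G376 _ rfl) (by decide +kernel))
theorem l565 : HoldsN X5 (Trg.left (Trg.left (Trg.left (Trg.left (chamber 1 1))))) (Trg.right (Trg.left (chamberN 9 22))) :=
  HoldsN.of_red (k := 16) (m := 16) (leaf ok5 (G80 _ rfl) (G339 _ rfl) (G339 _ rfl) (by decide +kernel))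
theorem l566 : HoldsN X5 (Trg.right (Trg.left (Trg.left (Trg.left (chamber 1 1))))) (Trg.right (Trg.left (chamberN 9 22))) :=
  HoldsN.of_red (k := 16) (m := 16) (leaf ok5 (G30 _ rfl) (G277 _ rfl) (G501 _ rfl) (by decide +kernel))
theorem l567 : HoldsN X5 (Trg.right (Trg.left (Trg.left (chamber 1 1)))) (Trg.left (chamberN 9 22)) :=
  HoldsN.of_red (k := 16) (m := 16) (leaf ok5 (G111 _ rfl) (G338 _ rfl) (G338 _ rfl) (by decide +kernel))
theorem l568 : HoldsN X5 (Trg.left (Trg.right (Trg.left (chamber 1 1)))) (Trg.left (Trg.left (Trg.left (chamberN 9 22)))) :=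
  HoldsN.of_red (k := 16) (m := 16) (leaf ok5 (G51 _ rfl) (G429 _ rfl) (G272 _ rfl) (by decide +kernel))
theorem l569 : HoldsN X5 (Trg.left (Trg.right (Trg.right (Trg.left (chamber 1 1))))) (Trg.left (Trg.left (Trg.left (Trg.left (chamberN 9 22))))) :=
  HoldsN.of_red (k := 16) (m := 16) (leaf ok5 (G79 _ rfl) (G335 _ rfl) (G468 _ rfl) (by decide +kernel))

end Vale.Agent.Lib.P154N.D6
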