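import Vale.Agent.Lib.P154N.D6.Data
import Vale.Agent.Lib.P154N.Red

/-!
# Leaves of the tree of triangles
-/

namespace Vale.Agent.Lib.P154N.D6

open Vale.Agent.Lib.P154K Vale.Agent.Lib.P154Neg

theorem l60 : HoldsN X2 (Trg.right (Trg.right (Trg.left (Trg.left (Trg.right (Trg.right (chamberN 9 22))))))) (Trg.right (Trg.left (Trg.left (Trg.right (Trg.right (chamberN 9 22)))))) :=
  HoldsN.of_red (k := 16) (m := 16) (leaf ok2 (G432 _ rfl) (G283 _ rfl) (G291 _ rfl) (by decide +kernel))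
theorem l61 : HoldsN X2 (Trg.left (Trg.left (Trg.right (Trg.right (chamberN 9 22))))) (Trg.right (Trg.left (Trg.right (Trg.right (chamberN 9 22))))) :=
  HoldsN.of_red (k := 16) (m := 16) (leaf ok2 (G395 _ rfl) (G345 _ rfl) (G285 _ rfl) (by decide +kernel))
theorem l62 : HoldsN X2 (Trg.right (Trg.left (Trg.right (Trg.right (chamberN 9 22))))) (Trg.left (Trg.left (Trg.right (Trg.right (chamberN 9 22))))) :=
  HoldsN.of_red (k := 16) (m := 16) (leaf ok2 (G395 _ rfl) (G285 _ rfl) (G345 _ rfl) (by decide +kernel))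
theorem l63 : HoldsN X2 (Trg.left (Trg.left (Trg.right (Trg.left (Trg.right (Trg.right (chamberN 9 22))))))) (Trg.left (Trg.right (Trg.left (Trg.right (Trg.right (chamberN 9 22)))))) :=
  HoldsN.of_red (k := 16) (m := 16) (leaf ok2 (G388 _ rfl) (G358 _ rfl) (G358 _ rfl) (by decide +kernel))
theorem l64 : HoldsN X2 (Trg.right (Trg.left (Trg.right (Trg.left (Trg.right (Trg.right (chamberN 9 22))))))) (Trg.left (Trg.left (Trg.right (Trg.left (Trg.right (Trg.right (chamberN 9 22))))))) :=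
  HoldsN.of_red (k := 16) (m := 16) (leaf ok2 (G387 _ rfl) (G358 _ rfl) (G379 _ rfl) (by decide +kernel))
theorem l65 : HoldsN X2 (Trg.right (Trg.left (Trg.right (Trg.left (Trg.right (Trg.right (chamberN 9 22))))))) (Trg.right (Trg.left (Trg.right (Trg.left (Trg.right (Trg.right (chamberN 9 22))))))) :=
  HoldsN.of_red (k := 16) (m := 16) (leaf ok2 (G387 _ rfl) (G379 _ rfl) (G379 _ rfl) (by decide +kernel))
theorem l66 : HoldsN X2 (Trg.left (Trg.right (Trg.left (Trg.right (Trg.right (chamberN 9 22)))))) (Trg.right (Trg.right (Trg.left (Trg.right (Trg.right (chamberN 9 22)))))) :=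
  HoldsN.of_red (k := 16) (m := 16) (leaf ok2 (G389 _ rfl) (G358 _ rfl) (G345 _ rfl) (by decide +kernel))
theorem l67 : HoldsN X2 (Trg.right (Trg.right (Trg.left (Trg.right (Trg.right (chamberN 9 22)))))) (Trg.right (Trg.left (Trg.right (Trg.right (chamberN 9 22))))) :=
  HoldsN.of_red (k := 16) (m := 16) (leaf ok2 (G391 _ rfl) (G345 _ rfl) (G345 _ rfl) (by decide +kernel))
theorem l68 : HoldsN X2 (Trg.left (Trg.right (Trg.right (chamberN 9 22)))) (Trg.right (Trg.right (Trg.right (chamberN 9 22)))) :=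
  HoldsN.of_red (k := 16) (m := 16) (leaf ok2 (G405 _ rfl) (G285 _ rfl) (G219 _ rfl) (by decide +kernel))
theorem l69 : HoldsN X2 (Trg.left (Trg.right (Trg.right (Trg.right (chamberN 9 22))))) (Trg.left (Trg.left (Trg.right (Trg.right (chamberN 9 22))))) :=
  HoldsN.of_red (k := 16) (m := 16) (leaf ok2 (G446 _ rfl) (G217 _ rfl) (G284 _ rfl) (by decide +kernel))

end Vale.Agent.Lib.P154N.D6
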