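import Vale.Agent.Lib.P154N.D6.Data
import Vale.Agent.Lib.P154N.Red

/-!
# Leaves of the tree of triangles
-/

namespace Vale.Agent.Lib.P154N.D6

open Vale.Agent.Lib.P154K Vale.Agent.Lib.P154Neg

theorem l610 : HoldsN X5 (Trg.right (Trg.right (Trg.left (Trg.left (Trg.left (chamber 1 1)))))) (Trg.right (Trg.right (Trg.right (chamberN 9 22)))) :=
  HoldsN.of_red (k := 16) (m := 16) (leaf ok5 (G60 _ rfl) (G474 _ rfl) (G410 _ rfl) (by decide +kernel))
theorem l611 : HoldsN X5 (Trg.right (Trg.left (Trg.left (chamber 1 1)))) (Trg.right (Trg.right (chamberN 9 22))) :=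
  HoldsN.of_red (k := 16) (m := 16) (leaf ok5 (G111 _ rfl) (G409 _ rfl) (G273 _ rfl) (by decide +kernel))
theorem l612 : HoldsN X5 (Trg.left (Trg.left (Trg.left (Trg.right (Trg.left (chamber 1 1)))))) (Trg.left (Trg.left (Trg.right (Trg.right (chamberN 9 22))))) :=
  HoldsN.of_red (k := 16) (m := 16) (leaf ok5 (G107 _ rfl) (G506 _ rfl) (G229 _ rfl) (by decide +kernel))
theorem l613 : HoldsN X5 (Trg.right (Trg.left (Trg.left (Trg.right (Trg.left (chamber 1 1)))))) (Trg.left (Trg.left (Trg.left (Trg.right (Trg.right (chamberN 9 22)))))) :=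
  HoldsN.of_red (k := 16) (m := 16) (leaf ok5 (G178 _ rfl) (G478 _ rfl) (G259 _ rfl) (by decide +kernel))
theorem l614 : HoldsN X5 (Trg.right (Trg.left (Trg.left (Trg.right (Trg.left (chamber 1 1)))))) (Trg.left (Trg.right (Trg.left (Trg.left (Trg.right (Trg.right (chamberN 9 22))))))) :=
  HoldsN.of_red (k := 16) (m := 16) (leaf ok5 (G170 _ rfl) (G504 _ rfl) (G223 _ rfl) (by decide +kernel))
theorem l615 : HoldsN X5 (Trg.right (Trg.left (Trg.left (Trg.right (Trg.left (chamber 1 1)))))) (Trg.right (Trg.right (Trg.left (Trg.left (Trg.right (Trg.right (chamberN 9 22))))))) :=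
  HoldsN.of_red (k := 16) (m := 16) (leaf ok5 (G178 _ rfl) (G478 _ rfl) (G247 _ rfl) (by decide +kernel))
theorem l616 : HoldsN X5 (Trg.right (Trg.left (Trg.right (Trg.left (chamber 1 1))))) (Trg.left (Trg.left (Trg.right (Trg.right (chamberN 9 22))))) :=
  HoldsN.of_red (k := 16) (m := 16) (leaf ok5 (G107 _ rfl) (G506 _ rfl) (G187 _ rfl) (by decide +kernel))
theorem l617 : HoldsN X5 (Trg.left (Trg.right (Trg.left (chamber 1 1)))) (Trg.right (Trg.left (Trg.right (Trg.right (chamberN 9 22))))) :=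
  HoldsN.of_red (k := 16) (m := 16) (leaf ok5 (G142 _ rfl) (G409 _ rfl) (G265 _ rfl) (by decide +kernel))
theorem l618 : HoldsN X5 (Trg.left (Trg.right (Trg.right (Trg.left (chamber 1 1))))) (Trg.left (Trg.left (Trg.right (Trg.right (chamberN 9 22))))) :=
  HoldsN.of_red (k := 16) (m := 16) (leaf ok5 (G67 _ rfl) (G506 _ rfl) (G331 _ rfl) (by decide +kernel))
theorem l619 : HoldsN X5 (Trg.left (Trg.right (Trg.right (Trg.left (chamber 1 1))))) (Trg.right (Trg.left (Trg.right (Trg.right (chamberN 9 22))))) :=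
  HoldsN.of_red (k := 16) (m := 16) (leaf ok5 (G111 _ rfl) (G405 _ rfl) (G373 _ rfl) (by decide +kernel))

end Vale.Agent.Lib.P154N.D6
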