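import Vale.Agent.Lib.P154N.D6.Data
import Vale.Agent.Lib.P154N.Red

/-!
# Leaves of the tree of triangles
-/

namespace Vale.Agent.Lib.P154N.D6

open Vale.Agent.Lib.P154K Vale.Agent.Lib.P154Neg

theorem l670 : HoldsN X5 (Trg.left (Trg.right (Trg.right (chamber 1 1)))) (Trg.right (Trg.left (chamberN 9 22))) :=
  HoldsN.of_red (k := 16) (m := 16) (leaf ok5 (G71 _ rfl) (G193 _ rfl) (G416 _ rfl) (by decide +kernel))
theorem l671 : HoldsN X5 (Trg.right (Trg.right (Trg.right (chamber 1 1)))) (Trg.left (Trg.left (Trg.left (chamberN 9 22)))) :=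
  HoldsN.of_red (k := 16) (m := 16) (leaf ok5 (G30 _ rfl) (G277 _ rfl) (G475 _ rfl) (by decide +kernel))
theorem l672 : HoldsN X5 (Trg.right (Trg.right (Trg.right (chamber 1 1)))) (Trg.right (Trg.left (Trg.left (chamberN 9 22)))) :=
  HoldsN.of_red (k := 16) (m := 16) (leaf ok5 (G111 _ rfl) (G273 _ rfl) (G409 _ rfl) (by decide +kernel))
theorem l673 : HoldsN X5 (Trg.right (Trg.right (Trg.right (chamber 1 1)))) (Trg.right (Trg.left (chamberN 9 22))) :=
  HoldsN.of_red (k := 16) (m := 16) (leaf ok5 (G30 _ rfl) (G196 _ rfl) (G501 _ rfl) (by decide +kernel))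
theorem l674 : HoldsN X5 (Trg.left (Trg.right (Trg.right (chamber 1 1)))) (Trg.left (Trg.right (chamberN 9 22))) :=
  HoldsN.of_red (k := 16) (m := 16) (leaf ok5 (G18 _ rfl) (G416 _ rfl) (G416 _ rfl) (by decide +kernel))
theorem l675 : HoldsN X5 (Trg.right (Trg.right (Trg.right (chamber 1 1)))) (Trg.left (Trg.right (chamberN 9 22))) :=
  HoldsN.of_red (k := 16) (m := 16) (leaf ok5 (G10 _ rfl) (G487 _ rfl) (G451 _ rfl) (by decide +kernel))
theorem l676 : HoldsN X5 (Trg.left (Trg.left (Trg.right (Trg.right (chamber 1 1))))) (Trg.left (Trg.right (Trg.right (chamberN 9 22)))) :=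
  HoldsN.of_red (k := 16) (m := 16) (leaf ok5 (G93 _ rfl) (G405 _ rfl) (G405 _ rfl) (by decide +kernel))
theorem l677 : HoldsN X5 (Trg.right (Trg.left (Trg.right (Trg.right (chamber 1 1))))) (Trg.left (Trg.right (Trg.right (chamberN 9 22)))) :=
  HoldsN.of_red (k := 16) (m := 16) (leaf ok5 (G153 _ rfl) (G405 _ rfl) (G395 _ rfl) (by decide +kernel))
theorem l678 : HoldsN X5 (Trg.left (Trg.right (Trg.right (chamber 1 1)))) (Trg.right (Trg.right (Trg.right (chamberN 9 22)))) :=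
  HoldsN.of_red (k := 16) (m := 16) (leaf ok5 (G71 _ rfl) (G405 _ rfl) (G416 _ rfl) (by decide +kernel))
theorem l679 : HoldsN X5 (Trg.right (Trg.right (Trg.right (chamber 1 1)))) (Trg.left (Trg.right (Trg.right (chamberN 9 22)))) :=
  HoldsN.of_red (k := 16) (m := 16) (leaf ok5 (G71 _ rfl) (G416 _ rfl) (G405 _ rfl) (by decide +kernel))

end Vale.Agent.Lib.P154N.D6
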