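import Vale.Agent.Lib.P154N.D6.Data
import Vale.Agent.Lib.P154N.Red

/-!
# Leaves of the tree of triangles
-/

namespace Vale.Agent.Lib.P154N.D6

open Vale.Agent.Lib.P154K Vale.Agent.Lib.P154Neg

theorem l680 : HoldsN X5 (Trg.right (Trg.right (Trg.right (chamber 1 1)))) (Trg.right (Trg.right (Trg.right (chamberN 9 22)))) :=
  HoldsN.of_red (k := 16) (m := 16) (leaf ok5 (G27 _ rfl) (G451 _ rfl) (G451 _ rfl) (by decide +kernel))
theorem l681 : HoldsN X5 (Trg.left (Trg.left (Trg.left (Trg.left (chamber 1 1))))) (Trg.left (Trg.left (Trg.left (chamberNR 9 22)))) :=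
  HoldsN.of_red (k := 16) (m := 16) (leaf ok5 (G135 _ rfl) (G452 _ rfl) (G179 _ rfl) (by decide +kernel))
theorem l682 : HoldsN X5 (Trg.right (Trg.left (Trg.left (Trg.left (chamber 1 1))))) (Trg.left (Trg.left (Trg.left (chamberNR 9 22)))) :=
  HoldsN.of_red (k := 16) (m := 16) (leaf ok5 (G53 _ rfl) (G503 _ rfl) (G179 _ rfl) (by decide +kernel))
theorem l683 : HoldsN X5 (Trg.left (Trg.left (Trg.left (chamber 1 1)))) (Trg.right (Trg.left (Trg.left (chamberNR 9 22)))) :=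
  HoldsN.of_red (k := 16) (m := 16) (leaf ok5 (G143 _ rfl) (G413 _ rfl) (G181 _ rfl) (by decide +kernel))
theorem l684 : HoldsN X5 (Trg.left (Trg.left (Trg.left (Trg.left (chamber 1 1))))) (Trg.right (Trg.left (chamberNR 9 22))) :=
  HoldsN.of_red (k := 16) (m := 16) (leaf ok5 (G136 _ rfl) (G452 _ rfl) (G131 _ rfl) (by decide +kernel))
theorem l685 : HoldsN X5 (Trg.right (Trg.left (Trg.left (Trg.left (chamber 1 1))))) (Trg.right (Trg.left (chamberNR 9 22))) :=
  HoldsN.of_red (k := 16) (m := 16) (leaf ok5 (G53 _ rfl) (G503 _ rfl) (G92 _ rfl) (by decide +kernel))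
theorem l686 : HoldsN X5 (Trg.right (Trg.left (Trg.left (chamber 1 1)))) (Trg.left (chamberNR 9 22)) :=
  HoldsN.of_red (k := 16) (m := 16) (leaf ok5 (G144 _ rfl) (G413 _ rfl) (G181 _ rfl) (by decide +kernel))
theorem l687 : HoldsN X5 (Trg.left (Trg.right (Trg.left (chamber 1 1)))) (Trg.left (Trg.left (Trg.left (chamberNR 9 22)))) :=
  HoldsN.of_red (k := 16) (m := 16) (leaf ok5 (G121 _ rfl) (G454 _ rfl) (G90 _ rfl) (by decide +kernel))
theorem l688 : HoldsN X5 (Trg.left (Trg.right (Trg.right (Trg.left (chamber 1 1))))) (Trg.left (Trg.left (Trg.left (chamberNR 9 22)))) :=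
  HoldsN.of_red (k := 16) (m := 16) (leaf ok5 (G54 _ rfl) (G509 _ rfl) (G150 _ rfl) (by decide +kernel))
theorem l689 : HoldsN X5 (Trg.right (Trg.right (Trg.right (Trg.left (chamber 1 1))))) (Trg.left (Trg.left (Trg.left (chamberNR 9 22)))) :=
  HoldsN.of_red (k := 16) (m := 16) (leaf ok5 (G120 _ rfl) (G454 _ rfl) (G149 _ rfl) (by decide +kernel))

end Vale.Agent.Lib.P154N.D6
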