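import Vale.Agent.Lib.P154N.D6.Data
import Vale.Agent.Lib.P154N.Red

/-!
# Leaves of the tree of triangles
-/

namespace Vale.Agent.Lib.P154N.D6

open Vale.Agent.Lib.P154K Vale.Agent.Lib.P154Neg

theorem l690 : HoldsN X5 (Trg.right (Trg.left (chamber 1 1))) (Trg.right (Trg.left (Trg.left (chamberNR 9 22)))) :=
  HoldsN.of_red (k := 16) (m := 16) (leaf ok5 (G144 _ rfl) (G413 _ rfl) (G181 _ rfl) (by decide +kernel))
theorem l691 : HoldsN X5 (Trg.left (Trg.right (Trg.left (chamber 1 1)))) (Trg.right (Trg.left (chamberNR 9 22))) :=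
  HoldsN.of_red (k := 16) (m := 16) (leaf ok5 (G122 _ rfl) (G454 _ rfl) (G90 _ rfl) (by decide +kernel))
theorem l692 : HoldsN X5 (Trg.right (Trg.right (Trg.left (chamber 1 1)))) (Trg.right (Trg.left (chamberNR 9 22))) :=
  HoldsN.of_red (k := 16) (m := 16) (leaf ok5 (G56 _ rfl) (G456 _ rfl) (G90 _ rfl) (by decide +kernel))
theorem l693 : HoldsN X5 (Trg.left (Trg.left (Trg.left (Trg.left (chamber 1 1))))) (Trg.left (Trg.right (chamberNR 9 22))) :=
  HoldsN.of_red (k := 16) (m := 16) (leaf ok5 (G46 _ rfl) (G536 _ rfl) (G188 _ rfl) (by decide +kernel))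
theorem l694 : HoldsN X5 (Trg.right (Trg.left (Trg.left (Trg.left (chamber 1 1))))) (Trg.left (Trg.left (Trg.right (chamberNR 9 22)))) :=
  HoldsN.of_red (k := 16) (m := 16) (leaf ok5 (G21 _ rfl) (G540 _ rfl) (G231 _ rfl) (by decide +kernel))
theorem l695 : HoldsN X5 (Trg.right (Trg.left (Trg.left (Trg.left (chamber 1 1))))) (Trg.left (Trg.right (Trg.left (Trg.right (chamberNR 9 22))))) :=
  HoldsN.of_red (k := 16) (m := 16) (leaf ok5 (G8 _ rfl) (G565 _ rfl) (G311 _ rfl) (by decide +kernel))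
theorem l696 : HoldsN X5 (Trg.right (Trg.left (Trg.left (Trg.left (chamber 1 1))))) (Trg.right (Trg.right (Trg.left (Trg.right (chamberNR 9 22))))) :=
  HoldsN.of_red (k := 16) (m := 16) (leaf ok5 (G21 _ rfl) (G540 _ rfl) (G308 _ rfl) (by decide +kernel))
theorem l697 : HoldsN X5 (Trg.right (Trg.left (Trg.left (chamber 1 1)))) (Trg.left (Trg.right (chamberNR 9 22))) :=
  HoldsN.of_red (k := 16) (m := 16) (leaf ok5 (G71 _ rfl) (G416 _ rfl) (G189 _ rfl) (by decide +kernel))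
theorem l698 : HoldsN X5 (Trg.left (Trg.right (Trg.left (chamber 1 1)))) (Trg.left (Trg.left (Trg.right (chamberNR 9 22)))) :=
  HoldsN.of_red (k := 16) (m := 16) (leaf ok5 (G66 _ rfl) (G539 _ rfl) (G92 _ rfl) (by decide +kernel))
theorem l699 : HoldsN X5 (Trg.left (Trg.right (Trg.left (chamber 1 1)))) (Trg.left (Trg.right (Trg.left (Trg.right (chamberNR 9 22))))) :=
  HoldsN.of_red (k := 16) (m := 16) (leaf ok5 (G29 _ rfl) (G565 _ rfl) (G91 _ rfl) (by decide +kernel))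

end Vale.Agent.Lib.P154N.D6
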