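import Vale.Agent.Lib.P154N.D6.Data
import Vale.Agent.Lib.P154N.Red

/-!
# Leaves of the tree of triangles
-/

namespace Vale.Agent.Lib.P154N.D6

open Vale.Agent.Lib.P154K Vale.Agent.Lib.P154Neg

theorem l70 : HoldsN X2 (Trg.left (Trg.right (Trg.right (Trg.right (Trg.right (chamberN 9 22)))))) (Trg.left (Trg.left (Trg.right (Trg.right (chamberN 9 22))))) :=
  HoldsN.of_red (k := 16) (m := 16) (leaf ok2 (G463 _ rfl) (G238 _ rfl) (G283 _ rfl) (by decide +kernel))
theorem l71 : HoldsN X2 (Trg.right (Trg.right (Trg.right (Trg.right (Trg.right (chamberN 9 22)))))) (Trg.left (Trg.left (Trg.right (Trg.right (chamberN 9 22))))) :=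
  HoldsN.of_red (k := 16) (m := 16) (leaf ok2 (G445 _ rfl) (G238 _ rfl) (G284 _ rfl) (by decide +kernel))
theorem l72 : HoldsN X2 (Trg.right (Trg.right (Trg.right (chamberN 9 22)))) (Trg.right (Trg.left (Trg.right (Trg.right (chamberN 9 22))))) :=
  HoldsN.of_red (k := 16) (m := 16) (leaf ok2 (G400 _ rfl) (G285 _ rfl) (G285 _ rfl) (by decide +kernel))
theorem l73 : HoldsN X2 (Trg.right (Trg.right (Trg.right (chamberN 9 22)))) (Trg.right (Trg.right (Trg.right (chamberN 9 22)))) :=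
  HoldsN.of_red (k := 16) (m := 16) (leaf ok2 (G467 _ rfl) (G218 _ rfl) (G218 _ rfl) (by decide +kernel))
theorem l74 : HoldsN X2 (Trg.left (Trg.left (Trg.left (Trg.left (chamberN 9 22))))) (Trg.left (Trg.left (Trg.left (chamberNR 9 22)))) :=
  HoldsN.of_red (k := 16) (m := 16) (leaf ok2 (G369 _ rfl) (G201 _ rfl) (G392 _ rfl) (by decide +kernel))
theorem l75 : HoldsN X2 (Trg.right (Trg.left (Trg.left (Trg.left (chamberN 9 22))))) (Trg.left (Trg.left (Trg.left (Trg.left (chamberNR 9 22))))) :=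
  HoldsN.of_red (k := 16) (m := 16) (leaf ok2 (G397 _ rfl) (G200 _ rfl) (G392 _ rfl) (by decide +kernel))
theorem l76 : HoldsN X2 (Trg.right (Trg.left (Trg.left (Trg.left (chamberN 9 22))))) (Trg.right (Trg.left (Trg.left (Trg.left (chamberNR 9 22))))) :=
  HoldsN.of_red (k := 16) (m := 16) (leaf ok2 (G447 _ rfl) (G141 _ rfl) (G390 _ rfl) (by decide +kernel))
theorem l77 : HoldsN X2 (Trg.left (Trg.left (Trg.left (chamberN 9 22)))) (Trg.right (Trg.left (Trg.left (chamberNR 9 22)))) :=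
  HoldsN.of_red (k := 16) (m := 16) (leaf ok2 (G368 _ rfl) (G240 _ rfl) (G393 _ rfl) (by decide +kernel))
theorem l78 : HoldsN X2 (Trg.left (Trg.left (Trg.left (Trg.left (chamberN 9 22))))) (Trg.right (Trg.left (chamberNR 9 22))) :=
  HoldsN.of_red (k := 16) (m := 16) (leaf ok2 (G356 _ rfl) (G201 _ rfl) (G421 _ rfl) (by decide +kernel))
theorem l79 : HoldsN X2 (Trg.right (Trg.left (Trg.left (Trg.left (chamberN 9 22))))) (Trg.left (Trg.right (Trg.left (chamberNR 9 22)))) :=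
  HoldsN.of_red (k := 16) (m := 16) (leaf ok2 (G397 _ rfl) (G165 _ rfl) (G433 _ rfl) (by decide +kernel))

end Vale.Agent.Lib.P154N.D6
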