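import Vale.Agent.Lib.P154N.D6.Data
import Vale.Agent.Lib.P154N.Red

/-!
# Leaves of the tree of triangles
-/

namespace Vale.Agent.Lib.P154N.D6

open Vale.Agent.Lib.P154K Vale.Agent.Lib.P154Neg

theorem l720 : HoldsN X5 (Trg.right (Trg.left (Trg.left (Trg.right (Trg.left (chamber 1 1)))))) (Trg.right (Trg.right (Trg.left (Trg.left (Trg.right (Trg.right (chamberNR 9 22))))))) :=
  HoldsN.of_red (k := 16) (m := 16) (leaf ok5 (G206 _ rfl) (G479 _ rfl) (G222 _ rfl) (by decide +kernel))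
theorem l721 : HoldsN X5 (Trg.right (Trg.left (Trg.right (Trg.left (chamber 1 1))))) (Trg.left (Trg.left (Trg.right (Trg.right (chamberNR 9 22))))) :=
  HoldsN.of_red (k := 16) (m := 16) (leaf ok5 (G109 _ rfl) (G506 _ rfl) (G179 _ rfl) (by decide +kernel))
theorem l722 : HoldsN X5 (Trg.left (Trg.right (Trg.left (chamber 1 1)))) (Trg.right (Trg.left (Trg.right (Trg.right (chamberNR 9 22))))) :=
  HoldsN.of_red (k := 16) (m := 16) (leaf ok5 (G210 _ rfl) (G411 _ rfl) (G181 _ rfl) (by decide +kernel))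
theorem l723 : HoldsN X5 (Trg.left (Trg.right (Trg.right (Trg.left (chamber 1 1))))) (Trg.left (Trg.left (Trg.right (Trg.right (chamberNR 9 22))))) :=
  HoldsN.of_red (k := 16) (m := 16) (leaf ok5 (G67 _ rfl) (G506 _ rfl) (G243 _ rfl) (by decide +kernel))
theorem l724 : HoldsN X5 (Trg.left (Trg.right (Trg.right (Trg.left (chamber 1 1))))) (Trg.right (Trg.left (Trg.right (Trg.right (chamberNR 9 22))))) :=
  HoldsN.of_red (k := 16) (m := 16) (leaf ok5 (G142 _ rfl) (G413 _ rfl) (G242 _ rfl) (by decide +kernel))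
theorem l725 : HoldsN X5 (Trg.left (Trg.right (Trg.right (Trg.right (Trg.left (chamber 1 1)))))) (Trg.left (Trg.left (Trg.right (Trg.right (chamberNR 9 22))))) :=
  HoldsN.of_red (k := 16) (m := 16) (leaf ok5 (G132 _ rfl) (G481 _ rfl) (G248 _ rfl) (by decide +kernel))
theorem l726 : HoldsN X5 (Trg.right (Trg.right (Trg.right (Trg.right (Trg.left (chamber 1 1)))))) (Trg.left (Trg.left (Trg.right (Trg.right (chamberNR 9 22))))) :=
  HoldsN.of_red (k := 16) (m := 16) (leaf ok5 (G106 _ rfl) (G506 _ rfl) (G239 _ rfl) (by decide +kernel))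
theorem l727 : HoldsN X5 (Trg.right (Trg.right (Trg.right (Trg.left (chamber 1 1))))) (Trg.right (Trg.left (Trg.right (Trg.right (chamberNR 9 22))))) :=
  HoldsN.of_red (k := 16) (m := 16) (leaf ok5 (G210 _ rfl) (G411 _ rfl) (G240 _ rfl) (by decide +kernel))
theorem l728 : HoldsN X5 (Trg.left (Trg.left (Trg.left (Trg.right (Trg.left (chamber 1 1)))))) (Trg.right (Trg.right (Trg.right (chamberNR 9 22)))) :=
  HoldsN.of_red (k := 16) (m := 16) (leaf ok5 (G109 _ rfl) (G529 _ rfl) (G131 _ rfl) (by decide +kernel))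
theorem l729 : HoldsN X5 (Trg.right (Trg.left (Trg.left (Trg.right (Trg.left (chamber 1 1)))))) (Trg.right (Trg.right (Trg.right (chamberNR 9 22)))) :=
  HoldsN.of_red (k := 16) (m := 16) (leaf ok5 (G172 _ rfl) (G499 _ rfl) (G130 _ rfl) (by decide +kernel))

end Vale.Agent.Lib.P154N.D6
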