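import Vale.Agent.Lib.P154N.D6.Data
import Vale.Agent.Lib.P154N.Red

/-!
# Leaves of the tree of triangles
-/

namespace Vale.Agent.Lib.P154N.D6

open Vale.Agent.Lib.P154K Vale.Agent.Lib.P154Neg

theorem l760 : HoldsN X5 (Trg.left (Trg.right (Trg.right (chamber 1 1)))) (Trg.left (Trg.left (Trg.left (chamberNR 9 22)))) :=
  HoldsN.of_red (k := 16) (m := 16) (leaf ok5 (G71 _ rfl) (G416 _ rfl) (G269 _ rfl) (by decide +kernel))
theorem l761 : HoldsN X5 (Trg.left (Trg.left (Trg.right (Trg.right (chamber 1 1))))) (Trg.left (Trg.right (Trg.left (Trg.left (chamberNR 9 22))))) :=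
  HoldsN.of_red (k := 16) (m := 16) (leaf ok5 (G153 _ rfl) (G405 _ rfl) (G321 _ rfl) (by decide +kernel))
theorem l762 : HoldsN X5 (Trg.left (Trg.left (Trg.right (Trg.right (chamber 1 1))))) (Trg.right (Trg.right (Trg.left (Trg.left (chamberNR 9 22))))) :=
  HoldsN.of_red (k := 16) (m := 16) (leaf ok5 (G152 _ rfl) (G446 _ rfl) (G262 _ rfl) (by decide +kernel))
theorem l763 : HoldsN X5 (Trg.right (Trg.left (Trg.right (Trg.right (chamber 1 1))))) (Trg.right (Trg.left (Trg.left (chamberNR 9 22)))) :=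
  HoldsN.of_red (k := 16) (m := 16) (leaf ok5 (G240 _ rfl) (G401 _ rfl) (G260 _ rfl) (by decide +kernel))
theorem l764 : HoldsN X5 (Trg.left (Trg.right (Trg.right (chamber 1 1)))) (Trg.right (Trg.left (chamberNR 9 22))) :=
  HoldsN.of_red (k := 16) (m := 16) (leaf ok5 (G71 _ rfl) (G416 _ rfl) (G189 _ rfl) (by decide +kernel))
theorem l765 : HoldsN X5 (Trg.right (Trg.right (Trg.right (chamber 1 1)))) (Trg.left (Trg.left (Trg.left (chamberNR 9 22)))) :=
  HoldsN.of_red (k := 16) (m := 16) (leaf ok5 (G52 _ rfl) (G503 _ rfl) (G188 _ rfl) (by decide +kernel))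
theorem l766 : HoldsN X5 (Trg.right (Trg.right (Trg.right (chamber 1 1)))) (Trg.right (Trg.left (Trg.left (chamberNR 9 22)))) :=
  HoldsN.of_red (k := 16) (m := 16) (leaf ok5 (G142 _ rfl) (G413 _ rfl) (G186 _ rfl) (by decide +kernel))
theorem l767 : HoldsN X5 (Trg.right (Trg.right (Trg.right (chamber 1 1)))) (Trg.right (Trg.left (chamberNR 9 22))) :=
  HoldsN.of_red (k := 16) (m := 16) (leaf ok5 (G52 _ rfl) (G503 _ rfl) (G95 _ rfl) (by decide +kernel))
theorem l768 : HoldsN X5 (Trg.left (Trg.right (Trg.right (chamber 1 1)))) (Trg.left (Trg.right (chamberNR 9 22))) :=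
  HoldsN.of_red (k := 16) (m := 16) (leaf ok5 (G18 _ rfl) (G416 _ rfl) (G341 _ rfl) (by decide +kernel))
theorem l769 : HoldsN X5 (Trg.right (Trg.right (Trg.right (chamber 1 1)))) (Trg.left (Trg.right (chamberNR 9 22))) :=
  HoldsN.of_red (k := 16) (m := 16) (leaf ok5 (G10 _ rfl) (G542 _ rfl) (G278 _ rfl) (by decide +kernel))

end Vale.Agent.Lib.P154N.D6
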