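import Vale.Agent.Lib.P154N.D6.Data
import Vale.Agent.Lib.P154N.Red

/-!
# Leaves of the tree of triangles
-/

namespace Vale.Agent.Lib.P154N.D6

open Vale.Agent.Lib.P154K Vale.Agent.Lib.P154Neg

theorem l770 : HoldsN X5 (Trg.left (Trg.left (Trg.right (Trg.right (chamber 1 1))))) (Trg.left (Trg.right (Trg.right (chamberNR 9 22)))) :=
  HoldsN.of_red (k := 16) (m := 16) (leaf ok5 (G93 _ rfl) (G405 _ rfl) (G375 _ rfl) (by decide +kernel))
theorem l771 : HoldsN X5 (Trg.right (Trg.left (Trg.right (Trg.right (chamber 1 1))))) (Trg.left (Trg.right (Trg.right (chamberNR 9 22)))) :=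
  HoldsN.of_red (k := 16) (m := 16) (leaf ok5 (G153 _ rfl) (G405 _ rfl) (G367 _ rfl) (by decide +kernel))
theorem l772 : HoldsN X5 (Trg.left (Trg.right (Trg.right (chamber 1 1)))) (Trg.right (Trg.right (Trg.right (chamberNR 9 22)))) :=
  HoldsN.of_red (k := 16) (m := 16) (leaf ok5 (G71 _ rfl) (G416 _ rfl) (G334 _ rfl) (by decide +kernel))
theorem l773 : HoldsN X5 (Trg.right (Trg.right (Trg.right (chamber 1 1)))) (Trg.left (Trg.right (Trg.right (chamberNR 9 22)))) :=
  HoldsN.of_red (k := 16) (m := 16) (leaf ok5 (G71 _ rfl) (G416 _ rfl) (G334 _ rfl) (by decide +kernel))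
theorem l774 : HoldsN X5 (Trg.right (Trg.right (Trg.right (chamber 1 1)))) (Trg.right (Trg.right (Trg.right (chamberNR 9 22)))) :=
  HoldsN.of_red (k := 16) (m := 16) (leaf ok5 (G50 _ rfl) (G516 _ rfl) (G274 _ rfl) (by decide +kernel))
theorem l775 : HoldsN X6 (Trg.left (Trg.left (Trg.left (Trg.left (chamber 1 1))))) (Trg.left (Trg.left (Trg.left (chamberN 9 22)))) :=
  HoldsN.of_red (k := 16) (m := 16) (leaf ok6 (G80 _ rfl) (G378 _ rfl) (G331 _ rfl) (by decide +kernel))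
theorem l776 : HoldsN X6 (Trg.right (Trg.left (Trg.left (Trg.left (chamber 1 1))))) (Trg.left (Trg.left (Trg.left (chamberN 9 22)))) :=
  HoldsN.of_red (k := 16) (m := 16) (leaf ok6 (G30 _ rfl) (G340 _ rfl) (G469 _ rfl) (by decide +kernel))
theorem l777 : HoldsN X6 (Trg.left (Trg.left (Trg.left (chamber 1 1)))) (Trg.right (Trg.left (Trg.left (chamberN 9 22)))) :=
  HoldsN.of_red (k := 16) (m := 16) (leaf ok6 (G111 _ rfl) (G332 _ rfl) (G376 _ rfl) (by decide +kernel))
theorem l778 : HoldsN X6 (Trg.left (Trg.left (Trg.left (chamber 1 1)))) (Trg.right (Trg.left (chamberN 9 22))) :=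
  HoldsN.of_red (k := 16) (m := 16) (leaf ok6 (G30 _ rfl) (G277 _ rfl) (G343 _ rfl) (by decide +kernel))
theorem l779 : HoldsN X6 (Trg.right (Trg.left (Trg.left (chamber 1 1)))) (Trg.left (chamberN 9 22)) :=
  HoldsN.of_red (k := 16) (m := 16) (leaf ok6 (G111 _ rfl) (G338 _ rfl) (G338 _ rfl) (by decide +kernel))

end Vale.Agent.Lib.P154N.D6
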