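import Vale.Agent.Lib.P154N.D6.Data
import Vale.Agent.Lib.P154N.Red

/-!
# Leaves of the tree of triangles
-/

namespace Vale.Agent.Lib.P154N.D6

open Vale.Agent.Lib.P154K Vale.Agent.Lib.P154Neg

theorem l780 : HoldsN X6 (Trg.left (Trg.right (Trg.left (chamber 1 1)))) (Trg.left (Trg.left (Trg.left (chamberN 9 22)))) :=
  HoldsN.of_red (k := 16) (m := 16) (leaf ok6 (G51 _ rfl) (G429 _ rfl) (G272 _ rfl) (by decide +kernel))
theorem l781 : HoldsN X6 (Trg.left (Trg.right (Trg.right (Trg.left (chamber 1 1))))) (Trg.left (Trg.left (Trg.left (chamberN 9 22)))) :=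
  HoldsN.of_red (k := 16) (m := 16) (leaf ok6 (G28 _ rfl) (G342 _ rfl) (G469 _ rfl) (by decide +kernel))
theorem l782 : HoldsN X6 (Trg.right (Trg.right (Trg.right (Trg.left (chamber 1 1))))) (Trg.left (Trg.left (Trg.left (chamberN 9 22)))) :=
  HoldsN.of_red (k := 16) (m := 16) (leaf ok6 (G51 _ rfl) (G417 _ rfl) (G331 _ rfl) (by decide +kernel))
theorem l783 : HoldsN X6 (Trg.right (Trg.left (chamber 1 1))) (Trg.right (Trg.left (Trg.left (chamberN 9 22)))) :=
  HoldsN.of_red (k := 16) (m := 16) (leaf ok6 (G111 _ rfl) (G338 _ rfl) (G338 _ rfl) (by decide +kernel))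
theorem l784 : HoldsN X6 (Trg.left (Trg.right (Trg.left (chamber 1 1)))) (Trg.right (Trg.left (chamberN 9 22))) :=
  HoldsN.of_red (k := 16) (m := 16) (leaf ok6 (G51 _ rfl) (G429 _ rfl) (G277 _ rfl) (by decide +kernel))
theorem l785 : HoldsN X6 (Trg.right (Trg.right (Trg.left (chamber 1 1)))) (Trg.right (Trg.left (chamberN 9 22))) :=
  HoldsN.of_red (k := 16) (m := 16) (leaf ok6 (G30 _ rfl) (G280 _ rfl) (G343 _ rfl) (by decide +kernel))
theorem l786 : HoldsN X6 (Trg.left (Trg.left (Trg.left (Trg.left (chamber 1 1))))) (Trg.left (Trg.right (chamberN 9 22))) :=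
  HoldsN.of_red (k := 16) (m := 16) (leaf ok6 (G45 _ rfl) (G521 _ rfl) (G192 _ rfl) (by decide +kernel))
theorem l787 : HoldsN X6 (Trg.right (Trg.left (Trg.left (Trg.left (chamber 1 1))))) (Trg.left (Trg.left (Trg.right (chamberN 9 22)))) :=
  HoldsN.of_red (k := 16) (m := 16) (leaf ok6 (G17 _ rfl) (G520 _ rfl) (G414 _ rfl) (by decide +kernel))
theorem l788 : HoldsN X6 (Trg.right (Trg.left (Trg.left (Trg.left (chamber 1 1))))) (Trg.left (Trg.right (Trg.left (Trg.right (chamberN 9 22))))) :=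
  HoldsN.of_red (k := 16) (m := 16) (leaf ok6 (G8 _ rfl) (G555 _ rfl) (G410 _ rfl) (by decide +kernel))
theorem l789 : HoldsN X6 (Trg.right (Trg.left (Trg.left (Trg.left (chamber 1 1))))) (Trg.right (Trg.right (Trg.left (Trg.right (chamberN 9 22))))) :=
  HoldsN.of_red (k := 16) (m := 16) (leaf ok6 (G17 _ rfl) (G536 _ rfl) (G410 _ rfl) (by decide +kernel))

end Vale.Agent.Lib.P154N.D6
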