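import Vale.Agent.Lib.P154N.D6.Data
import Vale.Agent.Lib.P154N.Red

/-!
# Leaves of the tree of triangles
-/

namespace Vale.Agent.Lib.P154N.D6

open Vale.Agent.Lib.P154K Vale.Agent.Lib.P154Neg

theorem l790 : HoldsN X6 (Trg.right (Trg.left (Trg.left (chamber 1 1)))) (Trg.left (Trg.right (chamberN 9 22))) :=
  HoldsN.of_red (k := 16) (m := 16) (leaf ok6 (G71 _ rfl) (G416 _ rfl) (G193 _ rfl) (by decide +kernel))
theorem l791 : HoldsN X6 (Trg.left (Trg.left (Trg.left (Trg.right (Trg.left (chamber 1 1)))))) (Trg.left (Trg.left (Trg.left (Trg.left (Trg.right (chamberN 9 22)))))) :=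
  HoldsN.of_red (k := 16) (m := 16) (leaf ok6 (G39 _ rfl) (G566 _ rfl) (G202 _ rfl) (by decide +kernel))
theorem l792 : HoldsN X6 (Trg.left (Trg.left (Trg.left (Trg.right (Trg.left (chamber 1 1)))))) (Trg.right (Trg.left (Trg.left (Trg.left (Trg.right (chamberN 9 22)))))) :=
  HoldsN.of_red (k := 16) (m := 16) (leaf ok6 (G74 _ rfl) (G557 _ rfl) (G211 _ rfl) (by decide +kernel))
theorem l793 : HoldsN X6 (Trg.left (Trg.left (Trg.left (Trg.right (Trg.left (chamber 1 1)))))) (Trg.right (Trg.left (Trg.left (Trg.right (chamberN 9 22))))) :=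
  HoldsN.of_red (k := 16) (m := 16) (leaf ok6 (G39 _ rfl) (G566 _ rfl) (G203 _ rfl) (by decide +kernel))
theorem l794 : HoldsN X6 (Trg.right (Trg.left (Trg.left (Trg.right (Trg.left (chamber 1 1)))))) (Trg.left (Trg.left (Trg.right (chamberN 9 22)))) :=
  HoldsN.of_red (k := 16) (m := 16) (leaf ok6 (G90 _ rfl) (G533 _ rfl) (G202 _ rfl) (by decide +kernel))
theorem l795 : HoldsN X6 (Trg.right (Trg.left (Trg.right (Trg.left (chamber 1 1))))) (Trg.left (Trg.left (Trg.left (Trg.left (Trg.right (chamberN 9 22)))))) :=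
  HoldsN.of_red (k := 16) (m := 16) (leaf ok6 (G39 _ rfl) (G570 _ rfl) (G155 _ rfl) (by decide +kernel))
theorem l796 : HoldsN X6 (Trg.right (Trg.left (Trg.right (Trg.left (chamber 1 1))))) (Trg.right (Trg.left (Trg.left (Trg.left (Trg.right (chamberN 9 22)))))) :=
  HoldsN.of_red (k := 16) (m := 16) (leaf ok6 (G74 _ rfl) (G558 _ rfl) (G175 _ rfl) (by decide +kernel))
theorem l797 : HoldsN X6 (Trg.right (Trg.left (Trg.right (Trg.left (chamber 1 1))))) (Trg.right (Trg.left (Trg.left (Trg.right (chamberN 9 22))))) :=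
  HoldsN.of_red (k := 16) (m := 16) (leaf ok6 (G39 _ rfl) (G570 _ rfl) (G158 _ rfl) (by decide +kernel))
theorem l798 : HoldsN X6 (Trg.left (Trg.right (Trg.left (chamber 1 1)))) (Trg.left (Trg.right (Trg.left (Trg.right (chamberN 9 22))))) :=
  HoldsN.of_red (k := 16) (m := 16) (leaf ok6 (G28 _ rfl) (G565 _ rfl) (G94 _ rfl) (by decide +kernel))
theorem l799 : HoldsN X6 (Trg.left (Trg.left (Trg.left (Trg.right (Trg.left (chamber 1 1)))))) (Trg.left (Trg.right (Trg.right (Trg.left (Trg.right (chamberN 9 22)))))) :=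
  HoldsN.of_red (k := 16) (m := 16) (leaf ok6 (G61 _ rfl) (G561 _ rfl) (G172 _ rfl) (by decide +kernel))

end Vale.Agent.Lib.P154N.D6
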