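import Vale.Agent.Lib.P154N.D6.Data
import Vale.Agent.Lib.P154N.Red

/-!
# Leaves of the tree of triangles
-/

namespace Vale.Agent.Lib.P154N.D6

open Vale.Agent.Lib.P154K Vale.Agent.Lib.P154Neg

theorem l80 : HoldsN X2 (Trg.right (Trg.left (Trg.left (Trg.left (chamberN 9 22))))) (Trg.left (Trg.right (Trg.right (Trg.left (chamberNR 9 22))))) :=
  HoldsN.of_red (k := 16) (m := 16) (leaf ok2 (G465 _ rfl) (G140 _ rfl) (G420 _ rfl) (by decide +kernel))
theorem l81 : HoldsN X2 (Trg.right (Trg.left (Trg.left (Trg.left (chamberN 9 22))))) (Trg.right (Trg.right (Trg.right (Trg.left (chamberNR 9 22))))) :=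
  HoldsN.of_red (k := 16) (m := 16) (leaf ok2 (G397 _ rfl) (G165 _ rfl) (G430 _ rfl) (by decide +kernel))
theorem l82 : HoldsN X2 (Trg.right (Trg.left (Trg.left (chamberN 9 22)))) (Trg.left (Trg.left (Trg.left (chamberNR 9 22)))) :=
  HoldsN.of_red (k := 16) (m := 16) (leaf ok2 (G368 _ rfl) (G240 _ rfl) (G393 _ rfl) (by decide +kernel))
theorem l83 : HoldsN X2 (Trg.left (Trg.left (Trg.right (Trg.left (Trg.left (chamberN 9 22)))))) (Trg.right (Trg.left (Trg.left (chamberNR 9 22)))) :=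
  HoldsN.of_red (k := 16) (m := 16) (leaf ok2 (G383 _ rfl) (G293 _ rfl) (G388 _ rfl) (by decide +kernel))
theorem l84 : HoldsN X2 (Trg.right (Trg.left (Trg.right (Trg.left (Trg.left (chamberN 9 22)))))) (Trg.right (Trg.left (Trg.left (chamberNR 9 22)))) :=
  HoldsN.of_red (k := 16) (m := 16) (leaf ok2 (G381 _ rfl) (G345 _ rfl) (G387 _ rfl) (by decide +kernel))
theorem l85 : HoldsN X2 (Trg.right (Trg.right (Trg.left (Trg.left (chamberN 9 22))))) (Trg.right (Trg.left (Trg.left (chamberNR 9 22)))) :=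
  HoldsN.of_red (k := 16) (m := 16) (leaf ok2 (G363 _ rfl) (G293 _ rfl) (G388 _ rfl) (by decide +kernel))
theorem l86 : HoldsN X2 (Trg.right (Trg.left (Trg.left (chamberN 9 22)))) (Trg.right (Trg.left (chamberNR 9 22))) :=
  HoldsN.of_red (k := 16) (m := 16) (leaf ok2 (G355 _ rfl) (G240 _ rfl) (G393 _ rfl) (by decide +kernel))
theorem l87 : HoldsN X2 (Trg.left (Trg.right (Trg.left (chamberN 9 22)))) (Trg.left (Trg.left (Trg.left (Trg.left (chamberNR 9 22))))) :=
  HoldsN.of_red (k := 16) (m := 16) (leaf ok2 (G351 _ rfl) (G218 _ rfl) (G432 _ rfl) (by decide +kernel))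
theorem l88 : HoldsN X2 (Trg.left (Trg.right (Trg.left (chamberN 9 22)))) (Trg.right (Trg.left (Trg.left (Trg.left (chamberNR 9 22))))) :=
  HoldsN.of_red (k := 16) (m := 16) (leaf ok2 (G397 _ rfl) (G165 _ rfl) (G433 _ rfl) (by decide +kernel))
theorem l89 : HoldsN X2 (Trg.left (Trg.left (Trg.right (Trg.right (Trg.left (chamberN 9 22)))))) (Trg.left (Trg.left (Trg.left (Trg.left (Trg.left (chamberNR 9 22)))))) :=
  HoldsN.of_red (k := 16) (m := 16) (leaf ok2 (G420 _ rfl) (G204 _ rfl) (G430 _ rfl) (by decide +kernel))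

end Vale.Agent.Lib.P154N.D6
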