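import Vale.Agent.Lib.P154N.D6.Data
import Vale.Agent.Lib.P154N.Red

/-!
# Leaves of the tree of triangles
-/

namespace Vale.Agent.Lib.P154N.D6

open Vale.Agent.Lib.P154K Vale.Agent.Lib.P154Neg

theorem l800 : HoldsN X6 (Trg.left (Trg.left (Trg.left (Trg.right (Trg.left (chamber 1 1)))))) (Trg.right (Trg.right (Trg.right (Trg.left (Trg.right (chamberN 9 22)))))) :=
  HoldsN.of_red (k := 16) (m := 16) (leaf ok6 (G39 _ rfl) (G579 _ rfl) (G174 _ rfl) (by decide +kernel))
theorem l801 : HoldsN X6 (Trg.right (Trg.left (Trg.left (Trg.right (Trg.left (chamber 1 1)))))) (Trg.right (Trg.right (Trg.left (Trg.right (chamberN 9 22))))) :=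
  HoldsN.of_red (k := 16) (m := 16) (leaf ok6 (G90 _ rfl) (G533 _ rfl) (G171 _ rfl) (by decide +kernel))
theorem l802 : HoldsN X6 (Trg.left (Trg.right (Trg.left (Trg.right (Trg.left (chamber 1 1)))))) (Trg.left (Trg.left (Trg.right (Trg.right (Trg.left (Trg.right (chamberN 9 22))))))) :=
  HoldsN.of_red (k := 16) (m := 16) (leaf ok6 (G85 _ rfl) (G573 _ rfl) (G127 _ rfl) (by decide +kernel))
theorem l803 : HoldsN X6 (Trg.left (Trg.right (Trg.left (Trg.right (Trg.left (chamber 1 1)))))) (Trg.right (Trg.left (Trg.right (Trg.right (Trg.left (Trg.right (chamberN 9 22))))))) :=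
  HoldsN.of_red (k := 16) (m := 16) (leaf ok6 (G100 _ rfl) (G558 _ rfl) (G146 _ rfl) (by decide +kernel))
theorem l804 : HoldsN X6 (Trg.left (Trg.right (Trg.right (Trg.left (Trg.right (Trg.left (chamber 1 1))))))) (Trg.left (Trg.right (Trg.right (Trg.left (Trg.right (chamberN 9 22)))))) :=
  HoldsN.of_red (k := 16) (m := 16) (leaf ok6 (G58 _ rfl) (G568 _ rfl) (G201 _ rfl) (by decide +kernel))
theorem l805 : HoldsN X6 (Trg.right (Trg.right (Trg.right (Trg.left (Trg.right (Trg.left (chamber 1 1))))))) (Trg.left (Trg.right (Trg.right (Trg.left (Trg.right (chamberN 9 22)))))) :=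
  HoldsN.of_red (k := 16) (m := 16) (leaf ok6 (G87 _ rfl) (G561 _ rfl) (G168 _ rfl) (by decide +kernel))
theorem l806 : HoldsN X6 (Trg.right (Trg.left (Trg.right (Trg.left (chamber 1 1))))) (Trg.right (Trg.right (Trg.right (Trg.left (Trg.right (chamberN 9 22)))))) :=
  HoldsN.of_red (k := 16) (m := 16) (leaf ok6 (G39 _ rfl) (G580 _ rfl) (G134 _ rfl) (by decide +kernel))
theorem l807 : HoldsN X6 (Trg.left (Trg.right (Trg.right (Trg.left (chamber 1 1))))) (Trg.left (Trg.left (Trg.left (Trg.left (Trg.right (chamberN 9 22)))))) :=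
  HoldsN.of_red (k := 16) (m := 16) (leaf ok6 (G15 _ rfl) (G562 _ rfl) (G377 _ rfl) (by decide +kernel))
theorem l808 : HoldsN X6 (Trg.left (Trg.left (Trg.right (Trg.right (Trg.left (chamber 1 1)))))) (Trg.right (Trg.left (Trg.left (Trg.left (Trg.right (chamberN 9 22)))))) :=
  HoldsN.of_red (k := 16) (m := 16) (leaf ok6 (G47 _ rfl) (G557 _ rfl) (G328 _ rfl) (by decide +kernel))
theorem l809 : HoldsN X6 (Trg.right (Trg.left (Trg.right (Trg.right (Trg.left (chamber 1 1)))))) (Trg.right (Trg.left (Trg.left (Trg.left (Trg.right (chamberN 9 22)))))) :=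
  HoldsN.of_red (k := 16) (m := 16) (leaf ok6 (G33 _ rfl) (G556 _ rfl) (G406 _ rfl) (by decide +kernel))

end Vale.Agent.Lib.P154N.D6
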