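import Vale.Agent.Lib.P154N.D6.Data
import Vale.Agent.Lib.P154N.Red

/-!
# Leaves of the tree of triangles
-/

namespace Vale.Agent.Lib.P154N.D6

open Vale.Agent.Lib.P154K Vale.Agent.Lib.P154Neg

theorem l810 : HoldsN X6 (Trg.left (Trg.right (Trg.right (Trg.left (chamber 1 1))))) (Trg.right (Trg.left (Trg.left (Trg.right (chamberN 9 22))))) :=
  HoldsN.of_red (k := 16) (m := 16) (leaf ok6 (G15 _ rfl) (G562 _ rfl) (G414 _ rfl) (by decide +kernel))
theorem l811 : HoldsN X6 (Trg.left (Trg.right (Trg.right (Trg.left (chamber 1 1))))) (Trg.left (Trg.right (Trg.left (Trg.right (chamberN 9 22))))) :=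
  HoldsN.of_red (k := 16) (m := 16) (leaf ok6 (G7 _ rfl) (G583 _ rfl) (G276 _ rfl) (by decide +kernel))
theorem l812 : HoldsN X6 (Trg.left (Trg.left (Trg.right (Trg.right (Trg.left (chamber 1 1)))))) (Trg.left (Trg.right (Trg.right (Trg.left (Trg.right (chamberN 9 22)))))) :=
  HoldsN.of_red (k := 16) (m := 16) (leaf ok6 (G36 _ rfl) (G561 _ rfl) (G303 _ rfl) (by decide +kernel))
theorem l813 : HoldsN X6 (Trg.right (Trg.left (Trg.right (Trg.right (Trg.left (chamber 1 1)))))) (Trg.left (Trg.right (Trg.right (Trg.left (Trg.right (chamberN 9 22)))))) :=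
  HoldsN.of_red (k := 16) (m := 16) (leaf ok6 (G23 _ rfl) (G561 _ rfl) (G404 _ rfl) (by decide +kernel))
theorem l814 : HoldsN X6 (Trg.left (Trg.right (Trg.right (Trg.left (chamber 1 1))))) (Trg.right (Trg.right (Trg.right (Trg.left (Trg.right (chamberN 9 22)))))) :=
  HoldsN.of_red (k := 16) (m := 16) (leaf ok6 (G14 _ rfl) (G574 _ rfl) (G312 _ rfl) (by decide +kernel))
theorem l815 : HoldsN X6 (Trg.left (Trg.right (Trg.right (Trg.right (Trg.left (chamber 1 1)))))) (Trg.left (Trg.left (Trg.right (chamberN 9 22)))) :=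
  HoldsN.of_red (k := 16) (m := 16) (leaf ok6 (G62 _ rfl) (G532 _ rfl) (G245 _ rfl) (by decide +kernel))
theorem l816 : HoldsN X6 (Trg.right (Trg.right (Trg.right (Trg.right (Trg.left (chamber 1 1)))))) (Trg.left (Trg.left (Trg.left (Trg.right (chamberN 9 22))))) :=
  HoldsN.of_red (k := 16) (m := 16) (leaf ok6 (G39 _ rfl) (G562 _ rfl) (G302 _ rfl) (by decide +kernel))
theorem l817 : HoldsN X6 (Trg.right (Trg.right (Trg.right (Trg.right (Trg.left (chamber 1 1)))))) (Trg.right (Trg.left (Trg.left (Trg.right (chamberN 9 22))))) :=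
  HoldsN.of_red (k := 16) (m := 16) (leaf ok6 (G38 _ rfl) (G562 _ rfl) (G330 _ rfl) (by decide +kernel))
theorem l818 : HoldsN X6 (Trg.right (Trg.right (Trg.right (Trg.left (chamber 1 1))))) (Trg.left (Trg.right (Trg.left (Trg.right (chamberN 9 22))))) :=
  HoldsN.of_red (k := 16) (m := 16) (leaf ok6 (G28 _ rfl) (G565 _ rfl) (G187 _ rfl) (by decide +kernel))
theorem l819 : HoldsN X6 (Trg.left (Trg.right (Trg.right (Trg.right (Trg.left (chamber 1 1)))))) (Trg.right (Trg.right (Trg.left (Trg.right (chamberN 9 22))))) :=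
  HoldsN.of_red (k := 16) (m := 16) (leaf ok6 (G62 _ rfl) (G532 _ rfl) (G229 _ rfl) (by decide +kernel))

end Vale.Agent.Lib.P154N.D6
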