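import Vale.Agent.Lib.P154N.D6.Data
import Vale.Agent.Lib.P154N.Red

/-!
# Leaves of the tree of triangles
-/

namespace Vale.Agent.Lib.P154N.D6

open Vale.Agent.Lib.P154K Vale.Agent.Lib.P154Neg

theorem l840 : HoldsN X6 (Trg.right (Trg.left (Trg.right (Trg.left (chamber 1 1))))) (Trg.right (Trg.right (Trg.right (chamberN 9 22)))) :=
  HoldsN.of_red (k := 16) (m := 16) (leaf ok6 (G50 _ rfl) (G528 _ rfl) (G190 _ rfl) (by decide +kernel))
theorem l841 : HoldsN X6 (Trg.left (Trg.right (Trg.right (Trg.left (chamber 1 1))))) (Trg.left (Trg.right (Trg.right (Trg.right (chamberN 9 22))))) :=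
  HoldsN.of_red (k := 16) (m := 16) (leaf ok6 (G26 _ rfl) (G507 _ rfl) (G438 _ rfl) (by decide +kernel))
theorem l842 : HoldsN X6 (Trg.left (Trg.left (Trg.right (Trg.right (Trg.left (chamber 1 1)))))) (Trg.right (Trg.right (Trg.right (Trg.right (chamberN 9 22))))) :=
  HoldsN.of_red (k := 16) (m := 16) (leaf ok6 (G59 _ rfl) (G506 _ rfl) (G328 _ rfl) (by decide +kernel))
theorem l843 : HoldsN X6 (Trg.right (Trg.left (Trg.right (Trg.right (Trg.left (chamber 1 1)))))) (Trg.right (Trg.right (Trg.right (Trg.right (chamberN 9 22))))) :=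
  HoldsN.of_red (k := 16) (m := 16) (leaf ok6 (G42 _ rfl) (G506 _ rfl) (G406 _ rfl) (by decide +kernel))
theorem l844 : HoldsN X6 (Trg.left (Trg.right (Trg.right (Trg.right (Trg.left (chamber 1 1)))))) (Trg.right (Trg.right (Trg.right (chamberN 9 22)))) :=
  HoldsN.of_red (k := 16) (m := 16) (leaf ok6 (G80 _ rfl) (G497 _ rfl) (G271 _ rfl) (by decide +kernel))
theorem l845 : HoldsN X6 (Trg.right (Trg.right (Trg.right (Trg.right (Trg.left (chamber 1 1)))))) (Trg.right (Trg.right (Trg.right (chamberN 9 22)))) :=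
  HoldsN.of_red (k := 16) (m := 16) (leaf ok6 (G49 _ rfl) (G507 _ rfl) (G308 _ rfl) (by decide +kernel))
theorem l846 : HoldsN X6 (Trg.left (Trg.left (Trg.right (chamber 1 1)))) (Trg.left (Trg.left (Trg.left (Trg.left (chamberN 9 22))))) :=
  HoldsN.of_red (k := 16) (m := 16) (leaf ok6 (G62 _ rfl) (G246 _ rfl) (G519 _ rfl) (by decide +kernel))
theorem l847 : HoldsN X6 (Trg.left (Trg.left (Trg.right (chamber 1 1)))) (Trg.right (Trg.left (Trg.left (Trg.left (chamberN 9 22))))) :=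
  HoldsN.of_red (k := 16) (m := 16) (leaf ok6 (G17 _ rfl) (G414 _ rfl) (G520 _ rfl) (by decide +kernel))
theorem l848 : HoldsN X6 (Trg.left (Trg.right (Trg.left (Trg.right (chamber 1 1))))) (Trg.left (Trg.left (Trg.left (Trg.left (chamberN 9 22))))) :=
  HoldsN.of_red (k := 16) (m := 16) (leaf ok6 (G43 _ rfl) (G190 _ rfl) (G553 _ rfl) (by decide +kernel))
theorem l849 : HoldsN X6 (Trg.left (Trg.right (Trg.left (Trg.right (chamber 1 1))))) (Trg.right (Trg.left (Trg.left (Trg.left (chamberN 9 22))))) :=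
  HoldsN.of_red (k := 16) (m := 16) (leaf ok6 (G8 _ rfl) (G410 _ rfl) (G555 _ rfl) (by decide +kernel))

end Vale.Agent.Lib.P154N.D6
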