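import Vale.Agent.Lib.P154N.D6.Data
import Vale.Agent.Lib.P154N.Red

/-!
# Leaves of the tree of triangles
-/

namespace Vale.Agent.Lib.P154N.D6

open Vale.Agent.Lib.P154K Vale.Agent.Lib.P154Neg

theorem l850 : HoldsN X6 (Trg.right (Trg.right (Trg.left (Trg.right (chamber 1 1))))) (Trg.left (Trg.left (Trg.left (Trg.left (chamberN 9 22))))) :=
  HoldsN.of_red (k := 16) (m := 16) (leaf ok6 (G62 _ rfl) (G232 _ rfl) (G531 _ rfl) (by decide +kernel))
theorem l851 : HoldsN X6 (Trg.right (Trg.right (Trg.left (Trg.right (chamber 1 1))))) (Trg.right (Trg.left (Trg.left (Trg.left (chamberN 9 22))))) :=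
  HoldsN.of_red (k := 16) (m := 16) (leaf ok6 (G17 _ rfl) (G410 _ rfl) (G536 _ rfl) (by decide +kernel))
theorem l852 : HoldsN X6 (Trg.left (Trg.right (chamber 1 1))) (Trg.right (Trg.left (Trg.left (chamberN 9 22)))) :=
  HoldsN.of_red (k := 16) (m := 16) (leaf ok6 (G71 _ rfl) (G193 _ rfl) (G416 _ rfl) (by decide +kernel))
theorem l853 : HoldsN X6 (Trg.left (Trg.left (Trg.right (chamber 1 1)))) (Trg.left (Trg.right (Trg.left (chamberN 9 22)))) :=
  HoldsN.of_red (k := 16) (m := 16) (leaf ok6 (G41 _ rfl) (G158 _ rfl) (G538 _ rfl) (by decide +kernel))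
theorem l854 : HoldsN X6 (Trg.left (Trg.left (Trg.right (chamber 1 1)))) (Trg.left (Trg.right (Trg.right (Trg.left (chamberN 9 22))))) :=
  HoldsN.of_red (k := 16) (m := 16) (leaf ok6 (G16 _ rfl) (G340 _ rfl) (G562 _ rfl) (by decide +kernel))
theorem l855 : HoldsN X6 (Trg.left (Trg.left (Trg.right (chamber 1 1)))) (Trg.right (Trg.right (Trg.right (Trg.left (chamberN 9 22))))) :=
  HoldsN.of_red (k := 16) (m := 16) (leaf ok6 (G41 _ rfl) (G245 _ rfl) (G537 _ rfl) (by decide +kernel))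
theorem l856 : HoldsN X6 (Trg.left (Trg.right (Trg.left (Trg.right (chamber 1 1))))) (Trg.left (Trg.right (Trg.left (chamberN 9 22)))) :=
  HoldsN.of_red (k := 16) (m := 16) (leaf ok6 (G28 _ rfl) (G94 _ rfl) (G565 _ rfl) (by decide +kernel))
theorem l857 : HoldsN X6 (Trg.left (Trg.right (Trg.left (Trg.right (chamber 1 1))))) (Trg.left (Trg.right (Trg.right (Trg.left (chamberN 9 22))))) :=
  HoldsN.of_red (k := 16) (m := 16) (leaf ok6 (G7 _ rfl) (G276 _ rfl) (G583 _ rfl) (by decide +kernel))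
theorem l858 : HoldsN X6 (Trg.left (Trg.right (Trg.left (Trg.right (chamber 1 1))))) (Trg.right (Trg.right (Trg.right (Trg.left (chamberN 9 22))))) :=
  HoldsN.of_red (k := 16) (m := 16) (leaf ok6 (G28 _ rfl) (G187 _ rfl) (G565 _ rfl) (by decide +kernel))
theorem l859 : HoldsN X6 (Trg.right (Trg.right (Trg.left (Trg.right (chamber 1 1))))) (Trg.left (Trg.right (Trg.left (chamberN 9 22)))) :=
  HoldsN.of_red (k := 16) (m := 16) (leaf ok6 (G41 _ rfl) (G134 _ rfl) (G538 _ rfl) (by decide +kernel))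

end Vale.Agent.Lib.P154N.D6
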