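import Vale.Agent.Lib.P154N.D6.Data
import Vale.Agent.Lib.P154N.Red

/-!
# Leaves of the tree of triangles
-/

namespace Vale.Agent.Lib.P154N.D6

open Vale.Agent.Lib.P154K Vale.Agent.Lib.P154Neg

theorem l860 : HoldsN X6 (Trg.right (Trg.right (Trg.left (Trg.right (chamber 1 1))))) (Trg.left (Trg.right (Trg.right (Trg.left (chamberN 9 22))))) :=
  HoldsN.of_red (k := 16) (m := 16) (leaf ok6 (G16 _ rfl) (G312 _ rfl) (G562 _ rfl) (by decide +kernel))
theorem l861 : HoldsN X6 (Trg.right (Trg.right (Trg.left (Trg.right (chamber 1 1))))) (Trg.right (Trg.right (Trg.right (Trg.left (chamberN 9 22))))) :=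
  HoldsN.of_red (k := 16) (m := 16) (leaf ok6 (G41 _ rfl) (G229 _ rfl) (G537 _ rfl) (by decide +kernel))
theorem l862 : HoldsN X6 (Trg.left (Trg.left (Trg.right (chamber 1 1)))) (Trg.left (Trg.left (Trg.right (chamberN 9 22)))) :=
  HoldsN.of_red (k := 16) (m := 16) (leaf ok6 (G5 _ rfl) (G486 _ rfl) (G486 _ rfl) (by decide +kernel))
theorem l863 : HoldsN X6 (Trg.left (Trg.left (Trg.right (chamber 1 1)))) (Trg.left (Trg.right (Trg.left (Trg.right (chamberN 9 22))))) :=
  HoldsN.of_red (k := 16) (m := 16) (leaf ok6 (G3 _ rfl) (G550 _ rfl) (G508 _ rfl) (by decide +kernel))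
theorem l864 : HoldsN X6 (Trg.left (Trg.left (Trg.right (chamber 1 1)))) (Trg.right (Trg.right (Trg.left (Trg.right (chamberN 9 22))))) :=
  HoldsN.of_red (k := 16) (m := 16) (leaf ok6 (G5 _ rfl) (G536 _ rfl) (G485 _ rfl) (by decide +kernel))
theorem l865 : HoldsN X6 (Trg.left (Trg.right (Trg.left (Trg.right (chamber 1 1))))) (Trg.left (Trg.left (Trg.right (chamberN 9 22)))) :=
  HoldsN.of_red (k := 16) (m := 16) (leaf ok6 (G3 _ rfl) (G508 _ rfl) (G550 _ rfl) (by decide +kernel))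
theorem l866 : HoldsN X6 (Trg.left (Trg.left (Trg.right (Trg.left (Trg.right (chamber 1 1)))))) (Trg.left (Trg.right (Trg.left (Trg.right (chamberN 9 22))))) :=
  HoldsN.of_red (k := 16) (m := 16) (leaf ok6 (G2 _ rfl) (G578 _ rfl) (G576 _ rfl) (by decide +kernel))
theorem l867 : HoldsN X6 (Trg.right (Trg.left (Trg.right (Trg.left (Trg.right (chamber 1 1)))))) (Trg.left (Trg.right (Trg.left (Trg.right (chamberN 9 22))))) :=
  HoldsN.of_red (k := 16) (m := 16) (leaf ok6 (G0 _ rfl) (G578 _ rfl) (G583 _ rfl) (by decide +kernel))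
theorem l868 : HoldsN X6 (Trg.left (Trg.right (Trg.left (Trg.right (chamber 1 1))))) (Trg.right (Trg.right (Trg.left (Trg.right (chamberN 9 22))))) :=
  HoldsN.of_red (k := 16) (m := 16) (leaf ok6 (G3 _ rfl) (G561 _ rfl) (G550 _ rfl) (by decide +kernel))
theorem l869 : HoldsN X6 (Trg.right (Trg.right (Trg.left (Trg.right (chamber 1 1))))) (Trg.left (Trg.left (Trg.right (chamberN 9 22)))) :=
  HoldsN.of_red (k := 16) (m := 16) (leaf ok6 (G5 _ rfl) (G485 _ rfl) (G536 _ rfl) (by decide +kernel))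

end Vale.Agent.Lib.P154N.D6
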