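import Vale.Agent.Lib.P154N.D6.Data
import Vale.Agent.Lib.P154N.Red

/-!
# Leaves of the tree of triangles
-/

namespace Vale.Agent.Lib.P154N.D6

open Vale.Agent.Lib.P154K Vale.Agent.Lib.P154Neg

theorem l890 : HoldsN X6 (Trg.right (Trg.right (Trg.right (chamber 1 1)))) (Trg.left (Trg.left (Trg.right (chamberN 9 22)))) :=
  HoldsN.of_red (k := 16) (m := 16) (leaf ok6 (G17 _ rfl) (G486 _ rfl) (G451 _ rfl) (by decide +kernel))
theorem l891 : HoldsN X6 (Trg.right (Trg.right (Trg.right (chamber 1 1)))) (Trg.right (Trg.left (Trg.right (chamberN 9 22)))) :=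
  HoldsN.of_red (k := 16) (m := 16) (leaf ok6 (G10 _ rfl) (G542 _ rfl) (G451 _ rfl) (by decide +kernel))
theorem l892 : HoldsN X6 (Trg.left (Trg.left (Trg.right (Trg.right (chamber 1 1))))) (Trg.left (Trg.left (Trg.right (Trg.right (chamberN 9 22))))) :=
  HoldsN.of_red (k := 16) (m := 16) (leaf ok6 (G90 _ rfl) (G425 _ rfl) (G425 _ rfl) (by decide +kernel))
theorem l893 : HoldsN X6 (Trg.left (Trg.left (Trg.right (Trg.right (chamber 1 1))))) (Trg.right (Trg.left (Trg.right (Trg.right (chamberN 9 22))))) :=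
  HoldsN.of_red (k := 16) (m := 16) (leaf ok6 (G153 _ rfl) (G395 _ rfl) (G405 _ rfl) (by decide +kernel))
theorem l894 : HoldsN X6 (Trg.right (Trg.left (Trg.right (Trg.right (chamber 1 1))))) (Trg.left (Trg.left (Trg.right (Trg.right (chamberN 9 22))))) :=
  HoldsN.of_red (k := 16) (m := 16) (leaf ok6 (G153 _ rfl) (G405 _ rfl) (G395 _ rfl) (by decide +kernel))
theorem l895 : HoldsN X6 (Trg.left (Trg.right (Trg.left (Trg.right (Trg.right (chamber 1 1)))))) (Trg.left (Trg.right (Trg.left (Trg.right (Trg.right (chamberN 9 22)))))) :=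
  HoldsN.of_red (k := 16) (m := 16) (leaf ok6 (G256 _ rfl) (G389 _ rfl) (G389 _ rfl) (by decide +kernel))
theorem l896 : HoldsN X6 (Trg.left (Trg.right (Trg.left (Trg.right (Trg.right (chamber 1 1)))))) (Trg.right (Trg.right (Trg.left (Trg.right (Trg.right (chamberN 9 22)))))) :=
  HoldsN.of_red (k := 16) (m := 16) (leaf ok6 (G240 _ rfl) (G389 _ rfl) (G395 _ rfl) (by decide +kernel))
theorem l897 : HoldsN X6 (Trg.right (Trg.right (Trg.left (Trg.right (Trg.right (chamber 1 1)))))) (Trg.right (Trg.left (Trg.right (Trg.right (chamberN 9 22))))) :=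
  HoldsN.of_red (k := 16) (m := 16) (leaf ok6 (G210 _ rfl) (G395 _ rfl) (G395 _ rfl) (by decide +kernel))
theorem l898 : HoldsN X6 (Trg.left (Trg.right (Trg.right (chamber 1 1)))) (Trg.right (Trg.right (Trg.right (chamberN 9 22)))) :=
  HoldsN.of_red (k := 16) (m := 16) (leaf ok6 (G71 _ rfl) (G405 _ rfl) (G416 _ rfl) (by decide +kernel))
theorem l899 : HoldsN X6 (Trg.right (Trg.right (Trg.right (chamber 1 1)))) (Trg.left (Trg.left (Trg.right (Trg.right (chamberN 9 22))))) :=
  HoldsN.of_red (k := 16) (m := 16) (leaf ok6 (G68 _ rfl) (G451 _ rfl) (G425 _ rfl) (by decide +kernel))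

end Vale.Agent.Lib.P154N.D6
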