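import Vale.Agent.Lib.P154N.D6.Data
import Vale.Agent.Lib.P154N.Red

/-!
# Leaves of the tree of triangles
-/

namespace Vale.Agent.Lib.P154N.D6

open Vale.Agent.Lib.P154K Vale.Agent.Lib.P154Neg

theorem l90 : HoldsN X2 (Trg.left (Trg.left (Trg.right (Trg.right (Trg.left (chamberN 9 22)))))) (Trg.right (Trg.left (Trg.left (Trg.left (Trg.left (chamberNR 9 22)))))) :=
  HoldsN.of_red (k := 16) (m := 16) (leaf ok2 (G384 _ rfl) (G205 _ rfl) (G441 _ rfl) (by decide +kernel))
theorem l91 : HoldsN X2 (Trg.left (Trg.right (Trg.left (Trg.right (Trg.right (Trg.left (chamberN 9 22))))))) (Trg.left (Trg.left (Trg.left (Trg.left (Trg.left (chamberNR 9 22)))))) :=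
  HoldsN.of_red (k := 16) (m := 16) (leaf ok2 (G442 _ rfl) (G197 _ rfl) (G419 _ rfl) (by decide +kernel))
theorem l92 : HoldsN X2 (Trg.left (Trg.right (Trg.left (Trg.right (Trg.right (Trg.left (chamberN 9 22))))))) (Trg.right (Trg.left (Trg.left (Trg.left (Trg.left (chamberNR 9 22)))))) :=
  HoldsN.of_red (k := 16) (m := 16) (leaf ok2 (G397 _ rfl) (G198 _ rfl) (G440 _ rfl) (by decide +kernel))
theorem l93 : HoldsN X2 (Trg.right (Trg.right (Trg.left (Trg.right (Trg.right (Trg.left (chamberN 9 22))))))) (Trg.left (Trg.left (Trg.left (Trg.left (chamberNR 9 22))))) :=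
  HoldsN.of_red (k := 16) (m := 16) (leaf ok2 (G394 _ rfl) (G205 _ rfl) (G419 _ rfl) (by decide +kernel))
theorem l94 : HoldsN X2 (Trg.left (Trg.right (Trg.right (Trg.left (chamberN 9 22))))) (Trg.left (Trg.right (Trg.left (Trg.left (Trg.left (chamberNR 9 22)))))) :=
  HoldsN.of_red (k := 16) (m := 16) (leaf ok2 (G465 _ rfl) (G139 _ rfl) (G430 _ rfl) (by decide +kernel))
theorem l95 : HoldsN X2 (Trg.left (Trg.right (Trg.right (Trg.left (chamberN 9 22))))) (Trg.right (Trg.right (Trg.left (Trg.left (Trg.left (chamberNR 9 22)))))) :=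
  HoldsN.of_red (k := 16) (m := 16) (leaf ok2 (G462 _ rfl) (G177 _ rfl) (G420 _ rfl) (by decide +kernel))
theorem l96 : HoldsN X2 (Trg.right (Trg.right (Trg.right (Trg.left (chamberN 9 22))))) (Trg.left (Trg.left (Trg.left (Trg.left (chamberNR 9 22))))) :=
  HoldsN.of_red (k := 16) (m := 16) (leaf ok2 (G364 _ rfl) (G218 _ rfl) (G430 _ rfl) (by decide +kernel))
theorem l97 : HoldsN X2 (Trg.right (Trg.right (Trg.right (Trg.left (chamberN 9 22))))) (Trg.right (Trg.left (Trg.left (Trg.left (chamberNR 9 22))))) :=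
  HoldsN.of_red (k := 16) (m := 16) (leaf ok2 (G397 _ rfl) (G165 _ rfl) (G430 _ rfl) (by decide +kernel))
theorem l98 : HoldsN X2 (Trg.right (Trg.left (chamberN 9 22))) (Trg.right (Trg.left (Trg.left (chamberNR 9 22)))) :=
  HoldsN.of_red (k := 16) (m := 16) (leaf ok2 (G355 _ rfl) (G240 _ rfl) (G393 _ rfl) (by decide +kernel))
theorem l99 : HoldsN X2 (Trg.left (Trg.right (Trg.left (chamberN 9 22)))) (Trg.left (Trg.right (Trg.left (chamberNR 9 22)))) :=
  HoldsN.of_red (k := 16) (m := 16) (leaf ok2 (G288 _ rfl) (G201 _ rfl) (G433 _ rfl) (by decide +kernel))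

end Vale.Agent.Lib.P154N.D6
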