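import Vale.Agent.Lib.P154N.D6.Data
import Vale.Agent.Lib.P154N.Red

/-!
# Leaves of the tree of triangles
-/

namespace Vale.Agent.Lib.P154N.D6

open Vale.Agent.Lib.P154K Vale.Agent.Lib.P154Neg

theorem l900 : HoldsN X6 (Trg.right (Trg.right (Trg.right (chamber 1 1)))) (Trg.right (Trg.left (Trg.right (Trg.right (chamberN 9 22))))) :=
  HoldsN.of_red (k := 16) (m := 16) (leaf ok6 (G111 _ rfl) (G405 _ rfl) (G405 _ rfl) (by decide +kernel))
theorem l901 : HoldsN X6 (Trg.right (Trg.right (Trg.right (chamber 1 1)))) (Trg.right (Trg.right (Trg.right (chamberN 9 22)))) :=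
  HoldsN.of_red (k := 16) (m := 16) (leaf ok6 (G27 _ rfl) (G451 _ rfl) (G451 _ rfl) (by decide +kernel))
theorem l902 : HoldsN X6 (Trg.left (Trg.left (Trg.left (Trg.left (chamber 1 1))))) (Trg.left (Trg.left (Trg.left (chamberNR 9 22)))) :=
  HoldsN.of_red (k := 16) (m := 16) (leaf ok6 (G135 _ rfl) (G452 _ rfl) (G179 _ rfl) (by decide +kernel))
theorem l903 : HoldsN X6 (Trg.right (Trg.left (Trg.left (Trg.left (chamber 1 1))))) (Trg.left (Trg.left (Trg.left (chamberNR 9 22)))) :=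
  HoldsN.of_red (k := 16) (m := 16) (leaf ok6 (G53 _ rfl) (G503 _ rfl) (G179 _ rfl) (by decide +kernel))
theorem l904 : HoldsN X6 (Trg.left (Trg.left (Trg.left (chamber 1 1)))) (Trg.right (Trg.left (Trg.left (chamberNR 9 22)))) :=
  HoldsN.of_red (k := 16) (m := 16) (leaf ok6 (G143 _ rfl) (G413 _ rfl) (G181 _ rfl) (by decide +kernel))
theorem l905 : HoldsN X6 (Trg.left (Trg.left (Trg.left (chamber 1 1)))) (Trg.right (Trg.left (chamberNR 9 22))) :=
  HoldsN.of_red (k := 16) (m := 16) (leaf ok6 (G56 _ rfl) (G456 _ rfl) (G92 _ rfl) (by decide +kernel))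
theorem l906 : HoldsN X6 (Trg.right (Trg.left (Trg.left (chamber 1 1)))) (Trg.left (Trg.left (chamberNR 9 22))) :=
  HoldsN.of_red (k := 16) (m := 16) (leaf ok6 (G143 _ rfl) (G413 _ rfl) (G181 _ rfl) (by decide +kernel))
theorem l907 : HoldsN X6 (Trg.right (Trg.left (Trg.left (chamber 1 1)))) (Trg.right (Trg.left (chamberNR 9 22))) :=
  HoldsN.of_red (k := 16) (m := 16) (leaf ok6 (G144 _ rfl) (G413 _ rfl) (G181 _ rfl) (by decide +kernel))
theorem l908 : HoldsN X6 (Trg.left (Trg.right (Trg.left (chamber 1 1)))) (Trg.left (Trg.left (Trg.left (chamberNR 9 22)))) :=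
  HoldsN.of_red (k := 16) (m := 16) (leaf ok6 (G121 _ rfl) (G454 _ rfl) (G90 _ rfl) (by decide +kernel))
theorem l909 : HoldsN X6 (Trg.left (Trg.right (Trg.right (Trg.left (chamber 1 1))))) (Trg.left (Trg.left (Trg.left (chamberNR 9 22)))) :=
  HoldsN.of_red (k := 16) (m := 16) (leaf ok6 (G54 _ rfl) (G509 _ rfl) (G150 _ rfl) (by decide +kernel))

end Vale.Agent.Lib.P154N.D6
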