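import Vale.Agent.Lib.P154N.D6.Data
import Vale.Agent.Lib.P154N.Red

/-!
# Leaves of the tree of triangles
-/

namespace Vale.Agent.Lib.P154N.D6

open Vale.Agent.Lib.P154K Vale.Agent.Lib.P154Neg

theorem l910 : HoldsN X6 (Trg.right (Trg.right (Trg.right (Trg.left (chamber 1 1))))) (Trg.left (Trg.left (Trg.left (chamberNR 9 22)))) :=
  HoldsN.of_red (k := 16) (m := 16) (leaf ok6 (G120 _ rfl) (G454 _ rfl) (G149 _ rfl) (by decide +kernel))
theorem l911 : HoldsN X6 (Trg.right (Trg.left (chamber 1 1))) (Trg.right (Trg.left (Trg.left (chamberNR 9 22)))) :=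
  HoldsN.of_red (k := 16) (m := 16) (leaf ok6 (G144 _ rfl) (G413 _ rfl) (G181 _ rfl) (by decide +kernel))
theorem l912 : HoldsN X6 (Trg.left (Trg.right (Trg.left (chamber 1 1)))) (Trg.right (Trg.left (chamberNR 9 22))) :=
  HoldsN.of_red (k := 16) (m := 16) (leaf ok6 (G122 _ rfl) (G454 _ rfl) (G90 _ rfl) (by decide +kernel))
theorem l913 : HoldsN X6 (Trg.right (Trg.right (Trg.left (chamber 1 1)))) (Trg.right (Trg.left (chamberNR 9 22))) :=
  HoldsN.of_red (k := 16) (m := 16) (leaf ok6 (G56 _ rfl) (G456 _ rfl) (G90 _ rfl) (by decide +kernel))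
theorem l914 : HoldsN X6 (Trg.left (Trg.left (Trg.left (Trg.left (chamber 1 1))))) (Trg.left (Trg.right (chamberNR 9 22))) :=
  HoldsN.of_red (k := 16) (m := 16) (leaf ok6 (G46 _ rfl) (G536 _ rfl) (G188 _ rfl) (by decide +kernel))
theorem l915 : HoldsN X6 (Trg.right (Trg.left (Trg.left (Trg.left (chamber 1 1))))) (Trg.left (Trg.left (Trg.right (chamberNR 9 22)))) :=
  HoldsN.of_red (k := 16) (m := 16) (leaf ok6 (G21 _ rfl) (G540 _ rfl) (G231 _ rfl) (by decide +kernel))
theorem l916 : HoldsN X6 (Trg.right (Trg.left (Trg.left (Trg.left (chamber 1 1))))) (Trg.left (Trg.right (Trg.left (Trg.right (chamberNR 9 22))))) :=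
  HoldsN.of_red (k := 16) (m := 16) (leaf ok6 (G8 _ rfl) (G565 _ rfl) (G311 _ rfl) (by decide +kernel))
theorem l917 : HoldsN X6 (Trg.right (Trg.left (Trg.left (Trg.left (chamber 1 1))))) (Trg.right (Trg.right (Trg.left (Trg.right (chamberNR 9 22))))) :=
  HoldsN.of_red (k := 16) (m := 16) (leaf ok6 (G21 _ rfl) (G540 _ rfl) (G308 _ rfl) (by decide +kernel))
theorem l918 : HoldsN X6 (Trg.right (Trg.left (Trg.left (chamber 1 1)))) (Trg.left (Trg.right (chamberNR 9 22))) :=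
  HoldsN.of_red (k := 16) (m := 16) (leaf ok6 (G71 _ rfl) (G416 _ rfl) (G189 _ rfl) (by decide +kernel))
theorem l919 : HoldsN X6 (Trg.left (Trg.left (Trg.left (Trg.right (Trg.left (chamber 1 1)))))) (Trg.left (Trg.left (Trg.right (chamberNR 9 22)))) :=
  HoldsN.of_red (k := 16) (m := 16) (leaf ok6 (G65 _ rfl) (G563 _ rfl) (G131 _ rfl) (by decide +kernel))

end Vale.Agent.Lib.P154N.D6
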