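import Vale.Agent.Lib.P154N.D6.Data
import Vale.Agent.Lib.P154N.Red

/-!
# Leaves of the tree of triangles
-/

namespace Vale.Agent.Lib.P154N.D6

open Vale.Agent.Lib.P154K Vale.Agent.Lib.P154Neg

theorem l920 : HoldsN X6 (Trg.right (Trg.left (Trg.left (Trg.right (Trg.left (chamber 1 1)))))) (Trg.left (Trg.left (Trg.right (chamberNR 9 22)))) :=
  HoldsN.of_red (k := 16) (m := 16) (leaf ok6 (G123 _ rfl) (G534 _ rfl) (G130 _ rfl) (by decide +kernel))
theorem l921 : HoldsN X6 (Trg.right (Trg.left (Trg.right (Trg.left (chamber 1 1))))) (Trg.left (Trg.left (Trg.left (Trg.left (Trg.right (chamberNR 9 22)))))) :=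
  HoldsN.of_red (k := 16) (m := 16) (leaf ok6 (G64 _ rfl) (G571 _ rfl) (G89 _ rfl) (by decide +kernel))
theorem l922 : HoldsN X6 (Trg.right (Trg.left (Trg.right (Trg.left (chamber 1 1))))) (Trg.right (Trg.left (Trg.left (Trg.left (Trg.right (chamberNR 9 22)))))) :=
  HoldsN.of_red (k := 16) (m := 16) (leaf ok6 (G83 _ rfl) (G559 _ rfl) (G131 _ rfl) (by decide +kernel))
theorem l923 : HoldsN X6 (Trg.right (Trg.left (Trg.right (Trg.left (chamber 1 1))))) (Trg.right (Trg.left (Trg.left (Trg.right (chamberNR 9 22))))) :=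
  HoldsN.of_red (k := 16) (m := 16) (leaf ok6 (G65 _ rfl) (G571 _ rfl) (G87 _ rfl) (by decide +kernel))
theorem l924 : HoldsN X6 (Trg.left (Trg.right (Trg.left (chamber 1 1)))) (Trg.left (Trg.right (Trg.left (Trg.right (chamberNR 9 22))))) :=
  HoldsN.of_red (k := 16) (m := 16) (leaf ok6 (G29 _ rfl) (G565 _ rfl) (G91 _ rfl) (by decide +kernel))
theorem l925 : HoldsN X6 (Trg.left (Trg.left (Trg.right (Trg.left (chamber 1 1))))) (Trg.right (Trg.right (Trg.left (Trg.right (chamberNR 9 22))))) :=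
  HoldsN.of_red (k := 16) (m := 16) (leaf ok6 (G62 _ rfl) (G539 _ rfl) (G131 _ rfl) (by decide +kernel))
theorem l926 : HoldsN X6 (Trg.left (Trg.right (Trg.left (Trg.right (Trg.left (chamber 1 1)))))) (Trg.left (Trg.left (Trg.right (Trg.right (Trg.left (Trg.right (chamberNR 9 22))))))) :=
  HoldsN.of_red (k := 16) (m := 16) (leaf ok6 (G86 _ rfl) (G573 _ rfl) (G125 _ rfl) (by decide +kernel))
theorem l927 : HoldsN X6 (Trg.left (Trg.right (Trg.left (Trg.right (Trg.left (chamber 1 1)))))) (Trg.right (Trg.left (Trg.right (Trg.right (Trg.left (Trg.right (chamberNR 9 22))))))) :=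
  HoldsN.of_red (k := 16) (m := 16) (leaf ok6 (G104 _ rfl) (G558 _ rfl) (G126 _ rfl) (by decide +kernel))
theorem l928 : HoldsN X6 (Trg.left (Trg.right (Trg.right (Trg.left (Trg.right (Trg.left (chamber 1 1))))))) (Trg.left (Trg.right (Trg.right (Trg.left (Trg.right (chamberNR 9 22)))))) :=
  HoldsN.of_red (k := 16) (m := 16) (leaf ok6 (G58 _ rfl) (G568 _ rfl) (G178 _ rfl) (by decide +kernel))
theorem l929 : HoldsN X6 (Trg.right (Trg.right (Trg.right (Trg.left (Trg.right (Trg.left (chamber 1 1))))))) (Trg.left (Trg.right (Trg.right (Trg.left (Trg.right (chamberNR 9 22)))))) :=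
  HoldsN.of_red (k := 16) (m := 16) (leaf ok6 (G87 _ rfl) (G561 _ rfl) (G168 _ rfl) (by decide +kernel))

end Vale.Agent.Lib.P154N.D6
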