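import Vale.Agent.Lib.P154N.D6.Data
import Vale.Agent.Lib.P154N.Red

/-!
# Leaves of the tree of triangles
-/

namespace Vale.Agent.Lib.P154N.D6

open Vale.Agent.Lib.P154K Vale.Agent.Lib.P154Neg

theorem l940 : HoldsN X6 (Trg.right (Trg.right (Trg.right (Trg.left (chamber 1 1))))) (Trg.right (Trg.right (Trg.left (Trg.right (chamberNR 9 22))))) :=
  HoldsN.of_red (k := 16) (m := 16) (leaf ok6 (G62 _ rfl) (G539 _ rfl) (G180 _ rfl) (by decide +kernel))
theorem l941 : HoldsN X6 (Trg.left (Trg.left (Trg.left (Trg.left (chamber 1 1))))) (Trg.left (Trg.right (Trg.right (chamberNR 9 22)))) :=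
  HoldsN.of_red (k := 16) (m := 16) (leaf ok6 (G133 _ rfl) (G412 _ rfl) (G263 _ rfl) (by decide +kernel))
theorem l942 : HoldsN X6 (Trg.right (Trg.left (Trg.left (Trg.left (chamber 1 1))))) (Trg.left (Trg.left (Trg.right (Trg.right (chamberNR 9 22))))) :=
  HoldsN.of_red (k := 16) (m := 16) (leaf ok6 (G68 _ rfl) (G484 _ rfl) (G305 _ rfl) (by decide +kernel))
theorem l943 : HoldsN X6 (Trg.right (Trg.left (Trg.left (Trg.left (chamber 1 1))))) (Trg.right (Trg.left (Trg.right (Trg.right (chamberNR 9 22))))) :=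
  HoldsN.of_red (k := 16) (m := 16) (leaf ok6 (G142 _ rfl) (G413 _ rfl) (G301 _ rfl) (by decide +kernel))
theorem l944 : HoldsN X6 (Trg.left (Trg.left (Trg.left (chamber 1 1)))) (Trg.right (Trg.right (Trg.right (chamberNR 9 22)))) :=
  HoldsN.of_red (k := 16) (m := 16) (leaf ok6 (G52 _ rfl) (G503 _ rfl) (G188 _ rfl) (by decide +kernel))
theorem l945 : HoldsN X6 (Trg.right (Trg.left (Trg.left (chamber 1 1)))) (Trg.right (Trg.right (chamberNR 9 22))) :=
  HoldsN.of_red (k := 16) (m := 16) (leaf ok6 (G142 _ rfl) (G413 _ rfl) (G186 _ rfl) (by decide +kernel))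
theorem l946 : HoldsN X6 (Trg.left (Trg.left (Trg.left (Trg.right (Trg.left (chamber 1 1)))))) (Trg.left (Trg.left (Trg.right (Trg.right (chamberNR 9 22))))) :=
  HoldsN.of_red (k := 16) (m := 16) (leaf ok6 (G109 _ rfl) (G506 _ rfl) (G223 _ rfl) (by decide +kernel))
theorem l947 : HoldsN X6 (Trg.right (Trg.left (Trg.left (Trg.right (Trg.left (chamber 1 1)))))) (Trg.left (Trg.left (Trg.right (Trg.right (chamberNR 9 22))))) :=
  HoldsN.of_red (k := 16) (m := 16) (leaf ok6 (G172 _ rfl) (G481 _ rfl) (G222 _ rfl) (by decide +kernel))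
theorem l948 : HoldsN X6 (Trg.right (Trg.left (Trg.right (Trg.left (chamber 1 1))))) (Trg.left (Trg.left (Trg.right (Trg.right (chamberNR 9 22))))) :=
  HoldsN.of_red (k := 16) (m := 16) (leaf ok6 (G109 _ rfl) (G506 _ rfl) (G179 _ rfl) (by decide +kernel))
theorem l949 : HoldsN X6 (Trg.left (Trg.right (Trg.left (chamber 1 1)))) (Trg.right (Trg.left (Trg.right (Trg.right (chamberNR 9 22))))) :=
  HoldsN.of_red (k := 16) (m := 16) (leaf ok6 (G210 _ rfl) (G411 _ rfl) (G181 _ rfl) (by decide +kernel))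

end Vale.Agent.Lib.P154N.D6
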